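import Crest.Agent.R258.Lib

set_option autoImplicit false

noncomputable section

namespace Crest.Agent.R258

open Crest.AlgGeometry.QuadricBundle
open Matrix Finset
open scoped ComplexConjugate ComplexOrder Topology

/-- a binary form is the sum of its monomials -/
theorem homog_eq_sum {n : ℕ} {R : MvPolynomial (Fin 2) ℂ} (hR : R.IsHomogeneous n) :
    R = ∑ i ∈ range (n + 1),
      MvPolynomial.C (MvPolynomial.coeff (Finsupp.single 0 i + Finsupp.single 1 (n - i)) R) *
        MvPolynomial.X 0 ^ i * MvPolynomial.X 1 ^ (n - i) := by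
  have hmon : ∀ (i : ℕ) (c : ℂ), MvPolynomial.C c *
        (MvPolynomial.X 0 : MvPolynomial (Fin 2) ℂ) ^ i * MvPolynomial.X 1 ^ (n - i) =
      MvPolynomial.monomial (Finsupp.single 0 i + Finsupp.single 1 (n - i)) c := by
    intro i c
    rw [MvPolynomial.X_pow_eq_monomial, MvPolynomial.X_pow_eq_monomial, MvPolynomial.C_mul_monomial,
      MvPolynomial.monomial_mul]
    simp
  simp only [hmon]
  ext m
  rw [MvPolynomial.coeff_sum]
  simp only [MvPolynomial.coeff_monomial]
  by_cases hm : m 0 + m 1 = n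
  · have hm' : Finsupp.single (0 : Fin 2) (m 0) + Finsupp.single 1 (n - m 0) = m := by
      ext l
      fin_cases l
      · simp
      · simp; omega
    rw [Finset.sum_eq_single (m 0)]
    · rw [if_pos hm', hm']
    · intro i _ hi
      rw [if_neg]
      intro h
      apply hi
      rw [← h]
      simp
    · intro h
      exfalso
      apply h
      rw [Finset.mem_range]
      omega
  · have h0 : MvPolynomial.coeff m R = 0 := by
      by_contra h
      apply hm
      have := hR h
      rw [← this, Finsupp.weight_apply, Finsupp.sum_fintype]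
      · simp [Fin.sum_univ_two]
      · simp
    rw [h0, Finset.sum_eq_zero]
    intro i hi
    rw [if_neg]
    intro h
    apply hm
    rw [← h]
    rw [Finset.mem_range] at hi
    simp
    omega

theorem frameSubst_smul_matrix {n : ℕ} (l : ℂ) (G : Matrix (Fin 2) (Fin 2) ℂ)
    {Q : MvPolynomial (Fin 2) ℂ} (hQ : Q.IsHomogeneous n) :
    frameSubst (l • G) Q = l ^ n • frameSubst G Q := by
  rw [homog_eq_sum hQ]
  unfold frameSubst
  simp only [map_sum, map_mul, map_pow, MvPolynomial.bind₁_X_right, MvPolynomial.bind₁_C_right]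
  rw [Finset.smul_sum]
  refine Finset.sum_congr rfl fun i hi => ?_
  rw [Finset.mem_range] at hi
  have hin : l ^ n = l ^ i * l ^ (n - i) := by rw [← pow_add]; congr 1; omega
  have hs : ∀ j : Fin 2, ∑ i, (MvPolynomial.C ((l • G) i j) : MvPolynomial (Fin 2) ℂ) *
      MvPolynomial.X i = MvPolynomial.C l * ∑ i, MvPolynomial.C (G i j) * MvPolynomial.X i := by
    intro j
    rw [Finset.mul_sum]
    refine Finset.sum_congr rfl fun i _ => ?_
    simp only [Matrix.smul_apply, smul_eq_mul, map_mul, mul_assoc]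
  rw [hs 0, hs 1, hin, MvPolynomial.smul_eq_C_mul, mul_pow, mul_pow, map_mul, map_pow, map_pow]
  ring

theorem frameSubst_smul (l : ℂ) (G : Matrix (Fin 2) (Fin 2) ℂ) (Q : MvPolynomial (Fin 2) ℂ) :
    frameSubst G (l • Q) = l • frameSubst G Q := by
  unfold frameSubst
  rw [map_smul]

theorem lineTrans_sq (r t : ℤ) (α β : Chart) (p : V2) :
    lineTrans r t α β (sq p) = lineTrans (2 * r) (2 * t) α β p := by
  simp only [lineTrans, sq]
  congr 1
  · split_ifs
    · rfl
    · rw [_root_.zpow_mul]; norm_cast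
  · split_ifs
    · rfl
    · rw [_root_.zpow_mul]; norm_cast

theorem lineTrans_mul (r t r' t' : ℤ) (α β : Chart) (p : V2) (hp : p ∈ overlap α β) :
    lineTrans r t α β p * lineTrans r' t' α β p = lineTrans (r + r') (t + t') α β p := by
  obtain ⟨h0, h1⟩ := hp
  simp only [lineTrans]
  by_cases ha : α.1 = β.1 <;> by_cases hb : α.2 = β.2
  · simp [ha, hb]
  · simp [ha, hb, zpow_add₀ (h1 hb)]
  · simp [ha, hb, zpow_add₀ (h0 ha)]
  · simp only [ha, hb, if_false, zpow_add₀ (h0 ha), zpow_add₀ (h1 hb)]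
    ring

theorem lineTrans_pow (α β : Chart) (p : V2) (n : ℕ) :
    lineTrans 1 1 α β p ^ n = lineTrans n n α β p := by
  simp only [lineTrans, mul_pow]
  congr 1
  · split_ifs <;> simp
  · split_ifs <;> simp

theorem tau_sq (α β : Chart) (p : V2) : tau α β (sq p) = sq (tau α β p) := by
  funext l
  fin_cases l
  · simp only [tau, sq, Fin.zero_eta, Matrix.cons_val_zero]
    split_ifs
    · rfl
    · rw [inv_pow]
  · show (if α.2 = β.2 then (p 1) ^ 2 else ((p 1) ^ 2)⁻¹) =
      (if α.2 = β.2 then p 1 else (p 1)⁻¹) ^ 2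
    split_ifs
    · rfl
    · rw [inv_pow]

theorem sq_overlap {α β : Chart} {p : V2} (hp : p ∈ overlap α β) : sq p ∈ overlap α β :=
  ⟨fun h => pow_ne_zero _ (hp.1 h), fun h => pow_ne_zero _ (hp.2 h)⟩

theorem sq_diff : Differentiable ℂ (sq : V2 → V2) := by
  rw [differentiable_pi]
  intro i
  show Differentiable ℂ (fun p : V2 => p i ^ 2)
  fun_prop

theorem ample : StAmple := by
  intro hconv M B L K hctx hGG k
  refine ⟨k + 8, fun n hn α p R hR => ?_⟩
  obtain ⟨a, c0, ha, hc0, hv⟩ := hGG n 4 4 le_rfl le_rfl α (sq p)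
    (fun i => MvPolynomial.coeff (Finsupp.single 0 i + Finsupp.single 1 (n - i)) R)
  -- local coefficients in every chart
  obtain ⟨c, hc, hcα⟩ : ∃ c : Chart → ℕ → V2 → ℂ, (∀ β, Loc M L n a β (c β)) ∧ c α = c0 := by
    choose d hd using ha.loc
    refine ⟨Function.update d α c0, fun β => ?_, by simp⟩
    by_cases h : β = α
    · subst h; simpa using hc0
    · rw [Function.update_of_ne h]; exact hd β
  have hgst := hconv M B L K hctx n 4 4 a ha c hc
  set r := n - k - 8 with hr
  set mm : V2 → V2 → ℂ := fun X Y => X (1 - α.1) ^ r * Y (1 - α.2) ^ r with hmm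
  have hmmH : mm ∈ H r r := H_XY _ _ r r
  refine ⟨fun β p => res mm β p • secQ n c β (sq p), ⟨?_, ?_, ?_⟩, ?_⟩
  · intro β p
    show (res mm β p • secQ n c β (sq p)).IsHomogeneous n
    rw [MvPolynomial.smul_eq_C_mul]
    have := (MvPolynomial.isHomogeneous_C (Fin 2) (res mm β p)).mul (hgst.1 β (sq p))
    simpa using this
  · intro β m
    simp only [MvPolynomial.coeff_smul, smul_eq_mul]
    exact (res_diff hmmH β).mul ((hgst.2.1 β m).comp sq_diff)
  · intro γ β p hp
    have h1 := hgst.2.2 γ β (sq p) (sq_overlap hp)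
    show res mm γ p • secQ n c γ (sq p) = _
    rw [h1, tau_sq, g1]
    rw [frameSubst_smul, frameSubst_smul_matrix _ _ (hgst.1 β _), lineTrans_pow,
      res_trans hmmH γ β p hp]
    simp only [smul_smul]
    congr 1
    push_cast
    rw [lineTrans_sq]
    have e1 := lineTrans_mul (-(k : ℤ)) (-(k : ℤ)) n n γ β p hp
    have e2 := lineTrans_mul (r : ℤ) (r : ℤ) (2 * 4) (2 * 4) γ β p hp
    have e3 : (r : ℤ) + 2 * 4 = -(k : ℤ) + n := by omega
    rw [e3] at e2
    linear_combination (res mm β (tau γ β p)) * e2 - (res mm β (tau γ β p)) * e1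
  · have h1 : res mm α p = 1 := by
      simp only [hmm, res, cv_other, one_pow, mul_one]
    show res mm α p • secQ n c α (sq p) = R
    rw [h1, one_smul, secQ, hcα]
    conv_rhs => rw [homog_eq_sum hR]
    refine Finset.sum_congr rfl fun i hi => ?_
    rw [Finset.mem_range] at hi
    rw [hv i (by omega)]

end Crest.Agent.R258
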