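import Crest.Agent.R258.Lib

/-!
# Row 258, task BIG: lifting for large `s`
-/

set_option autoImplicit false

noncomputable section

namespace Crest.Agent.R258

open Crest.AlgGeometry.QuadricBundle
open Matrix Finset
open scoped ComplexConjugate ComplexOrder Topology

namespace BIG

variable {M : Mats} {B : ℕ} {L : Fin 2 → V2 → V2 → ℂ} {K : V2 → V2 → ℂ}

/-- every `a₀` is an extreme coefficient -/
theorem a0 (hF : StMulF) (hC : Ctx M B L K) : ∀ (j s t : ℕ), 3 * j + 2 * (B + 11) ≤ s →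
    ∀ f ∈ H (j * (B + 8) + s) t, ∃ a, MemM M B L j s t a ∧ a 0 = f := by
  intro j
  induction j with
  | zero =>
    intro s t _ f hf
    exact ⟨_, memM_zero (H_cast hf (by omega) rfl), by simp⟩
  | succ j ih =>
    intro s t hs f hf
    obtain ⟨s', rfl⟩ : ∃ s', s = s' + 3 := ⟨s - 3, by omega⟩
    have hf' : f ∈ H ((j * (B + 8) + s') + (B + 11)) t := H_cast hf (by ring) rfl
    have hb0 : 0 ≤ j * (B + 8) := Nat.zero_le _
    obtain ⟨b, hb, c, hc, hbc⟩ := H_split_pow (N := B + 11) (by omega) hf'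
    obtain ⟨Fb, hFb, hFb0⟩ := ih s' t (by omega) b hb
    obtain ⟨Fc, hFc, hFc0⟩ := ih s' t (by omega) c hc
    refine ⟨mulF B L 0 Fb + mulF B L 1 Fc,
      (hF M B L K hC j s' t Fb 0 hFb).add (hF M B L K hC j s' t Fc 1 hFc), ?_⟩
    funext X Y
    rw [hbc X Y]
    show mulF B L 0 Fb 0 X Y + mulF B L 1 Fc 0 X Y = _
    simp only [mulF, hFb0, hFc0]
    rfl

theorem pow_eq_one (hC : Ctx M B L K) {i k : Fin 4} (hik : i ≠ k) {X : V2} (hX : X ≠ 0) {μ : ℂ}
    (h : M i *ᵥ X = μ • (M k *ᵥ X)) (j : ℕ) : μ ^ (j * (B + 8)) = 1 := by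
  have h20 := hC.cfg.root i k hik X hX μ h
  obtain ⟨d, hd⟩ := hC.dvd
  rw [hd, show j * (20 * d) = 20 * (j * d) by ring, pow_mul, h20, one_pow]

/-- division by `δ` of a top coefficient -/
theorem div_top (hDiv : StDiv) (hC : Ctx M B L K) {j s t : ℕ} {f : V2 → V2 → ℂ}
    (hf : f ∈ H (s + 4) ((j + 1) * (B + 8) + t)) (h0 : OnD M f 0) :
    ∃ g ∈ H s (j * (B + 8) + (t + (B + 4))), ∀ X Y : V2, f X Y = dl M X Y * g X Y := by
  apply (hDiv M hC.cfg).1 _ _ f _ h0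
  exact H_cast hf rfl (by ring)

/-- every top coefficient occurs -/
theorem top (hI : StInterp) (hDiv : StDiv) (hE : StMulE) (hF : StMulF) (hO : StOnD)
    (hC : Ctx M B L K) : ∀ (j s t : ℕ), 4 * j + 2 * (B + 11) ≤ s → 3 ≤ t →
    ∀ r ∈ H s (j * (B + 8) + t), ∃ a, MemM M B L j s t a ∧ a j = r := by
  intro j
  induction j with
  | zero =>
    intro s t _ _ f hf
    exact ⟨_, memM_zero (H_cast hf rfl (by omega)), by simp⟩
  | succ j ih =>
    intro s t hs ht r hr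
    have hb0 : 0 ≤ (j + 1) * (B + 8) := Nat.zero_le _
    -- interpolate
    obtain ⟨b, hb, hbM⟩ := hI M hC.cfg ((j + 1) * (B + 8) + s) t (by omega) ht
      (fun i X => r X (M i *ᵥ X))
      (fun i => Bn_cast (H_graph hr (M i)) (by omega))
      (by
        intro i k hik X hX μ hμ
        show r X (M i *ᵥ X) = μ ^ t * r X (M k *ᵥ X)
        rw [hμ, H_homY hr, pow_add, pow_eq_one hC hik hX hμ, one_mul])
    obtain ⟨Fb, hFb, hFb0⟩ := a0 hF hC (j + 1) s t (by omega) b hb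
    have hon := hO M B L K hC _ _ _ _ hFb
    obtain ⟨s', rfl⟩ : ∃ s', s = s' + 4 := ⟨s - 4, by omega⟩
    have hmem : r - Fb (j + 1) ∈ H (s' + 4) ((j + 1) * (B + 8) + t) := by
      apply Submodule.sub_mem _ hr
      have := hFb.mem (j + 1) le_rfl
      exact H_cast this (by simp) rfl
    have hz : OnD M (r - Fb (j + 1)) 0 := by
      intro i X
      have h1 := hon i X
      have h2 := hbM i X
      rw [hFb0] at h1
      show r X (M i *ᵥ X) - Fb (j + 1) X (M i *ᵥ X) = 0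
      rw [h1, h2, sub_self]
    obtain ⟨r1, hr1, hr1e⟩ := div_top hDiv hC hmem hz
    obtain ⟨F1, hF1, hF1t⟩ := ih s' (t + (B + 4)) (by omega) (by omega) r1 hr1
    refine ⟨Fb + mulE M F1, hFb.add (hE M B L K hC j s' t F1 hF1), ?_⟩
    funext X Y
    show Fb (j + 1) X Y + dl M X Y * F1 j X Y = r X Y
    rw [hF1t, ← hr1e]
    show Fb (j + 1) X Y + (r X Y - Fb (j + 1) X Y) = r X Y
    ring

end BIG

open BIG in
theorem big : StBig := by
  intro hI hDiv hE hF _ hO M B L K hC j hj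
  refine ⟨4 * j + 2 * (B + 11), ?_⟩
  intro s t hs ht a0 ha0 aj haj hon
  obtain ⟨j', rfl⟩ : ∃ j', j = j' + 1 := ⟨j - 1, by omega⟩
  obtain ⟨F0, hF0, hF00⟩ := BIG.a0 hF hC (j' + 1) s t (by omega) a0 ha0
  have hon0 := hO M B L K hC _ _ _ _ hF0
  obtain ⟨s', rfl⟩ : ∃ s', s = s' + 4 := ⟨s - 4, by omega⟩
  have hmem : aj - F0 (j' + 1) ∈ H (s' + 4) ((j' + 1) * (B + 8) + t) := by
    apply Submodule.sub_mem _ haj
    have := hF0.mem (j' + 1) le_rfl
    exact H_cast this (by simp) rfl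
  have hz : OnD M (aj - F0 (j' + 1)) 0 := by
    intro i X
    have h1 := hon0 i X
    have h2 := hon i X
    rw [hF00] at h1
    show aj X (M i *ᵥ X) - F0 (j' + 1) X (M i *ᵥ X) = 0
    rw [h1, h2, sub_self]
  obtain ⟨r1, hr1, hr1e⟩ := div_top hDiv hC hmem hz
  obtain ⟨F1, hF1, hF1t⟩ := top hI hDiv hE hF hO hC j' s' (t + (B + 4)) (by omega) (by omega)
    r1 hr1
  refine ⟨F0 + mulE M F1, hF0.add (hE M B L K hC j' s' t F1 hF1), ?_, ?_⟩
  · funext X Y
    show F0 0 X Y + 0 = a0 X Y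
    rw [hF00, add_zero]
  · funext X Y
    show F0 (j' + 1) X Y + dl M X Y * F1 j' X Y = aj X Y
    rw [hF1t, ← hr1e]
    show F0 (j' + 1) X Y + (aj X Y - F0 (j' + 1) X Y) = aj X Y
    ring

end Crest.Agent.R258
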