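import Crest.Agent.R258.Defs

set_option autoImplicit false

namespace Crest.Agent.R258
namespace CFG

open Matrix
open scoped ComplexConjugate

/-- `(i/2) h`, `h` Hermitian with trace `2t` -/
noncomputable def Mx (t A B C : ℝ) : Matrix (Fin 2) (Fin 2) ℂ :=
  !![Complex.I / 2 * ((t : ℂ) + C), Complex.I / 2 * ((A : ℂ) - Complex.I * B);
     Complex.I / 2 * ((A : ℂ) + Complex.I * B), Complex.I / 2 * ((t : ℂ) - C)]

theorem Mx_0 (t A B C : ℝ) (X : V2) : (Mx t A B C *ᵥ X) 0 =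
    Complex.I / 2 * ((t : ℂ) + C) * X 0 + Complex.I / 2 * ((A : ℂ) - Complex.I * B) * X 1 := by
  simp [Mx, Matrix.mulVec, dotProduct, Fin.sum_univ_two]

theorem Mx_1 (t A B C : ℝ) (X : V2) : (Mx t A B C *ᵥ X) 1 =
    Complex.I / 2 * ((A : ℂ) + Complex.I * B) * X 0 + Complex.I / 2 * ((t : ℂ) - C) * X 1 := by
  simp [Mx, Matrix.mulVec, dotProduct, Fin.sum_univ_two]

theorem Mx_det {t A B C : ℝ} (h : A ^ 2 + B ^ 2 + C ^ 2 = t ^ 2 + 4) : (Mx t A B C).det = 1 := by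
  have h' : (A : ℂ) ^ 2 + (B : ℂ) ^ 2 + (C : ℂ) ^ 2 = (t : ℂ) ^ 2 + 4 := by exact_mod_cast h
  have hI := Complex.I_sq
  rw [Mx, Matrix.det_fin_two_of]
  linear_combination (-(t : ℂ) ^ 2 / 4 + (A : ℂ) ^ 2 / 4 + (C : ℂ) ^ 2 / 4 +
    (B : ℂ) ^ 2 / 4 * (1 - Complex.I ^ 2)) * (-hI) + (1 / 4 : ℂ) * h'

/-- the Hermitian form -/
noncomputable def T (t A B C : ℝ) (X : V2) : ℝ :=
  t * (Complex.normSq (X 0) + Complex.normSq (X 1)) + A * (2 * (conj (X 0) * X 1).re) +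
    B * (2 * (conj (X 0) * X 1).im) + C * (Complex.normSq (X 0) - Complex.normSq (X 1))

theorem form_eq (t A B C : ℝ) (X : V2) :
    conj (X 0) * (Mx t A B C *ᵥ X) 0 + conj (X 1) * (Mx t A B C *ᵥ X) 1 =
      Complex.I / 2 * (T t A B C X : ℂ) := by
  rw [Mx_0, Mx_1]
  unfold T
  apply Complex.ext <;> simp [Complex.normSq_apply] <;> ring

theorem nrm2_eq {t A B C : ℝ} (h : A ^ 2 + B ^ 2 + C ^ 2 = t ^ 2 + 4) (X : V2) :
    nrm2 (Mx t A B C *ᵥ X) = nrm2 X + t / 2 * T t A B C X := by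
  unfold nrm2 T
  rw [Mx_0, Mx_1]
  simp only [Complex.sq_norm, Complex.normSq_apply]
  simp
  linear_combination (1 / 4 : ℝ) * ((X 0).re ^ 2 + (X 0).im ^ 2 + (X 1).re ^ 2 + (X 1).im ^ 2) * h

theorem Mx_inv {t A B C : ℝ} (h : A ^ 2 + B ^ 2 + C ^ 2 = t ^ 2 + 4) (Y : V2) :
    Mx t A B C *ᵥ (Mx t (-A) (-B) (-C) *ᵥ Y) = Y := by
  have h' : (A : ℂ) ^ 2 + (B : ℂ) ^ 2 + (C : ℂ) ^ 2 = (t : ℂ) ^ 2 + 4 := by exact_mod_cast h
  have hI := Complex.I_sq
  funext i
  fin_cases i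
  · show (Mx t A B C *ᵥ (Mx t (-A) (-B) (-C) *ᵥ Y)) 0 = Y 0
    rw [Mx_0, Mx_0, Mx_1]
    push_cast
    linear_combination (Y 0 * ((t : ℂ) ^ 2 / 4 - (A : ℂ) ^ 2 / 4 - (C : ℂ) ^ 2 / 4 -
      (B : ℂ) ^ 2 / 4 * (1 - Complex.I ^ 2))) * hI + (1 / 4 : ℂ) * Y 0 * h'
  · show (Mx t A B C *ᵥ (Mx t (-A) (-B) (-C) *ᵥ Y)) 1 = Y 1
    rw [Mx_1, Mx_0, Mx_1]
    push_cast
    linear_combination (Y 1 * ((t : ℂ) ^ 2 / 4 - (A : ℂ) ^ 2 / 4 - (C : ℂ) ^ 2 / 4 -
      (B : ℂ) ^ 2 / 4 * (1 - Complex.I ^ 2))) * hI + (1 / 4 : ℂ) * Y 1 * h'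

theorem charp {P Q : Matrix (Fin 2) (Fin 2) ℂ} (hP : P.det = 1) (hQ : Q.det = 1) {X : V2}
    (hX : X ≠ 0) {μ : ℂ} (h : P *ᵥ X = μ • (Q *ᵥ X)) :
    μ ^ 2 - (P 0 0 * Q 1 1 + Q 0 0 * P 1 1 - P 0 1 * Q 1 0 - Q 0 1 * P 1 0) * μ + 1 = 0 := by
  have h1 : (P - μ • Q) *ᵥ X = 0 := by
    rw [Matrix.sub_mulVec, Matrix.smul_mulVec, h, sub_self]
  have h2 : (P - μ • Q).det = 0 := Matrix.exists_mulVec_eq_zero_iff.1 ⟨X, hX, h1⟩
  rw [Matrix.det_fin_two] at h2 hP hQ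
  simp only [Matrix.sub_apply, Matrix.smul_apply, smul_eq_mul] at h2
  linear_combination h2 - hP - μ ^ 2 * hQ

theorem trace_eq (t A B C A' B' C' : ℝ) :
    (Mx t A B C) 0 0 * (Mx t A' B' C') 1 1 + (Mx t A' B' C') 0 0 * (Mx t A B C) 1 1 -
      (Mx t A B C) 0 1 * (Mx t A' B' C') 1 0 - (Mx t A' B' C') 0 1 * (Mx t A B C) 1 0 =
      -(((t ^ 2 - (A * A' + B * B' + C * C')) / 2 : ℝ) : ℂ) := by
  have hI := Complex.I_sq
  simp only [Mx, Matrix.of_apply, Matrix.cons_val', Matrix.cons_val_zero, Matrix.cons_val_one,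
    Matrix.cons_val_fin_one]
  push_cast
  linear_combination ((t : ℂ) ^ 2 / 2 - (A : ℂ) * A' / 2 - (C : ℂ) * C' / 2 -
    (B : ℂ) * B' / 2 * (1 - Complex.I ^ 2)) * hI

theorem quad_factor (a b c : ℂ) (h : b ^ 2 - 4 * a * c ≠ 0) :
    ∃ (X1 X2 : V2) (k : ℂ), br X1 X2 ≠ 0 ∧ k ≠ 0 ∧
      ∀ X : V2, a * X 0 ^ 2 + b * (X 0 * X 1) + c * X 1 ^ 2 = k * br X1 X * br X2 X := by
  obtain ⟨s, hs⟩ := IsAlgClosed.exists_pow_nat_eq (b ^ 2 - 4 * a * c) (n := 2) (by norm_num)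
  have hs0 : s ≠ 0 := by
    rintro rfl
    apply h
    rw [← hs]; norm_num
  by_cases ha : a = 0
  · subst ha
    have hb : b ≠ 0 := by
      rintro rfl
      apply h; ring
    refine ⟨![1, 0], ![-c / b, 1], -b, ?_, neg_ne_zero.2 hb, fun X => ?_⟩
    · simp [br]
    · simp only [br, Matrix.cons_val_zero, Matrix.cons_val_one]
      field_simp
      ring
  · refine ⟨![(-b + s) / (2 * a), 1], ![(-b - s) / (2 * a), 1], a, ?_, ha, fun X => ?_⟩
    · simp only [br, Matrix.cons_val_zero, Matrix.cons_val_one]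
      have : (-b + s) / (2 * a) * 1 - 1 * ((-b - s) / (2 * a)) = s / a := by
        field_simp; ring
      rw [this]
      exact div_ne_zero hs0 ha
    · simp only [br, Matrix.cons_val_zero, Matrix.cons_val_one]
      have h1 : c = (b ^ 2 - s ^ 2) / (4 * a) := by
        rw [hs]; field_simp; ring
      rw [h1]
      field_simp
      ring

theorem node_gen {P Q : Matrix (Fin 2) (Fin 2) ℂ} (hP : P.det = 1) (hQ : Q.det = 1)
    (h : (P 0 0 * Q 1 1 + Q 0 0 * P 1 1 - P 0 1 * Q 1 0 - Q 0 1 * P 1 0) ^ 2 ≠ 4) :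
    ∃ (X1 X2 : V2) (c : ℂ), br X1 X2 ≠ 0 ∧ c ≠ 0 ∧
      ∀ X : V2, br (P *ᵥ X) (Q *ᵥ X) = c * br X1 X * br X2 X := by
  obtain ⟨X1, X2, k, h1, h2, h3⟩ := quad_factor (P 0 0 * Q 1 0 - P 1 0 * Q 0 0)
    (P 0 0 * Q 1 1 + P 0 1 * Q 1 0 - P 1 0 * Q 0 1 - P 1 1 * Q 0 0)
    (P 0 1 * Q 1 1 - P 1 1 * Q 0 1) (by
      intro h4
      apply h
      rw [Matrix.det_fin_two] at hP hQ
      linear_combination h4 + 4 * (Q 0 0 * Q 1 1 - Q 0 1 * Q 1 0) * hP + 4 * hQ)
  refine ⟨X1, X2, k, h1, h2, fun X => ?_⟩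
  rw [← h3 X]
  simp only [br, Matrix.mulVec, dotProduct, Fin.sum_univ_two]
  ring

theorem pow20 {μ s e : ℂ} (hs : s ^ 2 = 5) (h : μ ^ 2 + e / 2 * μ + 1 = 0)
    (he : e = s + 1 ∨ e = s - 1 ∨ e = 0) : μ ^ 20 = 1 := by
  rcases he with rfl | rfl | rfl
  · have h5 : μ ^ 4 + μ ^ 3 + μ ^ 2 + μ + 1 = 0 := by
      linear_combination (μ ^ 2 + (1 - s) / 2 * μ + 1) * h + μ ^ 2 / 4 * hs
    linear_combination (μ - 1) * (μ ^ 15 + μ ^ 10 + μ ^ 5 + 1) * h5
  · have h5 : μ ^ 4 - μ ^ 3 + μ ^ 2 - μ + 1 = 0 := by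
      linear_combination (μ ^ 2 - (1 + s) / 2 * μ + 1) * h + μ ^ 2 / 4 * hs
    linear_combination (μ + 1) * (μ ^ 5 - 1) * (μ ^ 10 + 1) * h5
  · have h5 : μ ^ 2 = -1 := by linear_combination h
    calc μ ^ 20 = (μ ^ 2) ^ 10 := by ring
      _ = 1 := by rw [h5]; norm_num

theorem im_ne {μ : ℂ} {e : ℝ} (h : μ ^ 2 + (e : ℂ) / 2 * μ + 1 = 0) (h0 : 0 ≤ e) (h4 : e < 4) :
    μ.im ≠ 0 := by
  intro him
  have h1 : μ = (μ.re : ℂ) := by
    apply Complex.ext <;> simp [him]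
  rw [h1] at h
  have h2 : μ.re ^ 2 + e / 2 * μ.re + 1 = 0 := by exact_mod_cast h
  nlinarith [sq_nonneg (μ.re + e / 4)]

/-! ### signs -/

def sa : Fin 4 → ℝ := ![1, 1, -1, -1]
def sb : Fin 4 → ℝ := ![1, -1, 1, -1]
def sc : Fin 4 → ℝ := ![1, -1, -1, 1]

structure Par (t x y z s : ℝ) : Prop where
  t0 : 0 < t
  s0 : 0 < s
  hs : s ^ 2 = 5
  ht : t ^ 2 = (s - 2) / 2
  hx : x ^ 2 = 1 / 2
  hy : y ^ 2 = 3 / 2
  hz : z ^ 2 = (s + 2) / 2

theorem par_exists : ∃ t x y z s, Par t x y z s := by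
  have h5 : Real.sqrt 5 ^ 2 = 5 := Real.sq_sqrt (by norm_num)
  have h50 : 0 < Real.sqrt 5 := Real.sqrt_pos.2 (by norm_num)
  have h52 : 2 < Real.sqrt 5 := by nlinarith
  refine ⟨Real.sqrt ((Real.sqrt 5 - 2) / 2), Real.sqrt (1 / 2), Real.sqrt (3 / 2),
    Real.sqrt ((Real.sqrt 5 + 2) / 2), Real.sqrt 5, ⟨?_, h50, h5, ?_, ?_, ?_, ?_⟩⟩
  · exact Real.sqrt_pos.2 (by linarith)
  · exact Real.sq_sqrt (by linarith)
  · exact Real.sq_sqrt (by norm_num)
  · exact Real.sq_sqrt (by norm_num)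
  · exact Real.sq_sqrt (by linarith)

section main
variable {t x y z s : ℝ}

noncomputable def MM (t x y z : ℝ) : Mats := fun i => Mx t (sa i * x) (sb i * y) (sc i * z)

theorem sa_sq (i : Fin 4) : sa i ^ 2 = 1 := by fin_cases i <;> simp [sa]
theorem sb_sq (i : Fin 4) : sb i ^ 2 = 1 := by fin_cases i <;> simp [sb]
theorem sc_sq (i : Fin 4) : sc i ^ 2 = 1 := by fin_cases i <;> simp [sc]

theorem sum_sq (h : Par t x y z s) (i : Fin 4) :
    (sa i * x) ^ 2 + (sb i * y) ^ 2 + (sc i * z) ^ 2 = t ^ 2 + 4 := by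
  rw [mul_pow, mul_pow, mul_pow, sa_sq, sb_sq, sc_sq, h.ht, h.hx, h.hy, h.hz]
  ring

theorem e_cases (h : Par t x y z s) {i j : Fin 4} (hij : i ≠ j) :
    t ^ 2 - ((sa i * x) * (sa j * x) + (sb i * y) * (sb j * y) + (sc i * z) * (sc j * z)) = s + 1 ∨
    t ^ 2 - ((sa i * x) * (sa j * x) + (sb i * y) * (sb j * y) + (sc i * z) * (sc j * z)) = s - 1 ∨
    t ^ 2 - ((sa i * x) * (sa j * x) + (sb i * y) * (sb j * y) + (sc i * z) * (sc j * z)) = 0 := by
  have hh : t ^ 2 - ((sa i * x) * (sa j * x) + (sb i * y) * (sb j * y) +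
      (sc i * z) * (sc j * z)) = (s - 2) / 2 - (sa i * sa j * (1 / 2) + sb i * sb j * (3 / 2) +
        sc i * sc j * ((s + 2) / 2)) := by
    rw [← h.ht, ← h.hx, ← h.hy, ← h.hz]; ring
  rw [hh]
  fin_cases i <;> fin_cases j <;> simp [sa, sb, sc] at hij ⊢
  all_goals first
    | (left; ring; done)
    | (right; left; ring; done)
    | (right; right; ring; done)

theorem s_bounds (h : Par t x y z s) : 2.236 < s ∧ s < 2.2361 := by
  have h1 := h.hs
  have h2 := h.s0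
  constructor <;> nlinarith

/-- the real number `e` -/
noncomputable def ee (t x y z : ℝ) (i j : Fin 4) : ℝ :=
  t ^ 2 - ((sa i * x) * (sa j * x) + (sb i * y) * (sb j * y) + (sc i * z) * (sc j * z))

theorem ee_bounds (h : Par t x y z s) {i j : Fin 4} (hij : i ≠ j) :
    0 ≤ ee t x y z i j ∧ ee t x y z i j < 4 := by
  obtain ⟨h1, h2⟩ := s_bounds h
  unfold ee
  rcases e_cases h hij with h3 | h3 | h3 <;> rw [h3] <;> constructor <;> linarith

theorem det_MM (h : Par t x y z s) (i : Fin 4) : (MM t x y z i).det = 1 :=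
  Mx_det (sum_sq h i)

theorem mu_eq (h : Par t x y z s) {i j : Fin 4} {X : V2} (hX : X ≠ 0) {μ : ℂ}
    (hμ : MM t x y z i *ᵥ X = μ • (MM t x y z j *ᵥ X)) :
    μ ^ 2 + (ee t x y z i j : ℂ) / 2 * μ + 1 = 0 := by
  have h1 := charp (det_MM h i) (det_MM h j) hX hμ
  unfold MM at h1
  rw [trace_eq] at h1
  unfold ee
  push_cast at h1 ⊢
  linear_combination h1

theorem injX (h : Par t x y z s) (i : Fin 4) {X : V2} (hX : X ≠ 0) : MM t x y z i *ᵥ X ≠ 0 := by
  intro h1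
  apply hX
  by_contra h2
  have h3 : (MM t x y z i).det = 0 := Matrix.exists_mulVec_eq_zero_iff.1 ⟨X, hX, h1⟩
  rw [det_MM h i] at h3
  exact one_ne_zero h3

theorem br_zero {U W : V2} (hW : W ≠ 0) (h : br U W = 0) : ∃ μ : ℂ, U = μ • W := by
  unfold br at h
  by_cases h0 : W 0 = 0
  · have h1 : W 1 ≠ 0 := by
      intro h1
      apply hW
      funext i
      fin_cases i
      · exact h0
      · exact h1
    refine ⟨U 1 / W 1, ?_⟩
    rw [h0, mul_zero, sub_zero] at h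
    have h2 : U 0 = 0 := by
      rcases mul_eq_zero.1 h with h3 | h3
      · exact h3
      · exact absurd h3 h1
    funext i
    fin_cases i
    · simp [h0, h2]
    · simp [h1]
  · refine ⟨U 0 / W 0, ?_⟩
    funext i
    fin_cases i
    · simp [h0]
    · simp only [Fin.mk_one, Pi.smul_apply, smul_eq_mul]
      field_simp
      linear_combination -h

/-- the value of the Hermitian form at `X` -/
noncomputable def TT (t x y z : ℝ) (i : Fin 4) (X : V2) : ℝ :=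
  T t (sa i * x) (sb i * y) (sc i * z) X

theorem TT_zero (h : Par t x y z s) {i j : Fin 4} (hij : i ≠ j) {X : V2} (hX : X ≠ 0)
    (hb : br (MM t x y z i *ᵥ X) (MM t x y z j *ᵥ X) = 0) :
    TT t x y z i X = 0 ∧ TT t x y z j X = 0 := by
  obtain ⟨μ, hμ⟩ := br_zero (injX h j hX) hb
  have h1 := mu_eq h hX hμ
  have h2 := im_ne h1 (ee_bounds h hij).1 (ee_bounds h hij).2
  have h3 := form_eq t (sa i * x) (sb i * y) (sc i * z) X
  have h4 := form_eq t (sa j * x) (sb j * y) (sc j * z) X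
  have h5 : Mx t (sa i * x) (sb i * y) (sc i * z) *ᵥ X =
      μ • (Mx t (sa j * x) (sb j * y) (sc j * z) *ᵥ X) := hμ
  rw [h5] at h3
  simp only [Pi.smul_apply, smul_eq_mul] at h3
  have h6 : Complex.I / 2 * ((TT t x y z i X : ℂ) - μ * (TT t x y z j X : ℂ)) = 0 := by
    unfold TT
    linear_combination -h3 + μ * h4
  have h7 : (TT t x y z i X : ℂ) - μ * (TT t x y z j X : ℂ) = 0 := by
    rcases mul_eq_zero.1 h6 with h8 | h8
    · simp at h8
    · exact h8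
  have h8 := congrArg Complex.im h7
  simp at h8
  rcases h8 with h8 | h8
  · exact absurd h8 h2
  · refine ⟨?_, h8⟩
    rw [h8] at h7
    simpa using h7

/-- the three coordinates of `X` on the sphere -/
noncomputable def pp (X : V2) : ℝ := 2 * (conj (X 0) * X 1).re
noncomputable def qq (X : V2) : ℝ := 2 * (conj (X 0) * X 1).im
noncomputable def rr (X : V2) : ℝ := Complex.normSq (X 0) - Complex.normSq (X 1)

theorem pqr (X : V2) : pp X ^ 2 + qq X ^ 2 + rr X ^ 2 = nrm2 X ^ 2 := by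
  unfold pp qq rr nrm2
  simp only [Complex.sq_norm, Complex.normSq_apply]
  simp
  ring

theorem T_eq (t A B C : ℝ) (X : V2) : T t A B C X = t * nrm2 X + A * pp X + B * qq X + C * rr X := by
  unfold T pp qq rr nrm2
  simp only [Complex.sq_norm]

theorem nrm2_nonneg (X : V2) : 0 ≤ nrm2 X := by unfold nrm2; positivity

theorem nrm2_pos {X : V2} (hX : X ≠ 0) : 0 < nrm2 X := by
  rcases (nrm2_nonneg X).lt_or_eq with h | h
  · exact h
  · exfalso
    apply hX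
    unfold nrm2 at h
    have h0 : ‖X 0‖ ^ 2 = 0 := by nlinarith [sq_nonneg ‖X 0‖, sq_nonneg ‖X 1‖]
    have h1 : ‖X 1‖ ^ 2 = 0 := by nlinarith [sq_nonneg ‖X 0‖, sq_nonneg ‖X 1‖]
    funext i
    fin_cases i
    · simpa using h0
    · simpa using h1

theorem three_zero (h : Par t x y z s) {p q r N : ℝ} (hN : 0 < N)
    (hpqr : p ^ 2 + q ^ 2 + r ^ 2 = N ^ 2) (l : Fin 4)
    (h0 : ∀ i, i ≠ l → t * N + (sa i * x) * p + (sb i * y) * q + (sc i * z) * r = 0) : False := by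
  obtain ⟨hs1, hs2⟩ := s_bounds h
  have hx := h.hx
  have hy := h.hy
  have hz := h.hz
  have ht := h.ht
  have hk : (x * p) ^ 2 = (t * N) ^ 2 ∧ (y * q) ^ 2 = (t * N) ^ 2 ∧ (z * r) ^ 2 = (t * N) ^ 2 := by
    fin_cases l
    · have h1 := h0 1 (by decide)
      have h2 := h0 2 (by decide)
      have h3 := h0 3 (by decide)
      simp [sa, sb, sc] at h1 h2 h3
      have e1 : x * p = t * N := by linarith
      have e2 : y * q = t * N := by linarith
      have e3 : z * r = t * N := by linarith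
      rw [e1, e2, e3]; exact ⟨rfl, rfl, rfl⟩
    · have h1 := h0 0 (by decide)
      have h2 := h0 2 (by decide)
      have h3 := h0 3 (by decide)
      simp [sa, sb, sc] at h1 h2 h3
      have e1 : x * p = t * N := by linarith
      have e2 : y * q = -(t * N) := by linarith
      have e3 : z * r = -(t * N) := by linarith
      rw [e1, e2, e3]; exact ⟨rfl, by ring, by ring⟩
    · have h1 := h0 0 (by decide)
      have h2 := h0 1 (by decide)
      have h3 := h0 3 (by decide)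
      simp [sa, sb, sc] at h1 h2 h3
      have e1 : x * p = -(t * N) := by linarith
      have e2 : y * q = t * N := by linarith
      have e3 : z * r = -(t * N) := by linarith
      rw [e1, e2, e3]; exact ⟨by ring, rfl, by ring⟩
    · have h1 := h0 0 (by decide)
      have h2 := h0 1 (by decide)
      have h3 := h0 2 (by decide)
      simp [sa, sb, sc] at h1 h2 h3
      have e1 : x * p = -(t * N) := by linarith
      have e2 : y * q = -(t * N) := by linarith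
      have e3 : z * r = t * N := by linarith
      rw [e1, e2, e3]; exact ⟨by ring, by ring, rfl⟩
  obtain ⟨k1, k2, k3⟩ := hk
  rw [mul_pow, mul_pow, hx, ht] at k1
  rw [mul_pow, mul_pow, hy, ht] at k2
  rw [mul_pow, mul_pow, hz, ht] at k3
  have hN2 : 0 < N ^ 2 := by positivity
  have hr : r ^ 2 = (s - 2) ^ 2 * N ^ 2 := by
    have h5 : (s + 2) * (s - 2) = 1 := by nlinarith [h.hs]
    have h6 : 2 * (s - 2) * ((s + 2) / 2 * r ^ 2) = r ^ 2 := by
      calc _ = ((s + 2) * (s - 2)) * r ^ 2 := by ring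
        _ = r ^ 2 := by rw [h5, one_mul]
    rw [← h6, k3]; ring
  nlinarith [h.hs]

theorem cov (h : Par t x y z s) {p q r N : ℝ} (hN : 0 ≤ N)
    (hpqr : p ^ 2 + q ^ 2 + r ^ 2 = N ^ 2) :
    ∃ i, t * N + (sa i * x) * p + (sb i * y) * q + (sc i * z) * r ≤ -(1 / 5) * N := by
  obtain ⟨hs1, hs2⟩ := s_bounds h
  rcases hN.lt_or_eq with hN | hN
  swap
  · subst hN
    have hp : p = 0 := by nlinarith [sq_nonneg p, sq_nonneg q, sq_nonneg r]
    have hq : q = 0 := by nlinarith [sq_nonneg p, sq_nonneg q, sq_nonneg r]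
    have hr : r = 0 := by nlinarith [sq_nonneg p, sq_nonneg q, sq_nonneg r]
    exact ⟨0, by rw [hp, hq, hr]; simp⟩
  by_contra hcon
  push Not at hcon
  have h0 := hcon 0
  have h1 := hcon 1
  have h2 := hcon 2
  have h3 := hcon 3
  simp [sa, sb, sc] at h0 h1 h2 h3
  have hx := h.hx
  have hy := h.hy
  have hz := h.hz
  have ht := h.ht
  have ht0 := h.t0
  have ht1 : t < 0.3443 := by nlinarith
  set G := (t + 1 / 5) * N with hG
  have hG0 : 0 < G := by positivity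
  have a1 : (x * p) ^ 2 ≤ G ^ 2 := by
    apply sq_le_sq'
    · rw [hG]; linarith
    · rw [hG]; linarith
  have a2 : (y * q) ^ 2 ≤ G ^ 2 := by
    apply sq_le_sq'
    · rw [hG]; linarith
    · rw [hG]; linarith
  have a3 : (z * r) ^ 2 ≤ G ^ 2 := by
    apply sq_le_sq'
    · rw [hG]; linarith
    · rw [hG]; linarith
  rw [mul_pow, hx] at a1
  rw [mul_pow, hy] at a2
  rw [mul_pow, hz] at a3
  have hr : r ^ 2 ≤ 2 * (s - 2) * G ^ 2 := by
    have h5 : (s + 2) * (s - 2) = 1 := by nlinarith [h.hs]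
    have h6 : 2 * (s - 2) * ((s + 2) / 2 * r ^ 2) = r ^ 2 := by
      calc _ = ((s + 2) * (s - 2)) * r ^ 2 := by ring
        _ = r ^ 2 := by rw [h5, one_mul]
    rw [← h6]
    exact mul_le_mul_of_nonneg_left a3 (by linarith)
  have hg : G ^ 2 ≤ 0.2963 * N ^ 2 := by
    have : G ^ 2 = (t ^ 2 + 2 / 5 * t + 1 / 25) * N ^ 2 := by rw [hG]; ring
    rw [this, ht]
    exact mul_le_mul_of_nonneg_right (by linarith) (by positivity)
  have hN2 : 0 < N ^ 2 := by positivity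
  have hG2 : 0 < G ^ 2 := by positivity
  have : 2 * (s - 2) * G ^ 2 ≤ 0.4722 * G ^ 2 :=
    mul_le_mul_of_nonneg_right (by linarith) hG2.le
  linarith

end main

end CFG

open CFG Matrix in
theorem cfg : StCfg := by
  obtain ⟨t, x, y, z, s, h⟩ := par_exists
  refine ⟨MM t x y z, ⟨det_MM h, ?_, ?_, ?_⟩, ?_⟩
  · intro i j hij X hX μ hμ
    have h1 := mu_eq h hX hμ
    have hs : (s : ℂ) ^ 2 = 5 := by exact_mod_cast h.hs
    refine pow20 hs h1 ?_
    unfold ee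
    rcases e_cases h hij with h3 | h3 | h3
    · left; rw [h3]; push_cast; ring
    · right; left; rw [h3]; push_cast; ring
    · right; right; rw [h3]; simp
  · intro i j hij
    refine node_gen (det_MM h i) (det_MM h j) ?_
    obtain ⟨h1, h2⟩ := ee_bounds h hij
    unfold MM
    rw [trace_eq]
    intro h3
    have h4 : ((ee t x y z i j / 2 : ℝ) : ℂ) ^ 2 = 4 := by
      rw [← h3]; unfold ee; ring
    have h5 : (ee t x y z i j / 2) ^ 2 = 4 := by exact_mod_cast h4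
    nlinarith
  · intro i j k hij hik hjk X hX h1 h2
    have h3 := TT_zero h hij hX h1
    have h4 := TT_zero h hik hX h2
    have hex : ∃ l : Fin 4, ∀ a, a ≠ l → a = i ∨ a = j ∨ a = k := by
      revert i j k
      intro i j k hij hik hjk _ _ _ _
      clear h
      fin_cases i <;> fin_cases j <;> fin_cases k <;> first
        | (exfalso; exact hij rfl)
        | (exfalso; exact hik rfl)
        | (exfalso; exact hjk rfl)
        | decide
    obtain ⟨l, hl⟩ := hex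
    refine three_zero h (nrm2_pos hX) (pqr X) l fun a ha => ?_
    have h5 : TT t x y z a X = 0 := by
      rcases hl a ha with rfl | rfl | rfl
      · exact h3.1
      · exact h3.2
      · exact h4.2
    unfold TT at h5
    rw [T_eq] at h5
    exact h5
  · refine ⟨1 - t / 10, ?_, ?_, ?_⟩
    · have := h.t0; linarith
    · intro X
      obtain ⟨i, hi⟩ := cov h (nrm2_nonneg X) (pqr X)
      refine ⟨i, ?_⟩
      have h1 : nrm2 (MM t x y z i *ᵥ X) = _ := nrm2_eq (sum_sq h i) X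
      rw [h1, T_eq]
      have h2 := mul_le_mul_of_nonneg_left hi (half_pos h.t0).le
      linarith
    · intro Y
      obtain ⟨i, hi⟩ := cov h (p := -pp Y) (q := -qq Y) (r := -rr Y) (nrm2_nonneg Y)
        (by rw [← pqr Y]; ring)
      have hss : (-(sa i * x)) ^ 2 + (-(sb i * y)) ^ 2 + (-(sc i * z)) ^ 2 = t ^ 2 + 4 := by
        rw [← sum_sq h i]; ring
      refine ⟨i, Mx t (-(sa i * x)) (-(sb i * y)) (-(sc i * z)) *ᵥ Y, Mx_inv (sum_sq h i) Y, ?_⟩
      rw [nrm2_eq hss, T_eq]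
      have h2 := mul_le_mul_of_nonneg_left hi (half_pos h.t0).le
      linarith

end Crest.Agent.R258
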