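import Crest.Agent.R258.FRAME

set_option autoImplicit false

noncomputable section

namespace Crest.Agent.R258

open Crest.AlgGeometry.QuadricBundle
open Matrix Finset
open scoped ComplexConjugate ComplexOrder Topology

namespace COCY

open FRAME

theorem tau_mem {α β γ : Chart} {p : V2} (hp : p ∈ overlap α β ∩ overlap α γ) :
    tau α β p ∈ overlap β γ := by
  obtain ⟨⟨h1, h2⟩, ⟨h3, h4⟩⟩ := hp
  refine ⟨fun h => ?_, fun h => ?_⟩
  · simp only [tau, Matrix.cons_val_zero]
    split_ifs with h'
    · exact h3 (by rw [h']; exact h)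
    · exact inv_ne_zero (h1 h')
  · simp only [tau, Matrix.cons_val_one]
    split_ifs with h'
    · exact h4 (by rw [h']; exact h)
    · exact inv_ne_zero (h2 h')

theorem kap_cocycle {B : ℕ} {K : V2 → V2 → ℂ} (hK : K ∈ H (B + 10) (B + 4)) {α β γ : Chart}
    {z : V2} (hz : z ∈ overlap α β ∩ overlap α γ) :
    lineTrans (-4) ((B : ℤ) + 4) α β z * kap K β γ (tau α β z) +
      kap K α β z * lineTrans ((B : ℤ) + 8) 0 β γ (tau α β z) = kap K α γ z := by
  have hKt := res_trans hK α β z hz.1
  rcases α with ⟨a, b⟩
  rcases β with ⟨a', b'⟩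
  rcases γ with ⟨a'', b''⟩
  obtain ⟨⟨h1, h2⟩, ⟨h3, h4⟩⟩ := hz
  simp only at h1 h2 h3 h4
  by_cases h : a = a'
  · subst h
    by_cases h' : a = a''
    · subst h'
      simp [kap]
    · have hx := h3 h'
      simp only [kap, h', if_true, if_false, zero_mul, add_zero, tau, Matrix.cons_val_zero]
      have e : lineTrans (-4) ((B : ℤ) + 4) (a, b) (a, b') z =
          lineTrans ((B + 10 : ℕ) : ℤ) ((B + 4 : ℕ) : ℤ) (a, b) (a, b') z := by
        simp [lineTrans]
      rw [hKt, ← e]
      simp only [tau, if_true]
      ring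
  · have hx := h1 h
    by_cases h' : a' = a''
    · subst h'
      simp only [kap, h, if_true, if_false, mul_zero, zero_add]
      simp [lineTrans]
    · have h'' : a = a'' := by omega
      subst h''
      have hcc : kap K (a, b) (a, b'') z = 0 := by simp [kap]
      rw [hcc]
      have e1 : kap K (a, b) (a', b') z = (if a = 0 then -1 else 1) * (z 0) ^ (-3 : ℤ) *
          ((z 0) ^ (B + 10) * (if b = b' then 1 else (z 1) ^ (B + 4)) *
            res K (a', b') (tau (a, b) (a', b') z)) := by
        simp only [kap, h, if_false]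
        rw [hKt]
        simp only [lineTrans, h, if_false, zpow_natCast]
      have e2 : kap K (a', b') (a, b'') (tau (a, b) (a', b') z) =
          (if a' = 0 then -1 else 1) * (z 0) ^ (3 : ℕ) *
            res K (a', b') (tau (a, b) (a', b') z) := by
        simp only [kap, h', if_false]
        congr 2
        simp only [tau, h, if_false, Matrix.cons_val_zero]
        rw [_root_.inv_zpow, _root_.zpow_neg, inv_inv]
        norm_cast
      have e3 : lineTrans ((B : ℤ) + 8) 0 (a', b') (a, b'') (tau (a, b) (a', b') z) =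
          ((z 0) ^ (B + 8))⁻¹ := by
        simp only [lineTrans, h', if_false, zpow_zero, ite_self, mul_one, tau, h,
          Matrix.cons_val_zero]
        rw [_root_.inv_zpow]
        norm_cast
      have e4 : lineTrans (-4) ((B : ℤ) + 4) (a, b) (a', b') z =
          ((z 0) ^ 4)⁻¹ * (if b = b' then 1 else (z 1) ^ (B + 4)) := by
        simp only [lineTrans, h, if_false]
        congr 1
      have e5 : (z 0) ^ (-3 : ℤ) = ((z 0) ^ 3)⁻¹ := by
        rw [_root_.zpow_neg]; norm_cast
      rw [e1, e2, e3, e4, e5]
      set k := res K (a', b') (tau (a, b) (a', b') z)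
      set y := (if b = b' then (1 : ℂ) else (z 1) ^ (B + 4))
      have hp : (z 0) ^ (B + 10) = (z 0) ^ (B + 8) * (z 0) ^ 2 := by rw [← pow_add]
      rw [hp]
      have hB : (z 0) ^ (B + 8) ≠ 0 := pow_ne_zero _ hx
      generalize (z 0) ^ (B + 8) = w at hB ⊢
      have ha : a = 0 ∧ a' = 1 ∨ a = 1 ∧ a' = 0 := by omega
      rcases ha with ⟨rfl, rfl⟩ | ⟨rfl, rfl⟩
      · simp only [one_ne_zero, if_true, if_false]
        field_simp
        ring
      · simp only [one_ne_zero, if_true, if_false]
        field_simp
        ring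

theorem lineTrans_diff (r t : ℤ) (α β : Chart) :
    DifferentiableOn ℂ (lineTrans r t α β) (overlap α β) := by
  intro p hp
  apply DifferentiableAt.differentiableWithinAt
  show DifferentiableAt ℂ (fun p : V2 => (if α.1 = β.1 then 1 else (p 0) ^ r) *
    (if α.2 = β.2 then 1 else (p 1) ^ t)) p
  apply DifferentiableAt.mul
  · split_ifs with h
    · exact differentiableAt_const _
    · have : DifferentiableAt ℂ (fun p : V2 => p 0) p := by fun_prop
      exact this.zpow (Or.inl (hp.1 h))
  · split_ifs with h
    · exact differentiableAt_const _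
    · have : DifferentiableAt ℂ (fun p : V2 => p 1) p := by fun_prop
      exact this.zpow (Or.inl (hp.2 h))

theorem kap_diff {B : ℕ} {K : V2 → V2 → ℂ} (hK : K ∈ H (B + 10) (B + 4)) (α β : Chart) :
    DifferentiableOn ℂ (kap K α β) (overlap α β) := by
  intro p hp
  apply DifferentiableAt.differentiableWithinAt
  by_cases h : α.1 = β.1
  · have : kap K α β = fun _ => 0 := by funext p; simp [kap, h]
    rw [this]
    exact differentiableAt_const _
  · have : kap K α β = fun p => (if α.1 = 0 then -1 else 1) * (p 0) ^ (-3 : ℤ) * res K α p := by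
      funext p; simp only [kap, h, if_false]
    rw [this]
    have h0 : DifferentiableAt ℂ (fun p : V2 => p 0) p := by fun_prop
    have h1 : DifferentiableAt ℂ (fun p : V2 => (p 0) ^ (-3 : ℤ)) p := h0.zpow (Or.inl (hp.1 h))
    exact (h1.const_mul _).mul (res_diff hK α p)

theorem lineTrans_refl (r t : ℤ) (α : Chart) (p : V2) : lineTrans r t α α p = 1 := by
  simp [lineTrans]

end COCY

open FRAME COCY in
theorem cocycle : StCocycle := by
  intro B K hK
  refine ⟨?_, ?_, ?_⟩
  · intro α p
    simp only [g1, g0, lineTrans_refl, kap, if_true, one_smul]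
    ext i j
    fin_cases i <;> fin_cases j <;> simp
  · intro α β i j
    have h1 := lineTrans_diff 1 1 α β
    have hsq : DifferentiableOn ℂ sq (overlap α β) := sq_diff.differentiableOn
    have hm : Set.MapsTo sq (overlap α β) (overlap α β) := fun p hp => sq_mem hp
    have h2 := (lineTrans_diff (-4) ((B : ℤ) + 4) α β).comp hsq hm
    have h3 := (lineTrans_diff ((B : ℤ) + 8) 0 α β).comp hsq hm
    have h4 := (kap_diff hK α β).comp hsq hm
    fin_cases i <;> fin_cases j
    · exact h1.mul h2
    · exact h1.mul h4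
    · refine (differentiableOn_const (0 : ℂ)).congr ?_
      intro p _
      simp [g1, g0]
    · exact h1.mul h3
  · intro α β γ p hp
    have hz : sq p ∈ overlap α β ∩ overlap α γ := ⟨sq_mem hp.1, sq_mem hp.2⟩
    have c1 := lineTrans_cocycle' 1 1 hp
    have c2 := lineTrans_cocycle' (-4) ((B : ℤ) + 4) hz
    have c3 := lineTrans_cocycle' ((B : ℤ) + 8) 0 hz
    have c4 := kap_cocycle hK hz
    simp only [g1, g0, sq_tau, Matrix.smul_mul, Matrix.mul_smul, smul_smul]
    rw [← c1, ← c2, ← c3, ← c4]
    rw [mul_comm (lineTrans 1 1 β γ (tau α β p)) (lineTrans 1 1 α β p)]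
    congr 1
    ext i j
    fin_cases i <;> fin_cases j <;> simp [Matrix.mul_apply, Fin.sum_univ_two]

end Crest.Agent.R258
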