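import Crest.Agent.R258.Defs

/-!
# Row 258, task CONTR: the contraction lemma
-/

set_option autoImplicit false

noncomputable section

namespace Crest.Agent.R258

open scoped ComplexConjugate ComplexOrder Topology

namespace CONTR

def R (x : ℂ) : ℝ := √(1 + ‖x‖ ^ 4)

theorem R_pos (x : ℂ) : 0 < R x := Real.sqrt_pos.2 (by positivity)

theorem one_le_R (x : ℂ) : 1 ≤ R x := by
  unfold R
  rw [Real.one_le_sqrt]
  have : 0 ≤ ‖x‖ ^ 4 := by positivity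
  linarith

theorem R_inv (x : ℂ) (hx : x ≠ 0) : R x = ‖x‖ ^ 2 * R x⁻¹ := by
  unfold R
  have h0 : 0 < ‖x‖ := norm_pos_iff.2 hx
  have : ‖x‖ ^ 2 = √(‖x‖ ^ 4) := by
    rw [show ‖x‖ ^ 4 = (‖x‖ ^ 2) ^ 2 by ring, Real.sqrt_sq (by positivity)]
  rw [this, ← Real.sqrt_mul (by positivity)]
  congr 1
  rw [norm_inv]
  field_simp
  ring

theorem continuous_R : Continuous R := by
  unfold R
  fun_prop

def q (Z : V2) (a : Fin 2) (x : ℂ) : ℂ :=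
  if a = 0 then Z 0 ^ 2 - Z 1 ^ 2 * x ^ 2 else Z 0 ^ 2 * x ^ 2 - Z 1 ^ 2

theorem q_zero (Z : V2) (x : ℂ) : q Z 0 x = Z 0 ^ 2 - Z 1 ^ 2 * x ^ 2 := rfl
theorem q_one (Z : V2) (x : ℂ) : q Z 1 x = Z 0 ^ 2 * x ^ 2 - Z 1 ^ 2 := rfl

theorem q_inv (Z : V2) (a : Fin 2) (x : ℂ) (hx : x ≠ 0) : q Z a x = x ^ 2 * q Z (1 - a) x⁻¹ := by
  fin_cases a
  · show q Z 0 x = x ^ 2 * q Z 1 x⁻¹
    rw [q_zero, q_one]
    field_simp
  · show q Z 1 x = x ^ 2 * q Z 0 x⁻¹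
    rw [q_zero, q_one]
    field_simp

theorem differentiable_q (Z : V2) (a : Fin 2) : Differentiable ℂ (q Z a) := by
  fin_cases a
  · show Differentiable ℂ (q Z 0)
    have : q Z 0 = fun x => Z 0 ^ 2 - Z 1 ^ 2 * x ^ 2 := rfl
    rw [this]
    fun_prop
  · show Differentiable ℂ (q Z 1)
    have : q Z 1 = fun x => Z 0 ^ 2 * x ^ 2 - Z 1 ^ 2 := rfl
    rw [this]
    fun_prop

theorem q_le (Z : V2) (hZ : ‖Z 0‖ ^ 4 + ‖Z 1‖ ^ 4 ≤ 1) (a : Fin 2) (x : ℂ) :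
    ‖q Z a x‖ ≤ R x := by
  have key : ∀ s t : ℝ, 0 ≤ s → 0 ≤ t → s ^ 2 + t ^ 2 = 1 + ‖x‖ ^ 4 →
      ‖Z 0‖ ^ 2 * s + ‖Z 1‖ ^ 2 * t ≤ R x := by
    intro s t hs ht hst
    unfold R
    apply Real.le_sqrt_of_sq_le
    rw [← hst]
    have h1 : (‖Z 0‖ ^ 2 * s + ‖Z 1‖ ^ 2 * t) ^ 2 ≤
        (‖Z 0‖ ^ 4 + ‖Z 1‖ ^ 4) * (s ^ 2 + t ^ 2) := by
      nlinarith [sq_nonneg (‖Z 0‖ ^ 2 * t - ‖Z 1‖ ^ 2 * s)]
    have h2 : (‖Z 0‖ ^ 4 + ‖Z 1‖ ^ 4) * (s ^ 2 + t ^ 2) ≤ 1 * (s ^ 2 + t ^ 2) :=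
      mul_le_mul_of_nonneg_right hZ (by positivity)
    linarith
  fin_cases a
  · show ‖q Z 0 x‖ ≤ R x
    rw [q_zero]
    have h1 : ‖Z 0 ^ 2 - Z 1 ^ 2 * x ^ 2‖ ≤ ‖Z 0‖ ^ 2 * 1 + ‖Z 1‖ ^ 2 * ‖x‖ ^ 2 := by
      have := norm_sub_le (Z 0 ^ 2) (Z 1 ^ 2 * x ^ 2)
      rw [norm_mul, norm_pow, norm_pow, norm_pow] at this
      linarith
    exact h1.trans (key 1 (‖x‖ ^ 2) zero_le_one (by positivity) (by ring))
  · show ‖q Z 1 x‖ ≤ R x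
    rw [q_one]
    have h1 : ‖Z 0 ^ 2 * x ^ 2 - Z 1 ^ 2‖ ≤ ‖Z 0‖ ^ 2 * ‖x‖ ^ 2 + ‖Z 1‖ ^ 2 * 1 := by
      have := norm_sub_le (Z 0 ^ 2 * x ^ 2) (Z 1 ^ 2)
      rw [norm_mul, norm_pow, norm_pow, norm_pow] at this
      linarith
    exact h1.trans (key (‖x‖ ^ 2) 1 (by positivity) zero_le_one (by ring))

theorem th' {N : Fin 2 → ℂ → V2 → ℝ} {n : ℕ} {h v : Fin 2 → ℂ → V2} {Z : V2} {m : ℝ}
    (D : LineData N n h v Z m) (a : Fin 2) (x : ℂ) (hx : x ≠ 0) :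
    N a x (h a x) = ‖x‖ ^ 2 * N (1 - a) x⁻¹ (h (1 - a) x⁻¹) := by
  fin_cases a
  · exact D.th x hx
  · show N 1 x (h 1 x) = ‖x‖ ^ 2 * N 0 x⁻¹ (h 0 x⁻¹)
    have h1 := D.th x⁻¹ (inv_ne_zero hx)
    rw [inv_inv] at h1
    rw [h1, norm_inv]
    have : ‖x‖ ≠ 0 := norm_ne_zero_iff.2 hx
    field_simp

theorem sqrt_smul {N : Fin 2 → ℂ → V2 → ℝ} (hN : LineNorm N) (a : Fin 2) (x c : ℂ) (φ : V2) :
    √(N a x (c • φ)) = ‖c‖ * √(N a x φ) := by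
  rw [hN.smul, Real.sqrt_mul (by positivity), Real.sqrt_sq (norm_nonneg _)]

/-- interchange of the two charts -/
theorem swap {N : Fin 2 → ℂ → V2 → ℝ} {n : ℕ} {h v : Fin 2 → ℂ → V2} {Z : V2} {m : ℝ}
    (D : LineData N n h v Z m) :
    LineData (fun a => N (1 - a)) n (fun a => h (1 - a)) (fun a => v (1 - a)) ![Z 1, Z 0] m where
  line := {
    nonneg := fun a x φ => D.line.nonneg _ x φ
    smul := fun a x c φ => D.line.smul _ x c φ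
    tri := fun a x φ ψ => D.line.tri _ x φ ψ
    cont := fun a φ hφ => D.line.cont _ φ hφ
    nlm := fun a x0 φ G h1 h2 h3 h4 => D.line.nlm _ x0 φ G h1 h2 h3 h4 }
  hdiff := fun a => D.hdiff _
  vdiff := fun a => D.vdiff _
  heven := fun a x => D.heven _ x
  veven := fun a x => D.veven _ x
  hne := fun a x => D.hne _ x
  th := fun x hx => th' D 1 x hx
  tv := by
    intro x hx
    show N 1 x (v 1 x) = ‖x‖ ^ (2 * n) * N 0 x⁻¹ (v 0 x⁻¹)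
    have h1 := D.tv x⁻¹ (inv_ne_zero hx)
    rw [inv_inv] at h1
    have h0 : ‖x‖ ≠ 0 := norm_ne_zero_iff.2 hx
    rw [h1, norm_inv, inv_pow, mul_inv_cancel_left₀ (pow_ne_zero _ h0)]
  van := by
    intro a X h0 h1 hX
    have h0' : X 0 ^ 2 = Z 1 ^ 2 := h0
    have h1' : X 1 ^ 2 = Z 0 ^ 2 := h1
    fin_cases a
    · exact D.van 1 ![X 1, X 0] h1' h0' hX
    · exact D.van 0 ![X 1, X 0] h1' h0' hX
  bh := fun a x => D.bh _ x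
  bv := fun a x => D.bv _ x

theorem near {N : Fin 2 → ℂ → V2 → ℝ} {n : ℕ} {h v : Fin 2 → ℂ → V2} {Z : V2} {m : ℝ}
    (hS : StSchwarz) {θ μ ρ : ℝ} (hθ : θ < 1) (hμ : 0 < μ) (hρ : 0 < ρ) (hρμ : ρ ≤ μ * (1 / 4))
    (hρθ : ρ ≤ μ * ((1 - θ) / 30)) (hn : √((1 + θ) / 2) ^ n ≤ ρ ^ 2)
    (hm : 0 < m) (D : LineData N n h v Z m) (hZ10 : ‖Z 1‖ ≤ ‖Z 0‖) (hZμ : μ ≤ ‖Z 0‖ ^ 2)
    (hZθ : ‖Z 0‖ ^ 4 + ‖Z 1‖ ^ 4 ≤ θ) (a : Fin 2) (x : ℂ) (hq : ‖q Z a x‖ ≤ ρ * R x) :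
    N a x (h a x) ≤ (1 + 4 / (1 - θ)) ^ 2 / μ ^ 2 * m * ρ ^ 2 * R x := by
  have hN := D.line
  have hz0 : 0 < ‖Z 0‖ := by
    by_contra hneg
    have : ‖Z 0‖ = 0 := le_antisymm (not_lt.1 hneg) (norm_nonneg _)
    rw [this] at hZμ
    linarith [show (0 : ℝ) ^ 2 = 0 by norm_num]
  have hZ0 : Z 0 ≠ 0 := norm_pos_iff.1 hz0
  have hZ0le : ‖Z 0‖ ^ 2 ≤ 1 := by
    have h1 : 0 ≤ ‖Z 1‖ ^ 4 := by positivity
    have h2 : (‖Z 0‖ ^ 2) ^ 2 ≤ 1 := by nlinarith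
    nlinarith [sq_nonneg (‖Z 0‖ ^ 2 - 1), sq_nonneg ‖Z 0‖]
  have hZ1le : ‖Z 1‖ ^ 2 ≤ 1 := by
    have : ‖Z 1‖ ^ 2 ≤ ‖Z 0‖ ^ 2 := pow_le_pow_left₀ (norm_nonneg _) hZ10 2
    linarith
  have hθ' : 0 < 1 - θ := by linarith
  -- chart 1
  have chart1 : ∀ x : ℂ, ‖q Z 1 x‖ ≤ ρ * R x →
      N 1 x (h 1 x) ≤ (1 + 4 / (1 - θ)) ^ 2 / μ ^ 2 * m * ρ ^ 2 * R x := by
    intro x hq
    rw [q_one] at hq
    set w : ℂ := Z 0 * x with hw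
    have hqw : Z 0 ^ 2 * x ^ 2 - Z 1 ^ 2 = w ^ 2 - Z 1 ^ 2 := by rw [hw]; ring
    rw [hqw] at hq
    -- |Z0|^2 R x = sqrt(|Z0|^4+|w|^4)
    have hR : ‖Z 0‖ ^ 2 * R x = √(‖Z 0‖ ^ 4 + ‖w‖ ^ 4) := by
      have : ‖Z 0‖ ^ 2 = √(‖Z 0‖ ^ 4) := by
        rw [show ‖Z 0‖ ^ 4 = (‖Z 0‖ ^ 2) ^ 2 by ring, Real.sqrt_sq (by positivity)]
      unfold R
      rw [this, ← Real.sqrt_mul (by positivity)]
      congr 1
      rw [hw, norm_mul]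
      ring
    have hRle : ‖Z 0‖ ^ 2 * R x ≤ ‖Z 0‖ ^ 2 + ‖w‖ ^ 2 := by
      rw [hR]
      apply Real.sqrt_le_iff.2
      constructor
      · positivity
      · nlinarith [mul_nonneg (sq_nonneg ‖Z 0‖) (sq_nonneg ‖w‖)]
    set ε : ℝ := ρ / μ with hε
    have hε0 : 0 < ε := by positivity
    have hε1 : ε ≤ 1 / 4 := by rw [hε, div_le_iff₀ hμ]; linarith
    have hε2 : ε ≤ (1 - θ) / 30 := by rw [hε, div_le_iff₀ hμ]; linarith
    have h1 : ρ * R x ≤ ε * (‖Z 0‖ ^ 2 + ‖w‖ ^ 2) := by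
      have : ρ * R x = ε * (μ * R x) := by rw [hε]; field_simp
      rw [this]
      apply mul_le_mul_of_nonneg_left _ hε0.le
      exact (mul_le_mul_of_nonneg_right hZμ (R_pos x).le).trans hRle
    have h2 : ‖w‖ ^ 2 - ‖Z 1‖ ^ 2 ≤ ‖w ^ 2 - Z 1 ^ 2‖ := by
      have := norm_sub_norm_le (w ^ 2) (Z 1 ^ 2)
      rwa [norm_pow, norm_pow] at this
    have h3 : ‖w‖ ^ 2 ≤ ‖Z 1‖ ^ 2 + ε * (‖Z 0‖ ^ 2 + ‖w‖ ^ 2) := by linarith
    have h4 : ‖w‖ ^ 2 ≤ 2 := by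
      have hw0 : 0 ≤ ‖w‖ ^ 2 := by positivity
      nlinarith
    have h5 : ‖w‖ ^ 2 ≤ ‖Z 1‖ ^ 2 + 3 * ε := by nlinarith
    have h6 : ‖w‖ ^ 4 ≤ ‖Z 1‖ ^ 4 + 15 * ε := by
      have hw0 : 0 ≤ ‖w‖ ^ 2 := by positivity
      have e1 : ‖w‖ ^ 4 = ‖w‖ ^ 2 * ‖w‖ ^ 2 := by ring
      have e2 : ‖Z 1‖ ^ 4 = ‖Z 1‖ ^ 2 * ‖Z 1‖ ^ 2 := by ring
      have e3 : ‖w‖ ^ 2 * ‖w‖ ^ 2 ≤ (‖Z 1‖ ^ 2 + 3 * ε) * (‖Z 1‖ ^ 2 + 3 * ε) :=
        mul_le_mul h5 h5 hw0 (by positivity)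
      rw [e1, e2]
      nlinarith [sq_nonneg ‖Z 1‖]
    have h7 : ‖Z 0‖ ^ 4 + ‖w‖ ^ 4 ≤ (1 + θ) / 2 := by linarith
    have h8 : ‖Z 0‖ ^ 4 + ‖w‖ ^ 4 ≤ 1 := by linarith
    have hs := hS θ hθ N n h v Z m hm D hZ0 hZ10 hZθ w h8
    have hwx : w / Z 0 = x := by rw [hw]; field_simp
    rw [hwx] at hs
    have hsum := hN.tri 1 x (Z 0 • h 1 x - Z 0 ^ n • v 1 x) (Z 0 ^ n • v 1 x)
    rw [sub_add_cancel, sqrt_smul hN 1 x (Z 0) (h 1 x)] at hsum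
    have hv : √(N 1 x (Z 0 ^ n • v 1 x)) ≤ √m * ρ := by
      apply Real.sqrt_le_iff.2
      refine ⟨by positivity, ?_⟩
      rw [hN.smul, norm_pow, mul_pow, Real.sq_sqrt hm.le]
      have e1 : (‖Z 0‖ ^ n) ^ 2 * N 1 x (v 1 x) ≤ (‖Z 0‖ ^ n) ^ 2 * (m * R x ^ n) :=
        mul_le_mul_of_nonneg_left (D.bv 1 x) (by positivity)
      have e2 : (‖Z 0‖ ^ n) ^ 2 * (m * R x ^ n) = m * (‖Z 0‖ ^ 2 * R x) ^ n := by
        rw [mul_pow, ← pow_mul, ← pow_mul, mul_comm n 2]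
        ring
      have e3 : (‖Z 0‖ ^ 2 * R x) ^ n ≤ ρ ^ 2 := by
        refine le_trans ?_ hn
        rw [hR]
        exact pow_le_pow_left₀ (Real.sqrt_nonneg _) (Real.sqrt_le_sqrt h7) n
      calc _ ≤ _ := e1
        _ = _ := e2
        _ ≤ _ := mul_le_mul_of_nonneg_left e3 hm.le
    have hRx1 := one_le_R x
    have hsq : ‖Z 0‖ * √(N 1 x (h 1 x)) ≤ √m * ρ * R x * (1 + 4 / (1 - θ)) := by
      have e1 : 4 * √m / (1 - θ) * ‖w ^ 2 - Z 1 ^ 2‖ ≤ 4 * √m / (1 - θ) * (ρ * R x) :=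
        mul_le_mul_of_nonneg_left hq (by positivity)
      have e2 : √m * ρ ≤ √m * ρ * R x := by
        have : 0 ≤ √m * ρ := by positivity
        nlinarith
      have e3 : √m * ρ * R x * (1 + 4 / (1 - θ)) =
        √m * ρ * R x + 4 * √m / (1 - θ) * (ρ * R x) := by ring
      rw [e3]
      linarith
    have hsq2 : ‖Z 0‖ ^ 2 * N 1 x (h 1 x) ≤ m * ρ ^ 2 * R x ^ 2 * (1 + 4 / (1 - θ)) ^ 2 := by
      have := pow_le_pow_left₀ (by positivity) hsq 2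
      rw [mul_pow, Real.sq_sqrt (hN.nonneg _ _ _), mul_pow, mul_pow, mul_pow,
        Real.sq_sqrt hm.le] at this
      exact this
    -- R x ≤ 1/|Z0|^2
    have hRZ : ‖Z 0‖ ^ 2 * R x ≤ 1 := by
      rw [hR]
      exact Real.sqrt_le_one.2 h8 |>.trans le_rfl
    have h9 : ‖Z 0‖ ^ 2 * (‖Z 0‖ ^ 2 * N 1 x (h 1 x)) ≤
        m * ρ ^ 2 * R x * (1 + 4 / (1 - θ)) ^ 2 := by
      have e1 := mul_le_mul_of_nonneg_left hsq2 (sq_nonneg ‖Z 0‖)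
      have e2 : ‖Z 0‖ ^ 2 * (m * ρ ^ 2 * R x ^ 2 * (1 + 4 / (1 - θ)) ^ 2) =
        (m * ρ ^ 2 * R x * (1 + 4 / (1 - θ)) ^ 2) * (‖Z 0‖ ^ 2 * R x) := by ring
      have e3 : 0 ≤ m * ρ ^ 2 * R x * (1 + 4 / (1 - θ)) ^ 2 := by
        have := (R_pos x).le
        positivity
      rw [e2] at e1
      exact e1.trans (mul_le_of_le_one_right e3 hRZ)
    have h10 : μ ^ 2 * N 1 x (h 1 x) ≤ m * ρ ^ 2 * R x * (1 + 4 / (1 - θ)) ^ 2 := by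
      refine le_trans ?_ h9
      have hNn := hN.nonneg 1 x (h 1 x)
      have : μ ^ 2 ≤ ‖Z 0‖ ^ 2 * ‖Z 0‖ ^ 2 := by
        rw [pow_two]
        exact mul_le_mul hZμ hZμ hμ.le (by positivity)
      calc μ ^ 2 * N 1 x (h 1 x) ≤ (‖Z 0‖ ^ 2 * ‖Z 0‖ ^ 2) * N 1 x (h 1 x) :=
            mul_le_mul_of_nonneg_right this hNn
        _ = _ := by ring
    have h11 : N 1 x (h 1 x) ≤ (m * ρ ^ 2 * R x * (1 + 4 / (1 - θ)) ^ 2) / μ ^ 2 := by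
      rw [le_div_iff₀ (by positivity)]
      linarith
    calc _ ≤ _ := h11
      _ = _ := by ring
  fin_cases a
  · show N 0 x (h 0 x) ≤ _
    have hq' : ‖q Z 0 x‖ ≤ ρ * R x := hq
    have hx : x ≠ 0 := by
      rintro rfl
      rw [q_zero] at hq'
      simp only [R, norm_zero, ne_eq, OfNat.ofNat_ne_zero, not_false_eq_true, zero_pow, mul_zero,
        sub_zero, add_zero, Real.sqrt_one, mul_one, norm_pow] at hq'
      linarith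
    have hn0 : 0 < ‖x‖ := norm_pos_iff.2 hx
    have e1 := th' D 0 x hx
    have e2 : ‖q Z 1 x⁻¹‖ ≤ ρ * R x⁻¹ := by
      have := q_inv Z 0 x hx
      rw [this, R_inv x hx, norm_mul, norm_pow] at hq'
      have h3 : ‖x‖ ^ 2 * ‖q Z (1 - 0) x⁻¹‖ ≤ ‖x‖ ^ 2 * (ρ * R x⁻¹) := by linarith
      exact le_of_mul_le_mul_left h3 (by positivity)
    have e3 := chart1 x⁻¹ e2
    rw [e1, R_inv x hx]
    calc ‖x‖ ^ 2 * N (1 - 0) x⁻¹ (h (1 - 0) x⁻¹)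
        ≤ ‖x‖ ^ 2 * ((1 + 4 / (1 - θ)) ^ 2 / μ ^ 2 * m * ρ ^ 2 * R x⁻¹) :=
          mul_le_mul_of_nonneg_left e3 (by positivity)
      _ = _ := by ring
  · exact chart1 x hq

theorem main {N : Fin 2 → ℂ → V2 → ℝ} {n : ℕ} {h v : Fin 2 → ℂ → V2} {Z : V2} {m : ℝ}
    (hS : StSchwarz) {θ μ ρ : ℝ} (hθ : θ < 1) (hμ : 0 < μ) (hρ : 0 < ρ) (hρμ : ρ ≤ μ * (1 / 4))
    (hρθ : ρ ≤ μ * ((1 - θ) / 30)) (hn : √((1 + θ) / 2) ^ n ≤ ρ ^ 2)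
    (hC : (1 + 4 / (1 - θ)) ^ 2 / μ ^ 2 * ρ ≤ 1 / 2)
    (hm : 0 < m) (D : LineData N n h v Z m) (hZ10 : ‖Z 1‖ ≤ ‖Z 0‖) (hZμ : μ ≤ ‖Z 0‖ ^ 2)
    (hZθ : ‖Z 0‖ ^ 4 + ‖Z 1‖ ^ 4 ≤ θ) (a : Fin 2) (x : ℂ) :
    N a x (h a x) ≤ m / 2 * √(1 + ‖x‖ ^ 4) := by
  have hN := D.line
  have hθ' : 0 < 1 - θ := by linarith
  have hZ1 : ‖Z 0‖ ^ 4 + ‖Z 1‖ ^ 4 ≤ 1 := by linarith
  have hZ0le : ‖Z 0‖ ^ 2 ≤ 1 := by
    have h1 : 0 ≤ ‖Z 1‖ ^ 4 := by positivity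
    have h2 : (‖Z 0‖ ^ 2) ^ 2 ≤ 1 := by nlinarith
    nlinarith [sq_nonneg (‖Z 0‖ ^ 2 - 1), sq_nonneg ‖Z 0‖]
  have hρ1 : ρ ≤ 1 := by linarith
  set C : ℝ := (1 + 4 / (1 - θ)) ^ 2 / μ ^ 2 with hCdef
  have hC0 : 0 ≤ C := by positivity
  have hnear := fun a x hq =>
    near hS hθ hμ hρ hρμ hρθ hn hm D hZ10 hZμ hZθ a x hq
  -- the compact set
  set KK : Set (Fin 2 × ℂ) := {p | ‖p.2‖ ≤ 1 ∧ ρ * R p.2 ≤ ‖q Z p.1 p.2‖} with hKK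
  have cq : Continuous (fun p : Fin 2 × ℂ => q Z p.1 p.2) := by
    rw [continuous_prod_of_discrete_left]
    intro a
    exact (differentiable_q Z a).continuous
  have cN : Continuous (fun p : Fin 2 × ℂ => N p.1 p.2 (h p.1 p.2)) := by
    rw [continuous_prod_of_discrete_left]
    intro a
    exact hN.cont a (h a) (D.hdiff a).continuous
  have hKc : IsCompact KK := by
    have h1 : KK ⊆ Set.univ ×ˢ Metric.closedBall (0 : ℂ) 1 := by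
      intro p hp
      exact ⟨trivial, by simpa using hp.1⟩
    refine IsCompact.of_isClosed_subset (isCompact_univ.prod (isCompact_closedBall 0 1)) ?_ h1
    apply IsClosed.inter
    · exact isClosed_le continuous_snd.norm continuous_const
    · exact isClosed_le (continuous_const.mul (continuous_R.comp continuous_snd)) cq.norm
  have hqpos : ∀ p ∈ KK, 0 < ‖q Z p.1 p.2‖ := fun p hp =>
    lt_of_lt_of_le (mul_pos hρ (R_pos _)) hp.2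
  set G : Fin 2 × ℂ → ℝ := fun p => (N p.1 p.2 (h p.1 p.2)) ^ 2 / ‖q Z p.1 p.2‖ ^ 2 with hG
  have cG : ContinuousOn G KK :=
    (cN.pow 2).continuousOn.div (cq.norm.pow 2).continuousOn
      (fun p hp => pow_ne_zero _ (hqpos p hp).ne')
  have hne : KK.Nonempty := by
    refine ⟨(0, 0), ?_, ?_⟩
    · simp
    · show ρ * R 0 ≤ ‖q Z 0 0‖
      rw [q_zero]
      simp only [R, norm_zero, ne_eq, OfNat.ofNat_ne_zero, not_false_eq_true, zero_pow, mul_zero,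
        sub_zero, add_zero, Real.sqrt_one, mul_one, norm_pow]
      linarith
  obtain ⟨p0, hp0, hmax⟩ := hKc.exists_isMaxOn hne cG
  have hbound : G p0 ≤ (C * m * ρ) ^ 2 := by
    obtain ⟨a0, x0⟩ := p0
    rcases hp0.2.lt_or_eq with hlt | heq
    · exfalso
      have hq0 := hqpos _ hp0
      refine hN.nlm a0 x0 (h a0) (q Z a0)
        (Filter.Eventually.of_forall fun x => D.hdiff a0 x)
        (Filter.Eventually.of_forall fun x => differentiable_q Z a0 x)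
        (D.hne a0 x0) (norm_pos_iff.1 hq0) ?_
      have hopen : ∀ᶠ x in 𝓝 x0, ρ * R x < ‖q Z a0 x‖ :=
        (isOpen_lt (continuous_const.mul continuous_R)
          (differentiable_q Z a0).continuous.norm).mem_nhds hlt
      filter_upwards [hopen] with x hx
      by_cases hx1 : ‖x‖ ≤ 1
      · exact hmax (show (a0, x) ∈ KK from ⟨hx1, hx.le⟩)
      · push Not at hx1
        have hx0 : x ≠ 0 := by
          rintro rfl
          rw [norm_zero] at hx1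
          linarith
        have hn0 : 0 < ‖x‖ := norm_pos_iff.2 hx0
        have e1 := th' D a0 x hx0
        have e2 := q_inv Z a0 x hx0
        have hmem : (1 - a0, x⁻¹) ∈ KK := by
          refine ⟨?_, ?_⟩
          · show ‖x⁻¹‖ ≤ 1
            rw [norm_inv]
            exact inv_le_one_of_one_le₀ hx1.le
          · show ρ * R x⁻¹ ≤ ‖q Z (1 - a0) x⁻¹‖
            rw [e2, R_inv x hx0, norm_mul, norm_pow] at hx
            have h3 : ‖x‖ ^ 2 * (ρ * R x⁻¹) ≤ ‖x‖ ^ 2 * ‖q Z (1 - a0) x⁻¹‖ := by linarith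
            exact le_of_mul_le_mul_left h3 (by positivity)
        have e3 := hmax hmem
        have e4 : (N a0 x (h a0 x)) ^ 2 / ‖q Z a0 x‖ ^ 2 = G (1 - a0, x⁻¹) := by
          rw [hG, e1, e2, norm_mul, norm_pow]
          show (‖x‖ ^ 2 * N (1 - a0) x⁻¹ (h (1 - a0) x⁻¹)) ^ 2 /
            (‖x‖ ^ 2 * ‖q Z (1 - a0) x⁻¹‖) ^ 2 = (N (1 - a0) x⁻¹ (h (1 - a0) x⁻¹)) ^ 2 /
              ‖q Z (1 - a0) x⁻¹‖ ^ 2
          rw [mul_pow, mul_pow, mul_div_mul_left _ _ (by positivity)]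
        rw [e4]
        exact e3
    · have hq0 := hqpos _ hp0
      have e1 : N a0 x0 (h a0 x0) ≤ C * m * ρ * ‖q Z a0 x0‖ := by
        have := hnear a0 x0 (le_of_eq heq.symm)
        calc _ ≤ _ := this
          _ = C * m * ρ * (ρ * R x0) := by ring
          _ = _ := by
            have heq' : ρ * R x0 = ‖q Z a0 x0‖ := heq
            rw [heq']
      show (N a0 x0 (h a0 x0)) ^ 2 / ‖q Z a0 x0‖ ^ 2 ≤ _
      rw [div_le_iff₀ (pow_pos hq0 2), ← mul_pow]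
      exact pow_le_pow_left₀ (hN.nonneg _ _ _) e1 2
  -- bound in the unit discs
  have hdisc : ∀ a x, ‖x‖ ≤ 1 → N a x (h a x) ≤ C * m * ρ * R x := by
    intro a x hx
    by_cases hq : ρ * R x ≤ ‖q Z a x‖
    · have h1 : G (a, x) ≤ (C * m * ρ) ^ 2 := (hmax (show (a, x) ∈ KK from ⟨hx, hq⟩)).trans hbound
      have hq0 : 0 < ‖q Z a x‖ := lt_of_lt_of_le (mul_pos hρ (R_pos _)) hq
      have h2 : (N a x (h a x)) ^ 2 ≤ (C * m * ρ * ‖q Z a x‖) ^ 2 := by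
        have h1' : (N a x (h a x)) ^ 2 / ‖q Z a x‖ ^ 2 ≤ (C * m * ρ) ^ 2 := h1
        rwa [div_le_iff₀ (pow_pos hq0 2), ← mul_pow] at h1'
      have h3 : N a x (h a x) ≤ C * m * ρ * ‖q Z a x‖ :=
        (pow_le_pow_iff_left₀ (hN.nonneg _ _ _) (by positivity) two_ne_zero).1 h2
      exact h3.trans (mul_le_mul_of_nonneg_left (q_le Z hZ1 a x) (by positivity))
    · push Not at hq
      have h1 := hnear a x hq.le
      refine h1.trans ?_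
      have hR := (R_pos x).le
      have e1 : C * m * ρ ^ 2 * R x = (C * m * ρ * R x) * ρ := by ring
      rw [e1]
      exact mul_le_of_le_one_right (by positivity) hρ1
  have hall : ∀ a x, N a x (h a x) ≤ C * m * ρ * R x := by
    intro a x
    by_cases hx : ‖x‖ ≤ 1
    · exact hdisc a x hx
    · push Not at hx
      have hx0 : x ≠ 0 := by
        rintro rfl
        rw [norm_zero] at hx
        linarith
      rw [th' D a x hx0, R_inv x hx0]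
      have h1 := hdisc (1 - a) x⁻¹ (by rw [norm_inv]; exact inv_le_one_of_one_le₀ hx.le)
      calc ‖x‖ ^ 2 * N (1 - a) x⁻¹ (h (1 - a) x⁻¹) ≤ ‖x‖ ^ 2 * (C * m * ρ * R x⁻¹) :=
            mul_le_mul_of_nonneg_left h1 (by positivity)
        _ = _ := by ring
  refine (hall a x).trans ?_
  show C * m * ρ * R x ≤ m / 2 * R x
  apply mul_le_mul_of_nonneg_right _ (R_pos x).le
  calc C * m * ρ = m * (C * ρ) := by ring
    _ ≤ m * (1 / 2) := mul_le_mul_of_nonneg_left hC hm.le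
    _ = m / 2 := by ring

end CONTR

open CONTR in
theorem contr : StContr := by
  intro hS θ lam hθ hlam
  have hθ' : 0 < 1 - θ := by linarith
  set μ : ℝ := √(lam / 2) with hμdef
  have hμ : 0 < μ := Real.sqrt_pos.2 (by positivity)
  set A : ℝ := (1 + 4 / (1 - θ)) ^ 2 / μ ^ 2 with hA
  have hA0 : 0 < A := by positivity
  set ρ : ℝ := min (min (μ * (1 / 4)) (μ * ((1 - θ) / 30))) (1 / (2 * A)) with hρdef
  have hρ : 0 < ρ := by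
    refine lt_min (lt_min ?_ ?_) ?_
    · positivity
    · positivity
    · positivity
  have hρ1 : ρ ≤ μ * (1 / 4) := (min_le_left _ _).trans (min_le_left _ _)
  have hρ2 : ρ ≤ μ * ((1 - θ) / 30) := (min_le_left _ _).trans (min_le_right _ _)
  have hρ3 : A * ρ ≤ 1 / 2 := by
    have h1 : ρ ≤ 1 / (2 * A) := min_le_right _ _
    calc A * ρ ≤ A * (1 / (2 * A)) := mul_le_mul_of_nonneg_left h1 hA0.le
      _ = 1 / 2 := by field_simp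
  have hs1 : √((1 + θ) / 2) < 1 := by
    rw [Real.sqrt_lt' one_pos]
    linarith
  obtain ⟨n0, hn0⟩ := exists_pow_lt_of_lt_one (show 0 < ρ ^ 2 by positivity) hs1
  refine ⟨n0, ?_⟩
  intro n hn N h v Z m hm D hZlam hZθ a x
  have hnn : √((1 + θ) / 2) ^ n ≤ ρ ^ 2 :=
    (pow_le_pow_of_le_one (Real.sqrt_nonneg _) hs1.le hn).trans hn0.le
  have hsq : ∀ t : ℝ, 0 ≤ t → lam / 2 ≤ t ^ 4 → μ ≤ t ^ 2 := by
    intro t ht h4
    rw [hμdef]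
    apply Real.sqrt_le_iff.2
    exact ⟨by positivity, by rw [← pow_mul]; exact h4⟩
  rcases le_total ‖Z 1‖ ‖Z 0‖ with hle | hle
  · have h4 : ‖Z 1‖ ^ 4 ≤ ‖Z 0‖ ^ 4 := pow_le_pow_left₀ (norm_nonneg _) hle 4
    exact CONTR.main hS hθ hμ hρ hρ1 hρ2 hnn hρ3 hm D hle
      (hsq _ (norm_nonneg _) (by linarith)) hZθ a x
  · have h4 : ‖Z 0‖ ^ 4 ≤ ‖Z 1‖ ^ 4 := pow_le_pow_left₀ (norm_nonneg _) hle 4
    have D' := swap D
    have := CONTR.main hS hθ hμ hρ hρ1 hρ2 hnn hρ3 hm D' (by simpa using hle)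
      (hsq _ (norm_nonneg _) (by simp; linarith)) (by simp; linarith) (1 - a) x
    simpa using this

end Crest.Agent.R258
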