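import Crest.Agent.R258.Lib

set_option autoImplicit false

noncomputable section

namespace Crest.Agent.R258

open Crest.AlgGeometry.QuadricBundle
open Matrix Finset
open scoped ComplexConjugate ComplexOrder Topology

namespace CONV

/-! ### continuity of transition functions -/

theorem cont_lineTrans (r t : ℤ) (α β : Chart) (p : V2) (hp : p ∈ overlap α β) :
    ContinuousAt (lineTrans r t α β) p := by
  unfold lineTrans
  refine ContinuousAt.mul ?_ ?_
  · by_cases h : α.1 = β.1
    · simp only [h, if_true]; exact continuousAt_const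
    · simp only [h, if_false]
      exact (continuous_apply 0).continuousAt.zpow₀ r (Or.inl (hp.1 h))
  · by_cases h : α.2 = β.2
    · simp only [h, if_true]; exact continuousAt_const
    · simp only [h, if_false]
      exact (continuous_apply 1).continuousAt.zpow₀ t (Or.inl (hp.2 h))

theorem cont_tau (α β : Chart) (p : V2) (hp : p ∈ overlap α β) :
    ContinuousAt (tau α β) p := by
  refine continuousAt_pi.2 fun i => ?_
  unfold tau
  fin_cases i
  · by_cases h : α.1 = β.1
    · simp only [h, if_true, Fin.zero_eta, Matrix.cons_val_zero]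
      exact (continuous_apply 0).continuousAt
    · simp only [h, if_false, Fin.zero_eta, Matrix.cons_val_zero]
      exact (continuous_apply 0).continuousAt.inv₀ (hp.1 h)
  · by_cases h : α.2 = β.2
    · simp only [h, if_true, Fin.mk_one, Matrix.cons_val_one, Matrix.cons_val_fin_one]
      exact (continuous_apply 1).continuousAt
    · simp only [h, if_false, Fin.mk_one, Matrix.cons_val_one, Matrix.cons_val_fin_one]
      exact (continuous_apply 1).continuousAt.inv₀ (hp.2 h)

theorem cont_kap {B : ℕ} {K : V2 → V2 → ℂ} (hK : K ∈ H (B + 10) (B + 4)) (α β : Chart) (p : V2)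
    (hp : p ∈ overlap α β) : ContinuousAt (kap K α β) p := by
  unfold kap
  by_cases h : α.1 = β.1
  · simp only [h, if_true]; exact continuousAt_const
  · simp only [h, if_false]
    exact (continuousAt_const.mul ((continuous_apply 0).continuousAt.zpow₀ _
      (Or.inl (hp.1 h)))).mul (res_diff hK α).continuous.continuousAt

theorem overlap_open (α β : Chart) : IsOpen (overlap α β) := by
  unfold overlap
  have h : ∀ (P : Prop) (l : Fin 2), IsOpen {p : V2 | P → p l ≠ 0} := by
    intro P l
    by_cases hP : P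
    · simp only [hP, true_imp_iff]
      exact isOpen_ne_fun (continuous_apply l) continuous_const
    · simp only [hP, false_imp_iff, Set.ofPred_true, isOpen_univ]
  exact (h (α.1 ≠ β.1) 0).inter (h (α.2 ≠ β.2) 1)

/-! ### line transitions -/

theorem lt_mul (r t r' t' : ℤ) (α β : Chart) (p : V2) (hp : p ∈ overlap α β) :
    lineTrans (r + r') (t + t') α β p = lineTrans r t α β p * lineTrans r' t' α β p := by
  unfold lineTrans
  by_cases h1 : α.1 = β.1 <;> by_cases h2 : α.2 = β.2
  · simp [h1, h2]
  · simp only [h1, h2, if_true, if_false, one_mul]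
    exact zpow_add₀ (hp.2 h2) _ _
  · simp only [h1, h2, if_true, if_false, mul_one]
    exact zpow_add₀ (hp.1 h1) _ _
  · simp only [h1, h2, if_false]
    rw [zpow_add₀ (hp.1 h1), zpow_add₀ (hp.2 h2)]
    ring

theorem lt_zero (α β : Chart) (p : V2) : lineTrans 0 0 α β p = 1 := by
  unfold lineTrans
  simp

theorem lt_pow (r t : ℤ) (n : ℕ) (α β : Chart) (p : V2) (hp : p ∈ overlap α β) :
    lineTrans (n * r) (n * t) α β p = lineTrans r t α β p ^ n := by
  induction n with
  | zero => simp [lt_zero]
  | succ n ih =>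
    rw [pow_succ, ← ih, ← lt_mul _ _ _ _ _ _ _ hp]
    congr 1 <;> push_cast <;> ring

/-! ### frame relations -/

theorem rel_dl (M : Mats) (B : ℕ) (α β : Chart) (p : V2) (hp : p ∈ overlap α β) :
    lineTrans (-4) ((B : ℤ) + 4) α β p * res (dl M) α p =
      lineTrans 0 ((B : ℤ) + 8) α β p * res (dl M) β (tau α β p) := by
  rw [res_trans (dl_mem M) α β p hp, ← mul_assoc, ← lt_mul _ _ _ _ _ _ _ hp]
  congr 2

theorem rel_L {M : Mats} {B : ℕ} {L : Fin 2 → V2 → V2 → ℂ} {K : V2 → V2 → ℂ}
    (C : LK M B L K) (α β : Chart) (p : V2) (hp : p ∈ overlap α β) :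
    kap K α β p * res (dl M) α p + lineTrans ((B : ℤ) + 8) 0 α β p * res (L α.1) α p =
      lineTrans 0 ((B : ℤ) + 8) α β p * res (L β.1) β (tau α β p) := by
  have ht := res_trans (C.hL β.1) α β p hp
  by_cases h1 : α.1 = β.1
  · have e1 : kap K α β p = 0 := by simp [kap, h1]
    have e2 : lineTrans ((B : ℤ) + 8) 0 α β p = 1 := by simp [lineTrans, h1]
    have e3 : lineTrans ((3 : ℕ) : ℤ) ((B + 8 : ℕ) : ℤ) α β p = lineTrans 0 ((B : ℤ) + 8) α β p := by
      simp [lineTrans, h1]
    rw [e1, e2, h1, ht, e3]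
    ring
  · have hx : p 0 ≠ 0 := hp.1 h1
    have e2 : lineTrans ((B : ℤ) + 8) 0 α β p = p 0 ^ (B + 8) := by
      simp only [lineTrans, h1, if_false, zpow_zero, ite_self, mul_one]
      exact_mod_cast rfl
    have e3 : lineTrans ((3 : ℕ) : ℤ) ((B + 8 : ℕ) : ℤ) α β p =
        p 0 ^ 3 * lineTrans 0 ((B : ℤ) + 8) α β p := by
      simp only [lineTrans, h1, if_false, zpow_zero, one_mul]
      push_cast
      rfl
    rw [e3] at ht
    have e4 : kap K α β p = (if α.1 = 0 then -1 else 1) * ((p 0) ^ 3)⁻¹ * res K α p := by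
      simp only [kap, h1, if_false]
      congr 2
    rw [e4, e2]
    have hq := C.eq (cv α.1 (p 0)) (cv α.2 (p 1))
    have hx3 : (p 0) ^ 3 ≠ 0 := pow_ne_zero _ hx
    apply mul_left_cancel₀ hx3
    rw [← mul_assoc (p 0 ^ 3) (lineTrans _ _ _ _ _), ← ht]
    have hfin : (α.1 = 0 ∧ β.1 = 1) ∨ (α.1 = 1 ∧ β.1 = 0) := by
      rcases α with ⟨a, a'⟩
      rcases β with ⟨b, b'⟩
      simp only at h1 ⊢
      fin_cases a <;> fin_cases b <;> simp_all
    rcases hfin with ⟨ha, hb⟩ | ⟨ha, hb⟩
    · rw [ha] at hq
      simp only [res, ha, hb, if_true, cv_zero_zero, cv_zero_one, one_pow, one_mul] at hq ⊢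
      field_simp
      linear_combination hq
    · rw [ha] at hq
      simp only [res, ha, hb, cv_one_zero, cv_one_one, one_pow, one_mul] at hq ⊢
      field_simp
      simp only [one_ne_zero, if_false]
      linear_combination -hq

/-! ### evaluation -/

theorem eval_secQ (j : ℕ) (c : Chart → ℕ → V2 → ℂ) (α : Chart) (p x : V2) :
    MvPolynomial.eval x (secQ j c α p) = ∑ i ∈ range (j + 1), c α i p * x 0 ^ i * x 1 ^ (j - i) := by
  simp [secQ, map_sum]

theorem eval_frameSubst (A : Matrix (Fin 2) (Fin 2) ℂ) (Q : MvPolynomial (Fin 2) ℂ) (x : V2) :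
    MvPolynomial.eval x (frameSubst A Q) = MvPolynomial.eval (fun l => ∑ i, A i l * x i) Q := by
  unfold frameSubst
  rw [← MvPolynomial.coe_aeval_eq_eval, ← MvPolynomial.coe_aeval_eq_eval]
  simp only [RingHom.coe_coe]
  rw [MvPolynomial.aeval_bind₁]
  congr 1
  simp

end CONV

theorem conv : StConv := by
  intro M B L K C j s t a ha c hc
  refine ⟨?_, ?_, ?_⟩
  · intro α p
    unfold secQ
    refine MvPolynomial.IsHomogeneous.sum _ _ _ fun i hi => ?_
    rw [mem_range] at hi
    have h1 := (MvPolynomial.isHomogeneous_C (Fin 2) (c α i p)).mul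
      ((MvPolynomial.isHomogeneous_X ℂ (0 : Fin 2)).pow i)
    have h2 := h1.mul ((MvPolynomial.isHomogeneous_X ℂ (1 : Fin 2)).pow (j - i))
    have e : 0 + 1 * i + 1 * (j - i) = j := by omega
    rwa [e] at h2
  · intro α m
    unfold secQ
    simp only [MvPolynomial.coeff_sum, mul_assoc, MvPolynomial.coeff_C_mul]
    refine Differentiable.fun_sum fun i _ => ?_
    exact ((hc α).1 i).mul_const _
  · intro α β p hp
    apply MvPolynomial.funext
    intro x
    rw [MvPolynomial.smul_eval, CONV.eval_frameSubst, CONV.eval_secQ, CONV.eval_secQ]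
    -- both sides are continuous on the overlap and agree where `δ ≠ 0`
    have hL : ContinuousAt (fun p : V2 =>
        ∑ i ∈ range (j + 1), c α i p * x 0 ^ i * x 1 ^ (j - i)) p := by
      refine tendsto_finsetSum _ fun i _ => ?_
      exact (((hc α).1 i).continuous.continuousAt.mul continuousAt_const).mul continuousAt_const
    have hg : ∀ i l : Fin 2, ContinuousAt (fun p => g0 B K α β p i l) p := by
      intro i l
      fin_cases i <;> fin_cases l
      · exact CONV.cont_lineTrans _ _ α β p hp
      · exact CONV.cont_kap C.lk.hK α β p hp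
      · exact continuousAt_const
      · exact CONV.cont_lineTrans _ _ α β p hp
    have hgx : ∀ l : Fin 2, ContinuousAt (fun p => ∑ i, g0 B K α β p i l * x i) p := by
      intro l
      refine tendsto_finsetSum _ fun i _ => ?_
      exact (hg i l).mul continuousAt_const
    have hR : ContinuousAt (fun p : V2 => lineTrans s t α β p *
        ∑ i ∈ range (j + 1), c β i (tau α β p) * (∑ i, g0 B K α β p i 0 * x i) ^ i *
          (∑ i, g0 B K α β p i 1 * x i) ^ (j - i)) p := by
      refine (CONV.cont_lineTrans _ _ α β p hp).mul ?_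
      refine tendsto_finsetSum _ fun i _ => ?_
      refine ContinuousAt.mul (ContinuousAt.mul ?_ ((hgx 0).pow i)) ((hgx 1).pow (j - i))
      exact ContinuousAt.comp (g := c β i) ((hc β).1 i).continuous.continuousAt
        (CONV.cont_tau α β p hp)
    refine tendsto_nhds_unique_of_frequently_eq hL hR ?_
    have hfr : ∃ᶠ q in 𝓝 p, res (dl M) α q ≠ 0 :=
      mem_closure_iff_frequently.1 (dense_dl C.cfg α p)
    have hev : ∀ᶠ q in 𝓝 p, q ∈ overlap α β := (CONV.overlap_open α β).mem_nhds hp
    refine (hfr.and_eventually hev).mono ?_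
    rintro q ⟨hq, hqo⟩
    -- invert the frame at `q`
    set U : ℂ := x 0 / res (dl M) α q with hU
    set V : ℂ := x 1 - res (L α.1) α q * U with hV
    have hx0 : x 0 = res (dl M) α q * U := by rw [hU]; field_simp
    have hx1 : x 1 = V + res (L α.1) α q * U := by rw [hV]; ring
    have h1 := (hc α).2 q U V
    rw [← hx0, ← hx1] at h1
    have h2 := (hc β).2 (tau α β q) (lineTrans 0 ((B : ℤ) + 8) α β q * U)
      (lineTrans ((B : ℤ) + 8) 0 α β q * V)
    have e0 : ∑ i, g0 B K α β q i 0 * x i =
        res (dl M) β (tau α β q) * (lineTrans 0 ((B : ℤ) + 8) α β q * U) := by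
      rw [Fin.sum_univ_two]
      simp only [g0, Matrix.cons_val_zero, Matrix.of_apply, Matrix.cons_val', Matrix.cons_val_one,
        Matrix.cons_val_fin_one, zero_mul, add_zero]
      rw [hx0]
      linear_combination U * CONV.rel_dl M B α β q hqo
    have e1 : ∑ i, g0 B K α β q i 1 * x i = lineTrans ((B : ℤ) + 8) 0 α β q * V +
        res (L β.1) β (tau α β q) * (lineTrans 0 ((B : ℤ) + 8) α β q * U) := by
      rw [Fin.sum_univ_two]
      simp only [g0, Matrix.cons_val_zero, Matrix.of_apply, Matrix.cons_val', Matrix.cons_val_one,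
        Matrix.cons_val_fin_one]
      rw [hx0, hx1]
      linear_combination U * CONV.rel_L C.lk α β q hqo
    show _ = lineTrans s t α β q * _
    rw [e0, e1, ← h1, ← h2, Finset.mul_sum]
    refine Finset.sum_congr rfl fun i hi => ?_
    rw [mem_range] at hi
    rw [res_trans (ha.mem i (by omega)) α β q hqo]
    have e3 : lineTrans (((j - i) * (B + 8) + s : ℕ) : ℤ) ((i * (B + 8) + t : ℕ) : ℤ) α β q =
        lineTrans s t α β q * lineTrans ((B : ℤ) + 8) 0 α β q ^ (j - i) *
          lineTrans 0 ((B : ℤ) + 8) α β q ^ i := by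
      rw [← CONV.lt_pow _ _ _ _ _ _ hqo, ← CONV.lt_pow _ _ _ _ _ _ hqo,
        ← CONV.lt_mul _ _ _ _ _ _ _ hqo, ← CONV.lt_mul _ _ _ _ _ _ _ hqo]
      congr 1 <;> push_cast <;> ring
    rw [e3]
    ring_nf

end Crest.Agent.R258
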