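import Crest.Agent.R258.INTERP

/-! Row 258, task DIV: divisibility by `δ`. -/

set_option autoImplicit false

noncomputable section

namespace Crest.Agent.R258
namespace DIV

open Matrix Finset INTERP

theorem Bn_cont {n : ℕ} {f : V2 → ℂ} (hf : f ∈ Bn n) : Continuous f := by
  refine Submodule.span_induction (p := fun f _ => Continuous f) ?_ ?_ ?_ ?_ hf
  · rintro _ ⟨a, a', h1, rfl⟩
    fun_prop
  · exact continuous_const
  · intro x y _ _ hx hy
    exact hx.add hy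
  · intro d x _ hx
    exact continuous_const.mul hx

/-- a linear form times a form is zero only if the form is zero -/
theorem Bn_cancel {n : ℕ} {h : V2 → ℂ} (hh : h ∈ Bn n) (Z : V2) (hZ : Z ≠ 0)
    (h0 : ∀ X, br Z X * h X = 0) : ∀ X, h X = 0 := by
  intro X
  by_cases hX : br Z X = 0
  · obtain ⟨W, hW⟩ := exists_br_one Z hZ
    have hc : Continuous (fun t : ℂ => h (X + t • W)) :=
      (Bn_cont hh).comp (by fun_prop)
    have h1 : ∀ t : ℂ, t ≠ 0 → h (X + t • W) = 0 := by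
      intro t ht
      have e : br Z (X + t • W) = t := by
        have : br Z (X + t • W) = br Z X + t * br Z W := by
          simp [br]; ring
        rw [this, hX, hW]; ring
      have := h0 (X + t • W)
      rw [e] at this
      exact (mul_eq_zero.1 this).resolve_left ht
    have h2 : (fun t : ℂ => h (X + t • W)) = fun _ => 0 := by
      have hd : Dense ({0}ᶜ : Set ℂ) := dense_compl_singleton 0
      exact Continuous.ext_on hd hc continuous_const (fun t ht => h1 t ht)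
    have := congrFun h2 0
    simpa using this
  · exact (mul_eq_zero.1 (h0 X)).resolve_left hX

theorem H_compX {s t : ℕ} {f : V2 → V2 → ℂ} (hf : f ∈ H s t) (A : Matrix (Fin 2) (Fin 2) ℂ) :
    (fun X Y => f (A *ᵥ X) Y) ∈ H s t := by
  refine Submodule.span_induction (p := fun f _ => (fun X Y => f (A *ᵥ X) Y) ∈ H s t)
    ?_ ?_ ?_ ?_ hf
  · rintro _ ⟨a, a', b, b', h1, h2, rfl⟩
    subst h1 h2
    exact H_of_Bn (Bn_comp (Bn_mon a a') A) (Bn_mon b b')
  · exact (H s t).zero_mem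
  · intro x y _ _ hx hy
    exact (H s t).add_mem hx hy
  · intro c x _ hx
    exact (H s t).smul_mem c hx

theorem H_zeroX {t : ℕ} {f : V2 → V2 → ℂ} (hf : f ∈ H 0 t) (X X' Y : V2) : f X Y = f X' Y := by
  refine Submodule.span_induction (p := fun f _ => f X Y = f X' Y) ?_ ?_ ?_ ?_ hf
  · rintro _ ⟨a, a', b, b', h1, h2, rfl⟩
    obtain ⟨rfl, rfl⟩ : a = 0 ∧ a' = 0 := by omega
    simp
  · rfl
  · intro x y _ _ hx hy
    simp only [Pi.add_apply, hx, hy]
  · intro c x _ hx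
    simp only [Pi.smul_apply, hx]

theorem H_zeroY {s : ℕ} {f : V2 → V2 → ℂ} (hf : f ∈ H s 0) (X Y Y' : V2) : f X Y = f X Y' := by
  refine Submodule.span_induction (p := fun f _ => f X Y = f X Y') ?_ ?_ ?_ ?_ hf
  · rintro _ ⟨a, a', b, b', h1, h2, rfl⟩
    obtain ⟨rfl, rfl⟩ : b = 0 ∧ b' = 0 := by omega
    simp
  · rfl
  · intro x y _ _ hx hy
    simp only [Pi.add_apply, hx, hy]
  · intro c x _ hx
    simp only [Pi.smul_apply, hx]

theorem H_splitY {s t : ℕ} {f : V2 → V2 → ℂ} (hf : f ∈ H s (t + 1)) :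
    ∃ p ∈ Bn s, ∃ f1 ∈ H s t, ∀ X Y, f X Y = p X * Y 1 ^ (t + 1) + Y 0 * f1 X Y := by
  refine Submodule.span_induction (p := fun f _ => ∃ p ∈ Bn s, ∃ f1 ∈ H s t,
    ∀ X Y, f X Y = p X * Y 1 ^ (t + 1) + Y 0 * f1 X Y) ?_ ?_ ?_ ?_ hf
  · rintro _ ⟨a, a', b, b', h1, h2, rfl⟩
    rcases Nat.eq_zero_or_pos b with hb | hb
    · have hb' : b' = t + 1 := by omega
      subst hb; subst hb'; subst h1
      exact ⟨_, Bn_mon a a', 0, (H _ t).zero_mem, fun X Y => by simp⟩
    · obtain ⟨c, rfl⟩ : ∃ c, b = c + 1 := ⟨b - 1, by omega⟩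
      refine ⟨0, (Bn s).zero_mem, fun X Y => X 0 ^ a * X 1 ^ a' * (Y 0 ^ c * Y 1 ^ b'),
        Submodule.subset_span ⟨a, a', c, b', h1, by omega, rfl⟩, fun X Y => ?_⟩
      simp only [Pi.zero_apply, zero_mul, zero_add]
      ring
  · exact ⟨0, (Bn s).zero_mem, 0, (H s t).zero_mem, fun X Y => by simp⟩
  · rintro x y _ _ ⟨p1, hp1, f1, hf1, h1⟩ ⟨p2, hp2, f2, hf2, h2⟩
    refine ⟨p1 + p2, (Bn s).add_mem hp1 hp2, f1 + f2, (H s t).add_mem hf1 hf2, fun X Y => ?_⟩
    simp only [Pi.add_apply]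
    rw [h1, h2]; ring
  · rintro c x _ ⟨p1, hp1, f1, hf1, h1⟩
    refine ⟨c • p1, (Bn s).smul_mem c hp1, c • f1, (H s t).smul_mem c hf1, fun X Y => ?_⟩
    simp only [Pi.smul_apply, smul_eq_mul]
    rw [h1]; ring

theorem e01_ne : (![0, 1] : V2) ≠ 0 := by
  intro h
  have := congrFun h 1
  simp at this

theorem H_smul_Bn {s s' t : ℕ} {p : V2 → ℂ} {f : V2 → V2 → ℂ} (hp : p ∈ Bn s) (hf : f ∈ H s' t) :
    (fun X Y => p X * f X Y) ∈ H (s + s') t := by
  have h1 : (fun X Y : V2 => p X * (fun _ : V2 => (1 : ℂ)) Y) ∈ H s 0 := H_of_Bn hp Bn_one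
  have := H_mul h1 hf
  simpa using this

/-- `f(X,X) = 0` implies divisibility by `[X,Y]`. -/
theorem diag (t : ℕ) : ∀ (s : ℕ) (f : V2 → V2 → ℂ), f ∈ H (s + 1) (t + 1) →
    (∀ X, f X X = 0) → ∃ g ∈ H s t, ∀ X Y, f X Y = br X Y * g X Y := by
  -- a common first step
  have step : ∀ (t s : ℕ) (f : V2 → V2 → ℂ), f ∈ H (s + 1) (t + 1) → (∀ X, f X X = 0) →
      ∃ q ∈ Bn s, ∃ f' ∈ H (s + 1) t, (∀ X, f' X X = 0) ∧
        ∀ X Y, f X Y = br X Y * (q X * Y 1 ^ t) + Y 0 * f' X Y := by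
    intro t s f hf h0
    obtain ⟨p, hp, f1, hf1, h1⟩ := H_splitY hf
    have hp0 : p ![0, 1] = 0 := by
      have := h1 ![0, 1] ![0, 1]
      rw [h0] at this
      simpa using this.symm
    obtain ⟨q, hq, hpq⟩ := Bn_div hp ![0, 1] e01_ne hp0
    have hq' : ∀ X, p X = X 0 * (-q X) := by
      intro X; rw [hpq X]; simp [br]
    have hnq : (fun X => -q X) ∈ Bn s := (Bn s).neg_mem hq
    refine ⟨fun X => -q X, hnq, fun X Y => (-q X) * X 1 * Y 1 ^ t + f1 X Y, ?_, ?_, ?_⟩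
    · refine (H (s + 1) t).add_mem ?_ hf1
      exact H_of_Bn (Bn_mul hnq (Bn_coord 1)) (by simpa using Bn_mon 0 t)
    · have hm : (fun X => (fun X Y : V2 => (-q X) * X 1 * Y 1 ^ t + f1 X Y) X X) ∈
          Bn (s + 1 + t) := by
        have h3 : (fun X Y : V2 => (-q X) * X 1 * Y 1 ^ t + f1 X Y) ∈ H (s + 1) t := by
          refine (H (s + 1) t).add_mem ?_ hf1
          exact H_of_Bn (Bn_mul hnq (Bn_coord 1)) (by simpa using Bn_mon 0 t)
        have := H_graph h3 1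
        simpa using this
      refine Bn_cancel hm ![0, 1] e01_ne (fun X => ?_)
      have e : br ![0, 1] X = - X 0 := by simp [br]
      rw [e]
      have := h1 X X
      rw [h0, hq' X] at this
      simp only
      linear_combination this
    · intro X Y
      rw [h1 X Y, hq' X]
      simp only [br]
      ring
  induction t with
  | zero =>
    intro s f hf h0
    obtain ⟨q, hq, f', hf', h0', h⟩ := step 0 s f hf h0
    refine ⟨fun X Y => q X * 1, H_of_Bn hq Bn_one, fun X Y => ?_⟩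
    have : f' X Y = 0 := by rw [H_zeroY hf' X Y X]; exact h0' X
    rw [h X Y, this]; ring
  | succ t ih =>
    intro s f hf h0
    obtain ⟨q, hq, f', hf', h0', h⟩ := step (t + 1) s f hf h0
    obtain ⟨g', hg', h'⟩ := ih s f' hf' h0'
    refine ⟨fun X Y => q X * Y 1 ^ (t + 1) + Y 0 * g' X Y, ?_, fun X Y => ?_⟩
    · refine (H s (t + 1)).add_mem ?_ ?_
      · exact H_of_Bn hq (by simpa using Bn_mon 0 (t + 1))
      · have h1 : (fun X Y : V2 => (fun _ : V2 => (1 : ℂ)) X * Y 0) ∈ H 0 1 :=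
          H_of_Bn Bn_one (Bn_coord 0)
        have := H_mul h1 hg'
        rw [zero_add, add_comm 1 t] at this
        simpa using this
    · rw [h X Y, h' X Y]; ring

theorem inv_mv {A : Matrix (Fin 2) (Fin 2) ℂ} (hA : A.det = 1) (X : V2) :
    A *ᵥ (A⁻¹ *ᵥ X) = X := by
  have hAA : A * A⁻¹ = 1 := Matrix.mul_nonsing_inv A (by rw [hA]; exact isUnit_one)
  rw [Matrix.mulVec_mulVec, hAA, Matrix.one_mulVec]

theorem mv_inv {A : Matrix (Fin 2) (Fin 2) ℂ} (hA : A.det = 1) (X : V2) :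
    A⁻¹ *ᵥ (A *ᵥ X) = X := by
  have hAA : A⁻¹ * A = 1 := Matrix.nonsing_inv_mul A (by rw [hA]; exact isUnit_one)
  rw [Matrix.mulVec_mulVec, hAA, Matrix.one_mulVec]

/-- division by the equation of one graph -/
theorem graph_div (A : Matrix (Fin 2) (Fin 2) ℂ) (hA : A.det = 1) (s t : ℕ) (f : V2 → V2 → ℂ)
    (hf : f ∈ H (s + 1) (t + 1)) (h0 : ∀ X, f X (A *ᵥ X) = 0) :
    ∃ g ∈ H s t, ∀ X Y, f X Y = br (A *ᵥ X) Y * g X Y := by
  obtain ⟨g, hg, h⟩ := diag t s (fun X Y => f (A⁻¹ *ᵥ X) Y) (H_compX hf A⁻¹) (fun X => by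
    have := h0 (A⁻¹ *ᵥ X)
    rwa [inv_mv hA] at this)
  refine ⟨fun X Y => g (A *ᵥ X) Y, H_compX hg A, fun X Y => ?_⟩
  have := h (A *ᵥ X) Y
  simp only [mv_inv hA] at this
  exact this

theorem graph_zero (A : Matrix (Fin 2) (Fin 2) ℂ) (hA : A.det = 1) (s t : ℕ) (f : V2 → V2 → ℂ)
    (hf : f ∈ H s t) (hst : s = 0 ∨ t = 0) (h0 : ∀ X, f X (A *ᵥ X) = 0) : f = 0 := by
  funext X Y
  rcases hst with rfl | rfl
  · rw [H_zeroX hf X (A⁻¹ *ᵥ Y) Y]
    have := h0 (A⁻¹ *ᵥ Y)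
    rwa [inv_mv hA] at this
  · rw [H_zeroY hf X Y (A *ᵥ X)]
    exact h0 X

theorem graph_next {M : Mats} (hM : Cfg M) {i j : Fin 4} (hij : i ≠ j) {s t : ℕ}
    {f g : V2 → V2 → ℂ} (hg : g ∈ H s t) (h : ∀ X Y, f X Y = br (M i *ᵥ X) Y * g X Y)
    (h0 : ∀ X, f X (M j *ᵥ X) = 0) : ∀ X, g X (M j *ᵥ X) = 0 := by
  obtain ⟨X1, X2, c, hb, hc, hn⟩ := hM.node i j hij
  obtain ⟨hX1, hX2⟩ := br_ne_of hb
  have hm := H_graph hg (M j)
  have hm2 := Bn_mul (br_lin X2) hm
  have key := Bn_cancel hm2 X1 hX1 (fun X => by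
    have h1 := h0 X
    rw [h X, hn X] at h1
    have : c * (br X1 X * (br X2 X * g X (M j *ᵥ X))) = 0 := by linear_combination h1
    exact (mul_eq_zero.1 this).resolve_left hc)
  exact Bn_cancel hm X2 hX2 key

theorem divS {M : Mats} (hM : Cfg M) (S : Finset (Fin 4)) : ∀ (s t : ℕ) (f : V2 → V2 → ℂ),
    f ∈ H (s + S.card) (t + S.card) → (∀ i ∈ S, ∀ X, f X (M i *ᵥ X) = 0) →
    ∃ g ∈ H s t, ∀ X Y, f X Y = (∏ i ∈ S, br (M i *ᵥ X) Y) * g X Y := by
  induction S using Finset.induction_on with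
  | empty =>
    intro s t f hf _
    exact ⟨f, by simpa using hf, fun X Y => by simp⟩
  | insert j S hj ih =>
    intro s t f hf h0
    rw [Finset.card_insert_of_notMem hj, ← add_assoc, ← add_assoc] at hf
    obtain ⟨g, hg, h⟩ := graph_div (M j) (hM.det j) (s + S.card) (t + S.card) f
      hf (h0 j (Finset.mem_insert_self _ _))
    obtain ⟨g', hg', h'⟩ := ih s t g hg (fun i hi => by
      have hij : j ≠ i := fun e => hj (e ▸ hi)
      exact graph_next hM hij hg h (h0 i (Finset.mem_insert_of_mem hi)))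
    refine ⟨g', hg', fun X Y => ?_⟩
    rw [Finset.prod_insert hj, h X Y, h' X Y]; ring

theorem zeroS {M : Mats} (hM : Cfg M) (S : Finset (Fin 4)) : ∀ (s t : ℕ) (f : V2 → V2 → ℂ),
    f ∈ H s t → (s < S.card ∨ t < S.card) → (∀ i ∈ S, ∀ X, f X (M i *ᵥ X) = 0) → f = 0 := by
  induction S using Finset.induction_on with
  | empty =>
    intro s t f _ hst _
    simp at hst
  | insert j S hj ih =>
    intro s t f hf hst h0
    rw [Finset.card_insert_of_notMem hj] at hst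
    by_cases hz : s = 0 ∨ t = 0
    · exact graph_zero (M j) (hM.det j) s t f hf hz (h0 j (Finset.mem_insert_self _ _))
    · push Not at hz
      obtain ⟨s', rfl⟩ : ∃ s', s = s' + 1 := ⟨s - 1, by omega⟩
      obtain ⟨t', rfl⟩ : ∃ t', t = t' + 1 := ⟨t - 1, by omega⟩
      obtain ⟨g, hg, h⟩ := graph_div (M j) (hM.det j) s' t' f hf
        (h0 j (Finset.mem_insert_self _ _))
      have := ih s' t' g hg (by omega) (fun i hi => by
        have hij : j ≠ i := fun e => hj (e ▸ hi)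
        exact graph_next hM hij hg h (h0 i (Finset.mem_insert_of_mem hi)))
      funext X Y
      rw [h X Y, this]; simp

end DIV

theorem div_ : StDiv := by
  intro M hM
  constructor
  · intro s t f hf h0
    obtain ⟨g, hg, h⟩ := DIV.divS hM Finset.univ s t f (by simpa using hf)
      (fun i _ X => by simpa using h0 i X)
    exact ⟨g, hg, fun X Y => h X Y⟩
  · intro s t hst f hf h0
    exact DIV.zeroS hM Finset.univ s t f hf (by simpa using hst) (fun i _ X => by simpa using h0 i X)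

end Crest.Agent.R258
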