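import Crest.Agent.R258.DIV

/-! Row 258, task DIVX: simultaneous division by `X₀`, `X₁`. -/

set_option autoImplicit false

noncomputable section

namespace Crest.Agent.R258
namespace DIVX

open Matrix Finset INTERP DIV

theorem H_splitX {s t : ℕ} {f : V2 → V2 → ℂ} (hf : f ∈ H (s + 1) t) :
    ∃ p ∈ Bn t, ∃ f1 ∈ H s t, ∀ X Y, f X Y = X 1 ^ (s + 1) * p Y + X 0 * f1 X Y := by
  refine Submodule.span_induction (p := fun f _ => ∃ p ∈ Bn t, ∃ f1 ∈ H s t,
    ∀ X Y, f X Y = X 1 ^ (s + 1) * p Y + X 0 * f1 X Y) ?_ ?_ ?_ ?_ hf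
  · rintro _ ⟨a, a', b, b', h1, h2, rfl⟩
    rcases Nat.eq_zero_or_pos a with hb | hb
    · have hb' : a' = s + 1 := by omega
      subst hb; subst hb'; subst h2
      exact ⟨_, Bn_mon b b', 0, (H s _).zero_mem, fun X Y => by simp⟩
    · obtain ⟨c, rfl⟩ : ∃ c, a = c + 1 := ⟨a - 1, by omega⟩
      refine ⟨0, (Bn t).zero_mem, fun X Y => X 0 ^ c * X 1 ^ a' * (Y 0 ^ b * Y 1 ^ b'),
        Submodule.subset_span ⟨c, a', b, b', by omega, h2, rfl⟩, fun X Y => ?_⟩
      simp only [Pi.zero_apply, mul_zero, zero_add]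
      ring
  · exact ⟨0, (Bn t).zero_mem, 0, (H s t).zero_mem, fun X Y => by simp⟩
  · rintro x y _ _ ⟨p1, hp1, f1, hf1, h1⟩ ⟨p2, hp2, f2, hf2, h2⟩
    refine ⟨p1 + p2, (Bn t).add_mem hp1 hp2, f1 + f2, (H s t).add_mem hf1 hf2, fun X Y => ?_⟩
    simp only [Pi.add_apply]
    rw [h1, h2]; ring
  · rintro c x _ ⟨p1, hp1, f1, hf1, h1⟩
    refine ⟨c • p1, (Bn t).smul_mem c hp1, c • f1, (H s t).smul_mem c hf1, fun X Y => ?_⟩
    simp only [Pi.smul_apply, smul_eq_mul]
    rw [h1]; ring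

theorem H_slice {s t : ℕ} {f : V2 → V2 → ℂ} (hf : f ∈ H s t) (Y : V2) :
    (fun X => f X Y) ∈ Bn s := by
  refine Submodule.span_induction (p := fun f _ => (fun X => f X Y) ∈ Bn s) ?_ ?_ ?_ ?_ hf
  · rintro _ ⟨a, a', b, b', h1, h2, rfl⟩
    subst h1
    have := (Bn (a + a')).smul_mem (Y 0 ^ b * Y 1 ^ b') (Bn_mon a a')
    convert this using 1
    funext X
    simp only [Pi.smul_apply, smul_eq_mul]; ring
  · exact (Bn s).zero_mem
  · intro x y _ _ hx hy
    exact (Bn s).add_mem hx hy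
  · intro c x _ hx
    exact (Bn s).smul_mem c hx

/-- simultaneous division by `X₀` and `X₁` -/
theorem H_divX {s t : ℕ} {f g : V2 → V2 → ℂ} (hf : f ∈ H (s + 1) t) (hg : g ∈ H (s + 1) t)
    (h : ∀ X Y : V2, X 1 * f X Y = X 0 * g X Y) :
    ∃ c ∈ H s t, ∀ X Y : V2, f X Y = X 0 * c X Y ∧ g X Y = X 1 * c X Y := by
  obtain ⟨p, hp, f1, hf1, h1⟩ := H_splitX hf
  have hp0 : ∀ Y, p Y = 0 := by
    intro Y
    have e1 := h1 ![0, 1] Y
    have e2 := h ![0, 1] Y
    simp at e1 e2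
    rw [← e1, e2]
  have hf' : ∀ X Y, f X Y = X 0 * f1 X Y := by
    intro X Y; rw [h1 X Y, hp0]; ring
  refine ⟨f1, hf1, fun X Y => ⟨hf' X Y, ?_⟩⟩
  have hm : (fun X => g X Y - X 1 * f1 X Y) ∈ Bn (s + 1) := by
    refine (Bn (s + 1)).sub_mem (H_slice hg Y) ?_
    have := Bn_mul (Bn_coord 1) (H_slice hf1 Y)
    rwa [add_comm 1 s] at this
  have := Bn_cancel hm ![0, 1] e01_ne (fun X => by
    have e : br ![0, 1] X = - X 0 := by simp [br]
    rw [e]
    have h2 := h X Y
    rw [hf' X Y] at h2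
    linear_combination h2) X
  linear_combination this

end DIVX

theorem divX : StDivX := by
  intro M B L K _ j s t a b ha hb hab
  have key : ∀ i, i ≤ j → ∃ c ∈ H ((j - i) * (B + 8) + s) (i * (B + 8) + t),
      ∀ X Y : V2, a i X Y = X 0 * c X Y ∧ b i X Y = X 1 * c X Y := fun i hi =>
    DIVX.H_divX (ha.mem i hi) (hb.mem i hi) (hab i)
  choose! c hc hcX using key
  refine ⟨fun i => if i ≤ j then c i else 0, ⟨?_, ?_, ?_⟩, ?_⟩
  · intro i hi
    simp only [hi, if_true]
    exact hc i hi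
  · intro i hi
    simp only [Nat.not_le.2 hi, if_false]
  · intro α
    by_cases h0 : α.1 = 0
    · obtain ⟨d, hd, hd2⟩ := hb.loc α
      refine ⟨d, hd, fun p U V => ?_⟩
      rw [← hd2 p U V]
      refine Finset.sum_congr rfl fun i hi => ?_
      have hij : i ≤ j := Nat.lt_succ_iff.1 (Finset.mem_range.1 hi)
      have : res (b i) α p = res (c i) α p := by
        have := (hcX i hij (cv α.1 (p 0)) (cv α.2 (p 1))).2
        simp only [res]
        rw [this]
        simp [cv, h0]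
      simp only [hij, if_true, this]
    · have h1 : α.1 = 1 := by
        have := α.1.isLt
        apply Fin.ext
        have h2 : α.1.val ≠ 0 := fun h => h0 (Fin.ext h)
        simp; omega
      obtain ⟨d, hd, hd2⟩ := ha.loc α
      refine ⟨d, hd, fun p U V => ?_⟩
      rw [← hd2 p U V]
      refine Finset.sum_congr rfl fun i hi => ?_
      have hij : i ≤ j := Nat.lt_succ_iff.1 (Finset.mem_range.1 hi)
      have : res (a i) α p = res (c i) α p := by
        have := (hcX i hij (cv α.1 (p 0)) (cv α.2 (p 1))).1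
        simp only [res]
        rw [this]
        simp [cv, h1]
      simp only [hij, if_true, this]
  · intro i X Y
    by_cases hi : i ≤ j
    · simp only [hi, if_true]
      exact hcX i hi X Y
    · have e1 := ha.zero i (Nat.not_le.1 hi)
      have e2 := hb.zero i (Nat.not_le.1 hi)
      simp [hi, e1, e2]

end Crest.Agent.R258
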