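import Crest.Agent.R258.NLM

/-! DNorm: the dual norm package -/

set_option autoImplicit false

open Filter Topology Matrix
open scoped ComplexConjugate ComplexOrder
open Crest.AlgGeometry.QuadricBundle

namespace Crest.Agent.R258

theorem sum_eq_dot {r : ℕ} (l v : Fin r → ℂ) : ∑ i, l i * v i = star (star v) ⬝ᵥ l := by
  simp [dotProduct, mul_comm]

theorem hn_eq (A : Matrix (Fin 2) (Fin 2) ℂ) (v : V2) :
    hn A v = (star (star v) ⬝ᵥ (A *ᵥ star v)).re := by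
  unfold hn
  congr 1
  simp only [dotProduct, Matrix.mulVec, star_star, Finset.mul_sum]
  refine Finset.sum_congr rfl fun i _ => Finset.sum_congr rfl fun j _ => ?_
  simp only [Pi.star_apply, RCLike.star_def]
  ring

theorem dn_nonneg {A : Matrix (Fin 2) (Fin 2) ℂ} (hA : A.PosDef) (φ : V2) : 0 ≤ dn A φ := by
  rw [dn_eq_dualSq]
  exact (Complex.nonneg_iff.1 (hA.inv.posSemidef.dotProduct_mulVec_nonneg φ)).1

theorem dn_le {A : Matrix (Fin 2) (Fin 2) ℂ} (hA : A.PosDef) (φ v : V2) :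
    ‖∑ i, φ i * v i‖ ^ 2 ≤ dn A φ * hn A v := by
  rw [sum_eq_dot, hn_eq, dn_eq_dualSq]
  exact dual_cs hA φ (star v)

theorem hn_pos {A : Matrix (Fin 2) (Fin 2) ℂ} (hA : A.PosDef) (v : V2) (hv : v ≠ 0) :
    0 < hn A v := by
  rw [hn_eq]
  have : star v ≠ 0 := by simpa using hv
  have h := hA.dotProduct_mulVec_pos this
  exact (Complex.pos_iff.1 h).1

theorem dn_ex {A : Matrix (Fin 2) (Fin 2) ℂ} (hA : A.PosDef) (φ : V2) (hφ : φ ≠ 0) :
    0 < dn A φ ∧ ∃ v : V2, v ≠ 0 ∧ hn A v = dn A φ ∧ ∑ i, φ i * v i = (dn A φ : ℂ) := by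
  obtain ⟨c, hc0, D, hD, h1, h2, h3⟩ := dual_pos hA hφ
  rw [dn_eq_dualSq, h3]
  refine ⟨hD, star c, by simpa using hc0, ?_, ?_⟩
  · rw [hn_eq, star_star, star_star, h2]; simp
  · rw [sum_eq_dot, star_star, h1]

theorem dn_smul (A : Matrix (Fin 2) (Fin 2) ℂ) (c : ℂ) (φ : V2) :
    dn A (c • φ) = ‖c‖ ^ 2 * dn A φ := by
  unfold dn
  rw [← Complex.re_ofReal_mul]
  congr 1
  rw [Finset.mul_sum]
  refine Finset.sum_congr rfl fun i _ => ?_
  rw [Matrix.mulVec_smul]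
  simp only [Pi.smul_apply, smul_eq_mul, map_mul]
  have : ((‖c‖ ^ 2 : ℝ) : ℂ) = c * conj c := by
    rw [Complex.mul_conj, Complex.normSq_eq_norm_sq]
  rw [this]
  ring

theorem dn_tri {A : Matrix (Fin 2) (Fin 2) ℂ} (hA : A.PosDef) (φ ψ : V2) :
    √(dn A (φ + ψ)) ≤ √(dn A φ) + √(dn A ψ) := by
  by_cases h0 : φ + ψ = 0
  · have : dn A (φ + ψ) = 0 := by
      rw [h0]
      have := dn_smul A 0 0
      simpa using this
    rw [this, Real.sqrt_zero]
    positivity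
  obtain ⟨hD, v, hv, h1, h2⟩ := dn_ex hA _ h0
  set D := dn A (φ + ψ) with hDdef
  have h3 : D ≤ √(dn A φ * D) + √(dn A ψ * D) := by
    have e : (D : ℂ) = ∑ i, φ i * v i + ∑ i, ψ i * v i := by
      rw [← h2, ← Finset.sum_add_distrib]
      refine Finset.sum_congr rfl fun i _ => ?_
      rw [Pi.add_apply, add_mul]
    have h4 : D ≤ ‖∑ i, φ i * v i‖ + ‖∑ i, ψ i * v i‖ := by
      calc D = ‖(D : ℂ)‖ := by rw [Complex.norm_real, Real.norm_eq_abs, abs_of_pos hD]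
        _ ≤ _ := by rw [e]; exact norm_add_le _ _
    have h5 : ‖∑ i, φ i * v i‖ ≤ √(dn A φ * D) := by
      refine Real.le_sqrt_of_sq_le ?_
      rw [← h1]
      exact dn_le hA φ v
    have h6 : ‖∑ i, ψ i * v i‖ ≤ √(dn A ψ * D) := by
      refine Real.le_sqrt_of_sq_le ?_
      rw [← h1]
      exact dn_le hA ψ v
    linarith
  rw [Real.sqrt_mul (dn_nonneg hA φ), Real.sqrt_mul (dn_nonneg hA ψ), ← add_mul] at h3
  have hs : 0 < √D := Real.sqrt_pos.2 hD
  have h7 : √D * √D ≤ (√(dn A φ) + √(dn A ψ)) * √D := by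
    rw [Real.mul_self_sqrt hD.le]; exact h3
  exact le_of_mul_le_mul_right h7 hs

theorem dn_cong {A G : Matrix (Fin 2) (Fin 2) ℂ} (hA : A.PosDef) (hG : G.det ≠ 0) (φ : V2) :
    dn (Gᵀ * A * G.map conj) (Gᵀ *ᵥ φ) = dn A φ := by
  have hAdet : IsUnit A.det := hA.isUnit.map Matrix.detMonoidHom
  set Gb : Matrix (Fin 2) (Fin 2) ℂ := G.map conj with hGb
  have hGbdet : IsUnit Gb.det := by
    have : Gb.det = conj G.det := by
      rw [hGb]
      exact (RingHom.map_det (starRingEnd ℂ) G).symm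
    rw [this]
    exact (isUnit_iff_ne_zero.2 hG).map (starRingEnd ℂ)
  have hGTdet : IsUnit (Gᵀ).det := by
    rw [Matrix.det_transpose]; exact isUnit_iff_ne_zero.2 hG
  have h1 : (Gᵀ * A * Gb)⁻¹ *ᵥ (Gᵀ *ᵥ φ) = Gb⁻¹ *ᵥ (A⁻¹ *ᵥ φ) := by
    rw [Matrix.mul_inv_rev, Matrix.mul_inv_rev, Matrix.mulVec_mulVec, Matrix.mulVec_mulVec]
    congr 1
    rw [Matrix.mul_assoc, Matrix.mul_assoc, Matrix.nonsing_inv_mul _ hGTdet, Matrix.mul_one]
  unfold dn
  rw [h1]
  set c := A⁻¹ *ᵥ φ with hc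
  set d := Gb⁻¹ *ᵥ c with hd
  have hcd : Gb *ᵥ d = c := by
    rw [hd, Matrix.mulVec_mulVec, Matrix.mul_nonsing_inv _ hGbdet, Matrix.one_mulVec]
  have h2 : ∀ i, conj (c i) = (G *ᵥ (fun j => conj (d j))) i := by
    intro i
    rw [← hcd]
    simp [Matrix.mulVec, dotProduct, hGb, Matrix.map_apply]
  congr 1
  calc ∑ i, (Gᵀ *ᵥ φ) i * conj (d i) = (Gᵀ *ᵥ φ) ⬝ᵥ (fun j => conj (d j)) := rfl
    _ = φ ⬝ᵥ (G *ᵥ (fun j => conj (d j))) := by
        rw [Matrix.mulVec_transpose, ← Matrix.dotProduct_mulVec]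
    _ = ∑ i, φ i * conj (c i) := by
        refine Finset.sum_congr rfl fun i _ => ?_
        rw [h2 i]

theorem dn_cont (T : Type) [TopologicalSpace T] (A : T → Matrix (Fin 2) (Fin 2) ℂ) (φ : T → V2)
    (hA : ∀ i j, Continuous (fun x => A x i j)) (hpd : ∀ x, (A x).PosDef) (hφ : Continuous φ) :
    Continuous (fun x => dn (A x) (φ x)) := by
  have hφ' : ∀ i, Continuous fun x => φ x i := fun i => (continuous_apply i).comp hφ
  have hdet : Continuous fun x => (A x).det := by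
    simp only [Matrix.det_fin_two]
    exact ((hA 0 0).mul (hA 1 1)).sub ((hA 0 1).mul (hA 1 0))
  have hne : ∀ x, (A x).det ≠ 0 := fun x =>
    ((hpd x).isUnit.map Matrix.detMonoidHom).ne_zero
  have hinv : ∀ i, Continuous fun x => ((A x)⁻¹ *ᵥ φ x) i := by
    intro i
    have e : ∀ x, ((A x)⁻¹ *ᵥ φ x) i = ((A x).det)⁻¹ * ((A x).adjugate *ᵥ φ x) i := by
      intro x
      rw [Matrix.inv_def, Ring.inverse_eq_inv', Matrix.smul_mulVec]
      rfl
    simp only [e]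
    refine (hdet.inv₀ hne).mul ?_
    simp only [Matrix.adjugate_fin_two, Matrix.mulVec, dotProduct, Fin.sum_univ_two]
    fin_cases i
    · simp only [Fin.zero_eta, Matrix.of_apply, Matrix.cons_val_zero,
        Matrix.cons_val_one]
      exact ((hA 1 1).mul (hφ' 0)).add ((hA 0 1).neg.mul (hφ' 1))
    · simp only [Fin.mk_one, Matrix.of_apply, Matrix.cons_val_zero,
        Matrix.cons_val_one]
      exact ((hA 1 0).neg.mul (hφ' 0)).add ((hA 0 0).mul (hφ' 1))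
  unfold dn
  refine Complex.continuous_re.comp ?_
  refine continuous_finsetSum _ fun i _ => (hφ' i).mul ?_
  exact Complex.continuous_conj.comp (hinv i)

theorem dnorm : DNorm where
  le _ hA φ v := dn_le hA φ v
  ex _ hA φ hφ := dn_ex hA φ hφ
  hpos _ hA v hv := hn_pos hA v hv
  smul A c φ := dn_smul A c φ
  tri _ hA φ ψ := dn_tri hA φ ψ
  cong _ _ hA hG φ := dn_cong hA hG φ
  cont T _ A φ h1 h2 h3 := dn_cont T A φ h1 h2 h3

end Crest.Agent.R258
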