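import Mathlib
import Crest.Prelude.Def_QuadricBundle

/-!
# Row 258 (S0396): interface

Paper proof: see `results.notes` of row 258 and the docstrings below.  All tasks are closed `Prop`s `St...`.

`V2 = Fin 2 → ℂ`.  Four matrices `M i ∈ SL₂(ℂ)`.  With `X^(2) = (X₀², X₁²)` the bundle is
`E' = {(A,B) ∈ O(1,n) ⊕ O(n,1) : A = B on Y^(2) = M_i X^(2)}`, `n = 2(B+8)+1`, the pull-back under
`(x,y) ↦ (x²,y²)` of `E₀ = {(A,B) ∈ O(0,B+8) ⊕ O(B+8,0) : A = B on Y = M_i X}` twisted by `O(1,1)`.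
-/

set_option autoImplicit false

noncomputable section

namespace Crest.Agent.R258

open Crest.AlgGeometry.QuadricBundle
open Matrix Finset
open scoped ComplexConjugate ComplexOrder Topology

abbrev V2 : Type := Fin 2 → ℂ

/-- the bracket `[X,Y]` -/
def br (X Y : V2) : ℂ := X 0 * Y 1 - X 1 * Y 0

def nrm2 (X : V2) : ℝ := ‖X 0‖ ^ 2 + ‖X 1‖ ^ 2

/-- bihomogeneous polynomial functions of bidegree `(s,t)` -/
def H (s t : ℕ) : Submodule ℂ (V2 → V2 → ℂ) :=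
  Submodule.span ℂ {f | ∃ a a' b b' : ℕ, a + a' = s ∧ b + b' = t ∧
    f = fun X Y => X 0 ^ a * X 1 ^ a' * (Y 0 ^ b * Y 1 ^ b')}

/-- binary forms of degree `n` -/
def Bn (n : ℕ) : Submodule ℂ (V2 → ℂ) :=
  Submodule.span ℂ {f | ∃ a a' : ℕ, a + a' = n ∧ f = fun X => X 0 ^ a * X 1 ^ a'}

abbrev Mats : Type := Fin 4 → Matrix (Fin 2) (Fin 2) ℂ

/-- the algebraic properties of the four matrices: determinant one; wherever two graphs meet the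
multiplier is a 20th root of unity; two graphs meet transversally (two distinct points); no triple
points. -/
structure Cfg (M : Mats) : Prop where
  det : ∀ i, (M i).det = 1
  root : ∀ i j, i ≠ j → ∀ X : V2, X ≠ 0 → ∀ μ : ℂ, M i *ᵥ X = μ • (M j *ᵥ X) → μ ^ 20 = 1
  node : ∀ i j, i ≠ j → ∃ (X1 X2 : V2) (c : ℂ), br X1 X2 ≠ 0 ∧ c ≠ 0 ∧
    ∀ X : V2, br (M i *ᵥ X) (M j *ᵥ X) = c * br X1 X * br X2 X
  triple : ∀ i j k, i ≠ j → i ≠ k → j ≠ k → ∀ X : V2, X ≠ 0 →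
    br (M i *ᵥ X) (M j *ᵥ X) = 0 → br (M i *ᵥ X) (M k *ᵥ X) ≠ 0

/-- every `X` is contracted by some `M i`, every `Y` by some `(M i)⁻¹`, uniformly. -/
def Cover (M : Mats) : Prop :=
  ∃ κ : ℝ, κ < 1 ∧ (∀ X : V2, ∃ i, nrm2 (M i *ᵥ X) ≤ κ * nrm2 X) ∧
    ∀ Y : V2, ∃ i, ∃ X : V2, M i *ᵥ X = Y ∧ nrm2 X ≤ κ * nrm2 Y

/-- `δ = ∏ [M_i X, Y]`, bidegree `(4,4)` -/
def dl (M : Mats) (X Y : V2) : ℂ := ∏ i, br (M i *ᵥ X) Y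

def Compat (M : Mats) (t : ℕ) (h : Fin 4 → V2 → ℂ) : Prop :=
  ∀ i j, i ≠ j → ∀ X : V2, X ≠ 0 → ∀ μ : ℂ, M i *ᵥ X = μ • (M j *ᵥ X) → h i X = μ ^ t * h j X

/-- `f` and `f'` agree on the four graphs -/
def OnD (M : Mats) (f f' : V2 → V2 → ℂ) : Prop := ∀ i (X : V2), f X (M i *ᵥ X) = f' X (M i *ᵥ X)

/-- the data `L⁽ᵃ⁾ ∈ H(3,B+8)` with `L⁽ᵃ⁾(X,M_iX) = X_{1-a}^{B+11}` and
`X₀^N L⁽⁰⁾ - X₁^N L⁽¹⁾ = δ K`, `N = B+11`. -/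
structure LK (M : Mats) (B : ℕ) (L : Fin 2 → V2 → V2 → ℂ) (K : V2 → V2 → ℂ) : Prop where
  hL : ∀ a, L a ∈ H 3 (B + 8)
  hLM : ∀ a i (X : V2), L a X (M i *ᵥ X) = X (1 - a) ^ (B + 11)
  hK : K ∈ H (B + 10) (B + 4)
  eq : ∀ X Y : V2, X 0 ^ (B + 11) * L 0 X Y - X 1 ^ (B + 11) * L 1 X Y = dl M X Y * K X Y

/-- everything that is fixed in the ampleness proof -/
structure Ctx (M : Mats) (B : ℕ) (L : Fin 2 → V2 → V2 → ℂ) (K : V2 → V2 → ℂ) : Prop where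
  cfg : Cfg M
  dvd : 20 ∣ B + 8
  big : 12 ≤ B
  lk : LK M B L K

/-- homogeneous coordinates of the point with coordinate `x` in chart `a` of `ℙ¹` -/
def cv (a : Fin 2) (x : ℂ) : V2 := if a = 0 then ![x, 1] else ![1, x]

/-- a bihomogeneous function in the chart `α` -/
def res (f : V2 → V2 → ℂ) (α : Chart) (p : V2) : ℂ := f (cv α.1 (p 0)) (cv α.2 (p 1))

def kap (K : V2 → V2 → ℂ) (α β : Chart) (p : V2) : ℂ :=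
  if α.1 = β.1 then 0 else (if α.1 = 0 then -1 else 1) * (p 0) ^ (-3 : ℤ) * res K α p

/-- the transitions of `E₀` in the frames `e = (δ,0)`, `f = (L,1)` -/
def g0 (B : ℕ) (K : V2 → V2 → ℂ) : Transition 2 := fun α β p =>
  !![lineTrans (-4) ((B : ℤ) + 4) α β p, kap K α β p; 0, lineTrans ((B : ℤ) + 8) 0 α β p]

def sq (p : V2) : V2 := fun i => p i ^ 2

/-- the transitions of `E'` -/
def g1 (B : ℕ) (K : V2 → V2 → ℂ) : Transition 2 := fun α β p =>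
  lineTrans 1 1 α β p • g0 B K α β (sq p)

/-- global sections of `Sʲ E ⊗ O(s,t)` -/
def IsGST (g : Transition 2) (n : ℕ) (s t : ℤ) (Q : Chart → V2 → MvPolynomial (Fin 2) ℂ) : Prop :=
  (∀ α p, (Q α p).IsHomogeneous n) ∧
  (∀ α (m : Fin 2 →₀ ℕ), Differentiable ℂ (fun p => MvPolynomial.coeff m (Q α p))) ∧
  ∀ α β, ∀ p ∈ overlap α β, Q α p = lineTrans s t α β p • frameSubst (g α β p) (Q β (tau α β p))

/-- `∑ aᵢ Uⁱ V^{j-i} = ∑ cᵢ eⁱ f^{j-i}`, `e = δU`, `f = V + LU`, in the chart `α` -/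
def Loc (M : Mats) (L : Fin 2 → V2 → V2 → ℂ) (j : ℕ) (a : ℕ → V2 → V2 → ℂ) (α : Chart)
    (c : ℕ → V2 → ℂ) : Prop :=
  (∀ i, Differentiable ℂ (c i)) ∧ ∀ (p : V2) (U V : ℂ),
    ∑ i ∈ range (j + 1), res (a i) α p * U ^ i * V ^ (j - i) =
    ∑ i ∈ range (j + 1), c i p * (res (dl M) α p * U) ^ i * (V + res (L α.1) α p * U) ^ (j - i)

/-- global sections of `Sʲ E₀(s,t)`: coefficient `a i` belongs to `Uⁱ V^{j-i}` -/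
structure MemM (M : Mats) (B : ℕ) (L : Fin 2 → V2 → V2 → ℂ) (j s t : ℕ)
    (a : ℕ → V2 → V2 → ℂ) : Prop where
  mem : ∀ i ≤ j, a i ∈ H ((j - i) * (B + 8) + s) (i * (B + 8) + t)
  zero : ∀ i, j < i → a i = 0
  loc : ∀ α : Chart, ∃ c : ℕ → V2 → ℂ, Loc M L j a α c

/-- multiplication by `e = δU` -/
def mulE (M : Mats) (a : ℕ → V2 → V2 → ℂ) : ℕ → V2 → V2 → ℂ
  | 0 => 0
  | i + 1 => fun X Y => dl M X Y * a i X Y

/-- multiplication by `f_l = X_{1-l}^N V + L⁽ˡ⁾ U` -/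
def mulF (B : ℕ) (L : Fin 2 → V2 → V2 → ℂ) (l : Fin 2) (a : ℕ → V2 → V2 → ℂ) :
    ℕ → V2 → V2 → ℂ
  | 0 => fun X Y => X (1 - l) ^ (B + 11) * a 0 X Y
  | i + 1 => fun X Y => X (1 - l) ^ (B + 11) * a (i + 1) X Y + L l X Y * a i X Y

/-- multiplication by `δ² U V` -/
def mulUV (M : Mats) (a : ℕ → V2 → V2 → ℂ) : ℕ → V2 → V2 → ℂ
  | 0 => 0
  | i + 1 => fun X Y => dl M X Y ^ 2 * a i X Y

/-- local coefficients of `δ²UV·Q = e(δf - Le)·Q` -/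
def uvc (M : Mats) (L : Fin 2 → V2 → V2 → ℂ) (α : Chart) (j : ℕ) (c : ℕ → V2 → ℂ) :
    ℕ → V2 → ℂ := fun i p =>
  (if 1 ≤ i ∧ i ≤ j + 1 then res (dl M) α p * c (i - 1) p else 0)
    - (if 2 ≤ i then res (L α.1) α p * c (i - 2) p else 0)

/-- `Sʲ E₀(s,t)` is globally generated -/
def GG (M : Mats) (B : ℕ) (L : Fin 2 → V2 → V2 → ℂ) (j s t : ℕ) : Prop :=
  ∀ (α : Chart) (p : V2) (R : ℕ → ℂ), ∃ a c, MemM M B L j s t a ∧ Loc M L j a α c ∧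
    ∀ i ≤ j, c i p = R i

/-! ## Algebra tasks -/

/-- interpolation on the four graphs -/
def StInterp : Prop := ∀ M : Mats, Cfg M → ∀ s t : ℕ, 3 ≤ s → 3 ≤ t → ∀ h : Fin 4 → V2 → ℂ,
  (∀ i, h i ∈ Bn (s + t)) → Compat M t h → ∃ f ∈ H s t, ∀ i (X : V2), f X (M i *ᵥ X) = h i X

/-- a bihomogeneous polynomial vanishing on the four graphs is divisible by `δ` -/
def StDiv : Prop := ∀ M : Mats, Cfg M →
  (∀ s t : ℕ, ∀ f ∈ H (s + 4) (t + 4), OnD M f 0 →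
    ∃ g ∈ H s t, ∀ X Y : V2, f X Y = dl M X Y * g X Y) ∧
  (∀ s t : ℕ, (s < 4 ∨ t < 4) → ∀ f ∈ H s t, OnD M f 0 → f = 0)

def StLK : Prop := StInterp → StDiv → ∀ M : Mats, Cfg M → ∀ B : ℕ, 20 ∣ B + 8 →
  ∃ L K, LK M B L K

def StCocycle : Prop := ∀ (B : ℕ) (K : V2 → V2 → ℂ), K ∈ H (B + 10) (B + 4) →
  IsHoloCocycle (g1 B K)

/-- the extreme coefficients agree on the graphs -/
def StOnD : Prop := ∀ M B L K, Ctx M B L K → ∀ j s t a, MemM M B L j s t a → OnD M (a j) (a 0)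

def StMulE : Prop := ∀ M B L K, Ctx M B L K → ∀ j s t a, MemM M B L j s (t + (B + 4)) a →
  MemM M B L (j + 1) (s + 4) t (mulE M a)

def StMulF : Prop := ∀ M B L K, Ctx M B L K → ∀ j s t a, ∀ l : Fin 2, MemM M B L j s t a →
  MemM M B L (j + 1) (s + 3) t (mulF B L l a)

def StMulH : Prop := ∀ M B L K, Ctx M B L K → ∀ j s t a u w, ∀ b ∈ H u w, MemM M B L j s t a →
  MemM M B L j (s + u) (t + w) (fun i X Y => b X Y * a i X Y)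

def StMulUV : Prop := ∀ M B L K, Ctx M B L K → ∀ j s t a, MemM M B L j (s + B) (t + B) a →
  MemM M B L (j + 2) s t (mulUV M a) ∧
  ∀ α c, Loc M L j a α c → Loc M L (j + 2) (mulUV M a) α (uvc M L α j c)

/-- the kernel of `F ↦ (a₀, a_j)` is `δ²UV · S^{j-2}` (needs `StDiv`) -/
def StKer : Prop := ∀ M B L K, Ctx M B L K →
  (∀ j s t a, MemM M B L (j + 2) s t a → a 0 = 0 → a (j + 2) = 0 →
    ∃ b, MemM M B L j (s + B) (t + B) b ∧ a = mulUV M b)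

/-- simultaneous division by `X₀`, `X₁` -/
def StDivX : Prop := ∀ M B L K, Ctx M B L K → ∀ j s t a b,
  MemM M B L j (s + 1) t a → MemM M B L j (s + 1) t b →
  (∀ i (X Y : V2), X 1 * a i X Y = X 0 * b i X Y) →
  ∃ c, MemM M B L j s t c ∧ ∀ i (X Y : V2), a i X Y = X 0 * c i X Y ∧ b i X Y = X 1 * c i X Y

/-- `S¹` consists of the pairs that agree on the graphs (needs `StDiv`) -/
def StM1 : Prop := ∀ M B L K, Ctx M B L K → ∀ s t, ∀ a0 ∈ H (B + 8 + s) t, ∀ a1 ∈ H s (B + 8 + t),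
  OnD M a1 a0 → MemM M B L 1 s t (fun i => if i = 0 then a0 else if i = 1 then a1 else 0)

/-- lifting `(a₀,a_j)` -/
def Lift (M : Mats) (B : ℕ) (L : Fin 2 → V2 → V2 → ℂ) (j s t : ℕ) : Prop :=
  ∀ a0 ∈ H (j * (B + 8) + s) t, ∀ aj ∈ H s (j * (B + 8) + t), OnD M aj a0 →
    ∃ a, MemM M B L j s t a ∧ a 0 = a0 ∧ a j = aj

/-- Castelnuovo-type surjectivity in the `X`-direction -/
def Reg (M : Mats) (B : ℕ) (L : Fin 2 → V2 → V2 → ℂ) (j s t : ℕ) : Prop :=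
  ∀ a, MemM M B L j (s + 2) t a → ∃ b c, MemM M B L j (s + 1) t b ∧ MemM M B L j (s + 1) t c ∧
    ∀ i (X Y : V2), a i X Y = X 0 * b i X Y + X 1 * c i X Y

/-- lifting for large `s` (products of `f₀, f₁`, interpolation, and `e · (...)`) -/
def StBig : Prop := StInterp → StDiv → StMulE → StMulF → StMulH → StOnD →
  ∀ M B L K, Ctx M B L K → ∀ j, 1 ≤ j → ∃ S, ∀ s t, S ≤ s → 3 ≤ t → Lift M B L j s t

/-- the main double induction -/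
def StLR : Prop := StInterp → StDiv → StMulUV → StMulH → StOnD → StKer → StDivX → StM1 → StBig →
  StMulE → StMulF →
  ∀ M B L K, Ctx M B L K → ∀ j s t, 3 ≤ s → 3 ≤ t → (1 ≤ j → Lift M B L j s t) ∧ Reg M B L j s t

/-- global generation of `Sʲ E₀(s,t)`, `s,t ≥ 4` -/
def StGG : Prop := StInterp → StDiv → StMulUV →
  (∀ M B L K, Ctx M B L K → ∀ j s t, 1 ≤ j → 3 ≤ s → 3 ≤ t → Lift M B L j s t) →
  ∀ M B L K, Ctx M B L K → ∀ j s t, 4 ≤ s → 4 ≤ t → GG M B L j s t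

def secQ (j : ℕ) (c : Chart → ℕ → V2 → ℂ) (α : Chart) (p : V2) : MvPolynomial (Fin 2) ℂ :=
  ∑ i ∈ range (j + 1), MvPolynomial.C (c α i p) * MvPolynomial.X 0 ^ i * MvPolynomial.X 1 ^ (j - i)

/-- conversion to sections -/
def StConv : Prop := ∀ M B L K, Ctx M B L K → ∀ j s t a, MemM M B L j s t a →
  ∀ c : Chart → ℕ → V2 → ℂ, (∀ α, Loc M L j a α (c α)) →
  IsGST (g0 B K) j s t (secQ j c)

/-- pull-back by squares and ampleness -/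
def StAmple : Prop := StConv → ∀ M B L K, Ctx M B L K →
  (∀ j s t, 4 ≤ s → 4 ≤ t → GG M B L j s t) → IsAmple (g1 B K)

/-! ## Frames -/

def ph (M : Mats) (L : Fin 2 → V2 → V2 → ℂ) (α : Chart) (p : V2) : V2 :=
  ![res (dl M) α (sq p), res (L α.1) α (sq p)]

def pv : V2 := ![0, 1]

/-- `ph` (the functional `(A,B) ↦ A`) and `pv` (`(A,B) ↦ B`) in the frames; `n = 2B+17` -/
def StFrame : Prop := ∀ M B L K, Ctx M B L K →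
  (∀ α β, ∀ p ∈ overlap α β, (g1 B K α β p)ᵀ *ᵥ ph M L α p =
    lineTrans 1 (2 * (B : ℤ) + 17) α β p • ph M L β (tau α β p)) ∧
  (∀ α β, ∀ p ∈ overlap α β, (g1 B K α β p)ᵀ *ᵥ pv = lineTrans (2 * (B : ℤ) + 17) 1 α β p • pv) ∧
  (∀ α β, ∀ p ∈ overlap α β, (g1 B K α β p).det ≠ 0) ∧
  (∀ α p, ph M L α p ≠ 0) ∧
  (∀ (X Y : V2) i, M i *ᵥ sq X = sq Y → ∀ α : Chart, X (1 - α.1) ≠ 0 → Y (1 - α.2) ≠ 0 →
    (X (1 - α.1) * Y (1 - α.2) ^ (2 * B + 17)) •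
      ph M L α ![X α.1 / X (1 - α.1), Y α.2 / Y (1 - α.2)] =
    (X (1 - α.1) ^ (2 * B + 17) * Y (1 - α.2)) • pv) ∧
  (∀ α, Differentiable ℂ (ph M L α))

/-! ## Analysis tasks -/

/-- squared norm of the vector `v` (`hNormSq H α p v = hn (H α p) v` by `rfl`) -/
def hn (A : Matrix (Fin 2) (Fin 2) ℂ) (v : V2) : ℝ := (∑ i, ∑ j, A i j * v i * conj (v j)).re

/-- squared dual norm of the functional `v ↦ ∑ φᵢ vᵢ` -/
def dn (A : Matrix (Fin 2) (Fin 2) ℂ) (φ : V2) : ℝ := (∑ i, φ i * conj ((A⁻¹ *ᵥ φ) i)).re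

/-- dual norm package -/
structure DNorm : Prop where
  le : ∀ A : Matrix (Fin 2) (Fin 2) ℂ, A.PosDef → ∀ φ v : V2,
    ‖∑ i, φ i * v i‖ ^ 2 ≤ dn A φ * hn A v
  ex : ∀ A : Matrix (Fin 2) (Fin 2) ℂ, A.PosDef → ∀ φ : V2, φ ≠ 0 →
    0 < dn A φ ∧ ∃ v : V2, v ≠ 0 ∧ hn A v = dn A φ ∧ ∑ i, φ i * v i = (dn A φ : ℂ)
  hpos : ∀ A : Matrix (Fin 2) (Fin 2) ℂ, A.PosDef → ∀ v : V2, v ≠ 0 → 0 < hn A v
  smul : ∀ A : Matrix (Fin 2) (Fin 2) ℂ, ∀ (c : ℂ) (φ : V2), dn A (c • φ) = ‖c‖ ^ 2 * dn A φ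
  tri : ∀ A : Matrix (Fin 2) (Fin 2) ℂ, A.PosDef → ∀ φ ψ : V2,
    √(dn A (φ + ψ)) ≤ √(dn A φ) + √(dn A ψ)
  cong : ∀ A G : Matrix (Fin 2) (Fin 2) ℂ, A.PosDef → G.det ≠ 0 → ∀ φ : V2,
    dn (Gᵀ * A * G.map conj) (Gᵀ *ᵥ φ) = dn A φ
  cont : ∀ (T : Type) [TopologicalSpace T] (A : T → Matrix (Fin 2) (Fin 2) ℂ) (φ : T → V2),
    (∀ i j, Continuous (fun x => A x i j)) → (∀ x, (A x).PosDef) → Continuous φ →
    Continuous (fun x => dn (A x) (φ x))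

/-- no local maximum along a complex line (log-subharmonicity of the dual norm) -/
def StNLM : Prop := ∀ (g : Transition 2) (Hm : MetricData 2), IsHermitianMetric g Hm →
  IsGriffithsPositive Hm → ∀ (α : Chart) (p ξ : V2), ξ ≠ 0 → ∀ (φ : ℂ → V2) (G : ℂ → ℂ),
  (∀ᶠ w in 𝓝 (0 : ℂ), DifferentiableAt ℂ φ w) → (∀ᶠ w in 𝓝 (0 : ℂ), DifferentiableAt ℂ G w) →
  φ 0 ≠ 0 → G 0 ≠ 0 →
  ¬ IsLocalMax (fun w : ℂ => (dn (Hm α (p + w • ξ)) (φ w)) ^ 2 / ‖G w‖ ^ 2) 0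

/-- the family of dual norms along a horizontal or vertical line `ℙ¹` (two charts) -/
structure LineNorm (N : Fin 2 → ℂ → V2 → ℝ) : Prop where
  nonneg : ∀ a x φ, 0 ≤ N a x φ
  smul : ∀ a x (c : ℂ) φ, N a x (c • φ) = ‖c‖ ^ 2 * N a x φ
  tri : ∀ a x φ ψ, √(N a x (φ + ψ)) ≤ √(N a x φ) + √(N a x ψ)
  cont : ∀ a (φ : ℂ → V2), Continuous φ → Continuous (fun x => N a x (φ x))
  nlm : ∀ a x0 (φ : ℂ → V2) (G : ℂ → ℂ), (∀ᶠ x in 𝓝 x0, DifferentiableAt ℂ φ x) →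
    (∀ᶠ x in 𝓝 x0, DifferentiableAt ℂ G x) → φ x0 ≠ 0 → G x0 ≠ 0 →
    ¬ IsLocalMax (fun x => (N a x (φ x)) ^ 2 / ‖G x‖ ^ 2) x0

structure LineData (N : Fin 2 → ℂ → V2 → ℝ) (n : ℕ) (h v : Fin 2 → ℂ → V2) (Z : V2) (m : ℝ) :
    Prop where
  line : LineNorm N
  hdiff : ∀ a, Differentiable ℂ (h a)
  vdiff : ∀ a, Differentiable ℂ (v a)
  heven : ∀ a x, h a (-x) = h a x
  veven : ∀ a x, v a (-x) = v a x
  hne : ∀ a x, h a x ≠ 0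
  th : ∀ x, x ≠ 0 → N 0 x (h 0 x) = ‖x‖ ^ 2 * N 1 x⁻¹ (h 1 x⁻¹)
  tv : ∀ x, x ≠ 0 → N 0 x (v 0 x) = ‖x‖ ^ (2 * n) * N 1 x⁻¹ (v 1 x⁻¹)
  van : ∀ (a : Fin 2) (X : V2), X 0 ^ 2 = Z 0 ^ 2 → X 1 ^ 2 = Z 1 ^ 2 → X (1 - a) ≠ 0 →
    X (1 - a) • h a (X a / X (1 - a)) = X (1 - a) ^ n • v a (X a / X (1 - a))
  bh : ∀ a x, N a x (h a x) ≤ m * √(1 + ‖x‖ ^ 4)
  bv : ∀ a x, N a x (v a x) ≤ m * √(1 + ‖x‖ ^ 4) ^ n

/-- Schwarz lemma with two zeros; WLOG `|Z₁| ≤ |Z₀|` -/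
def StSchwarz : Prop := ∀ (θ : ℝ), θ < 1 → ∀ N n h v Z m, 0 < m → LineData N n h v Z m →
  Z 0 ≠ 0 → ‖Z 1‖ ≤ ‖Z 0‖ → ‖Z 0‖ ^ 4 + ‖Z 1‖ ^ 4 ≤ θ → ∀ w : ℂ, ‖Z 0‖ ^ 4 + ‖w‖ ^ 4 ≤ 1 →
  √(N 1 (w / Z 0) (Z 0 • h 1 (w / Z 0) - Z 0 ^ n • v 1 (w / Z 0))) ≤
    4 * √m / (1 - θ) * ‖w ^ 2 - Z 1 ^ 2‖

/-- the contraction lemma -/
def StContr : Prop := StSchwarz → ∀ (θ lam : ℝ), θ < 1 → 0 < lam → ∃ n0 : ℕ, ∀ n, n0 ≤ n →
  ∀ N h v Z m, 0 < m → LineData N n h v Z m → lam ≤ ‖Z 0‖ ^ 4 + ‖Z 1‖ ^ 4 →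
  ‖Z 0‖ ^ 4 + ‖Z 1‖ ^ 4 ≤ θ → ∀ a x, N a x (h a x) ≤ m / 2 * √(1 + ‖x‖ ^ 4)

/-- conclusion of `StContr` without its hypothesis, for use in the assembly -/
def Contr : Prop := ∀ (θ lam : ℝ), θ < 1 → 0 < lam → ∃ n0 : ℕ, ∀ n, n0 ≤ n →
  ∀ N h v Z m, 0 < m → LineData N n h v Z m → lam ≤ ‖Z 0‖ ^ 4 + ‖Z 1‖ ^ 4 →
  ‖Z 0‖ ^ 4 + ‖Z 1‖ ^ 4 ≤ θ → ∀ a x, N a x (h a x) ≤ m / 2 * √(1 + ‖x‖ ^ 4)

/-- assembly of the non-positivity -/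
def StNonpos : Prop := DNorm → StNLM → StFrame → Contr → ∀ M, Cfg M → Cover M → ∃ n0 : ℕ,
  ∀ B L K, n0 ≤ B → Ctx M B L K → ∀ Hm : MetricData 2, IsHermitianMetric (g1 B K) Hm →
    ¬ IsGriffithsPositive Hm

/-- the explicit configuration -/
def StCfg : Prop := ∃ M : Mats, Cfg M ∧ Cover M

end Crest.Agent.R258
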