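import Crest.Agent.R258.Lib

set_option autoImplicit false

noncomputable section

namespace Crest.Agent.R258

open Crest.AlgGeometry.QuadricBundle
open Matrix Finset
open scoped ComplexConjugate ComplexOrder Topology

namespace FRAME

theorem sq_mem {α β : Chart} {p : V2} (hp : p ∈ overlap α β) : sq p ∈ overlap α β := by
  refine ⟨fun h => pow_ne_zero _ (hp.1 h), fun h => pow_ne_zero _ (hp.2 h)⟩

theorem sq_tau (α β : Chart) (p : V2) : sq (tau α β p) = tau α β (sq p) := by
  funext l
  fin_cases l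
  · simp only [sq, tau, Fin.zero_eta, Matrix.cons_val_zero]
    split_ifs <;> simp
  · simp only [sq, tau, Fin.mk_one, Matrix.cons_val_one]
    split_ifs <;> simp

theorem lineTrans_ne (r t : ℤ) {α β : Chart} {p : V2} (hp : p ∈ overlap α β) :
    lineTrans r t α β p ≠ 0 := by
  unfold lineTrans
  refine mul_ne_zero ?_ ?_
  · split_ifs with h
    · exact one_ne_zero
    · exact zpow_ne_zero _ (hp.1 h)
  · split_ifs with h
    · exact one_ne_zero
    · exact zpow_ne_zero _ (hp.2 h)

theorem lineTrans_mul (r t r' t' : ℤ) {α β : Chart} {p : V2} (hp : p ∈ overlap α β) :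
    lineTrans r t α β p * lineTrans r' t' α β p = lineTrans (r + r') (t + t') α β p := by
  unfold lineTrans
  by_cases h : α.1 = β.1 <;> by_cases h' : α.2 = β.2
  · simp [h, h']
  · have := hp.2 h'
    simp [h, h', zpow_add₀ this]
  · have := hp.1 h
    simp [h, h', zpow_add₀ this]
  · have h1 := hp.1 h
    have h2 := hp.2 h'
    simp only [h, h', if_false, zpow_add₀ h1, zpow_add₀ h2]
    ring

theorem lineTrans_sq (r t : ℤ) (α β : Chart) (p : V2) :
    lineTrans r t α β (sq p) = lineTrans (2 * r) (2 * t) α β p := by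
  unfold lineTrans sq
  have key : ∀ (x : ℂ) (n : ℤ), (x ^ 2) ^ n = x ^ (2 * n) := by
    intro x n
    rw [_root_.zpow_mul]
    norm_cast
  simp only [key]

theorem lineTrans_cocycle (r t : ℤ) (α β γ : Chart) (p : V2) :
    lineTrans r t α β p * lineTrans r t β γ (tau α β p) = lineTrans r t α γ p ∨
      p ∉ overlap α β ∩ overlap α γ := by
  by_cases hp : p ∈ overlap α β ∩ overlap α γ
  · left
    rcases α with ⟨a, b⟩
    rcases β with ⟨a', b'⟩
    rcases γ with ⟨a'', b''⟩
    obtain ⟨⟨h1, h2⟩, ⟨h3, h4⟩⟩ := hp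
    simp only at h1 h2 h3 h4
    have e1 : (if a = a' then (1 : ℂ) else (p 0) ^ r) *
        (if a' = a'' then 1 else (if a = a' then p 0 else (p 0)⁻¹) ^ r) =
        if a = a'' then 1 else (p 0) ^ r := by
      by_cases h : a = a'
      · subst h; simp
      · have hx := h1 h
        by_cases h' : a' = a''
        · subst h'; simp [h]
        · have h'' : a = a'' := by omega
          subst h''
          simp only [h, h', if_false, if_true, _root_.inv_zpow]
          exact mul_inv_cancel₀ (zpow_ne_zero _ hx)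
    have e2 : (if b = b' then (1 : ℂ) else (p 1) ^ t) *
        (if b' = b'' then 1 else (if b = b' then p 1 else (p 1)⁻¹) ^ t) =
        if b = b'' then 1 else (p 1) ^ t := by
      by_cases h : b = b'
      · subst h; simp
      · have hx := h2 h
        by_cases h' : b' = b''
        · subst h'; simp [h]
        · have h'' : b = b'' := by omega
          subst h''
          simp only [h, h', if_false, if_true, _root_.inv_zpow]
          exact mul_inv_cancel₀ (zpow_ne_zero _ hx)
    simp only [lineTrans, tau, Matrix.cons_val_zero, Matrix.cons_val_one]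
    rw [← e1, ← e2]
    ring
  · exact Or.inr hp

theorem lineTrans_cocycle' (r t : ℤ) {α β γ : Chart} {p : V2}
    (hp : p ∈ overlap α β ∩ overlap α γ) :
    lineTrans r t α β p * lineTrans r t β γ (tau α β p) = lineTrans r t α γ p :=
  (lineTrans_cocycle r t α β γ p).resolve_right (fun h => h hp)

/-- the relation between `L_α`, `L_β` and `δ` -/
theorem L_trans {M : Mats} {B : ℕ} {L : Fin 2 → V2 → V2 → ℂ} {K : V2 → V2 → ℂ}
    (h : LK M B L K) {α β : Chart} {z : V2} (hz : z ∈ overlap α β) :
    kap K α β z * res (dl M) α z + lineTrans ((B : ℤ) + 8) 0 α β z * res (L α.1) α z =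
      lineTrans 0 ((B : ℤ) + 8) α β z * res (L β.1) β (tau α β z) := by
  rcases α with ⟨a, b⟩
  rcases β with ⟨a', b'⟩
  have ht := res_trans (h.hL a') (a, b) (a', b') z hz
  by_cases haa : a = a'
  · subst haa
    simp only [kap, lineTrans, if_true] at ht ⊢
    rw [ht]
    push_cast
    simp
  · have hx : z 0 ≠ 0 := hz.1 haa
    have heq := h.eq (cv a (z 0)) (cv b (z 1))
    have ht' : z 0 ^ (-3 : ℤ) * res (L a') (a, b) z =
        lineTrans 0 ((B : ℤ) + 8) (a, b) (a', b') z * res (L a') (a', b') (tau (a, b) (a', b') z) := by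
      rw [ht]
      simp only [lineTrans, haa, if_false]
      rw [← mul_assoc, ← mul_assoc, ← zpow_add₀ hx]
      push_cast
      simp
    simp only
    rw [← ht']
    have e8 : (z 0) ^ ((B : ℤ) + 8) = z 0 ^ (-3 : ℤ) * z 0 ^ (B + 11) := by
      rw [← zpow_natCast (z 0) (B + 11), ← zpow_add₀ hx]
      congr 1
      push_cast
      ring
    have hl : lineTrans ((B : ℤ) + 8) 0 (a, b) (a', b') z = z 0 ^ ((B : ℤ) + 8) := by
      simp [lineTrans, haa]
    rw [hl, e8]
    simp only [kap, haa, if_false]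
    have ha : a = 0 ∧ a' = 1 ∨ a = 1 ∧ a' = 0 := by omega
    rcases ha with ⟨rfl, rfl⟩ | ⟨rfl, rfl⟩
    · simp only [cv_zero_zero, cv_zero_one, one_pow, one_mul] at heq
      simp only [if_true]
      have : res (dl M) (0, b) z * res K (0, b) z =
        z 0 ^ (B + 11) * res (L 0) (0, b) z - res (L 1) (0, b) z := heq.symm
      linear_combination (-z 0 ^ (-3 : ℤ)) * this
    · simp only [cv_one_zero, cv_one_one, one_pow, one_mul] at heq
      have : res (dl M) (1, b) z * res K (1, b) z =
        res (L 0) (1, b) z - z 0 ^ (B + 11) * res (L 1) (1, b) z := heq.symm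
      simp only [one_ne_zero, if_false]
      linear_combination (z 0 ^ (-3 : ℤ)) * this

theorem dl_trans (M : Mats) (B : ℕ) {α β : Chart} {z : V2} (hz : z ∈ overlap α β) :
    lineTrans (-4) ((B : ℤ) + 4) α β z * res (dl M) α z =
      lineTrans 0 ((B : ℤ) + 8) α β z * res (dl M) β (tau α β z) := by
  rw [res_trans (dl_mem M) α β z hz, ← mul_assoc, lineTrans_mul _ _ _ _ hz]
  congr 2

theorem twist (B : ℕ) {α β : Chart} {p : V2} (hp : p ∈ overlap α β) :
    lineTrans 1 1 α β p * lineTrans 0 ((B : ℤ) + 8) α β (sq p) =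
      lineTrans 1 (2 * (B : ℤ) + 17) α β p := by
  rw [lineTrans_sq, lineTrans_mul _ _ _ _ hp]
  congr 1
  ring

theorem twist' (B : ℕ) {α β : Chart} {p : V2} (hp : p ∈ overlap α β) :
    lineTrans 1 1 α β p * lineTrans ((B : ℤ) + 8) 0 α β (sq p) =
      lineTrans (2 * (B : ℤ) + 17) 1 α β p := by
  rw [lineTrans_sq, lineTrans_mul _ _ _ _ hp]
  congr 1
  ring

theorem sq_diff : Differentiable ℂ sq := by
  rw [differentiable_pi]
  intro i
  show Differentiable ℂ (fun p : V2 => p i ^ 2)
  fun_prop

theorem graph_dl {M : Mats} {i : Fin 4} {X Y : V2} (h : M i *ᵥ sq X = sq Y) (a b : Fin 2)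
    (hX : X (1 - a) ≠ 0) (hY : Y (1 - b) ≠ 0) :
    res (dl M) (a, b) (sq ![X a / X (1 - a), Y b / Y (1 - b)]) = 0 := by
  have hX2 : sq X (1 - a) ≠ 0 := pow_ne_zero _ hX
  have hY2 : sq Y (1 - b) ≠ 0 := pow_ne_zero _ hY
  have h0 : dl M (sq X) (sq Y) = 0 := by
    rw [← h]; exact dl_graph M i _
  rw [eq_res (dl_mem M) a b _ _ hX2 hY2] at h0
  have h1 := (mul_eq_zero.1 h0).resolve_left
    (mul_ne_zero (pow_ne_zero _ hX2) (pow_ne_zero _ hY2))
  rw [← h1]
  congr 1
  funext l
  fin_cases l <;> simp [sq, div_pow]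

theorem sq_vec (X Y : V2) (a b : Fin 2) :
    sq ![X a / X (1 - a), Y b / Y (1 - b)] =
      ![sq X a / sq X (1 - a), sq Y b / sq Y (1 - b)] := by
  funext l
  fin_cases l <;> simp [sq, div_pow]

end FRAME

open FRAME in
theorem frame : StFrame := by
  intro M B L K hC
  refine ⟨?_, ?_, ?_, ?_, ?_, ?_⟩
  · intro α β p hp
    have hz := sq_mem hp
    have h0 := dl_trans M B hz
    have h1 := L_trans hC.lk hz
    have ht := twist B hp
    rw [← ht]
    funext l
    fin_cases l
    · simp only [g1, g0, ph, Matrix.transpose_smul, Matrix.smul_mulVec, Pi.smul_apply, smul_eq_mul,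
        sq_tau, Fin.zero_eta, Matrix.cons_val_zero]
      simp [Matrix.mulVec, dotProduct, Fin.sum_univ_two]
      rw [h0]
      ring
    · simp only [g1, g0, ph, Matrix.transpose_smul, Matrix.smul_mulVec, Pi.smul_apply, smul_eq_mul,
        sq_tau, Fin.mk_one, Matrix.cons_val_one]
      simp [Matrix.mulVec, dotProduct, Fin.sum_univ_two]
      rw [h1]
      ring
  · intro α β p hp
    have ht := twist' B hp
    rw [← ht]
    funext l
    fin_cases l
    · simp [g1, g0, pv, Matrix.mulVec, dotProduct, Fin.sum_univ_two]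
    · simp [g1, g0, pv, Matrix.mulVec, dotProduct, Fin.sum_univ_two]
  · intro α β p hp
    have hz := sq_mem hp
    have := lineTrans_ne 1 1 hp
    have h1 := lineTrans_ne (-4) ((B : ℤ) + 4) hz
    have h2 := lineTrans_ne ((B : ℤ) + 8) 0 hz
    simp only [g1, g0, Matrix.det_smul, Matrix.det_fin_two_of]
    simp [this, h1, h2]
  · intro α p h
    have h0 : res (dl M) α (sq p) = 0 := by simpa [ph] using congrFun h 0
    have h1 : res (L α.1) α (sq p) = 0 := by simpa [ph] using congrFun h 1
    exact hC.lk.ne_of_dl hC.cfg α (sq p) h0 h1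
  · intro X Y i hi α hX hY
    rcases α with ⟨a, b⟩
    have h0 := graph_dl hi a b hX hY
    have hX2 : sq X (1 - a) ≠ 0 := pow_ne_zero _ hX
    have hY2 : (M i *ᵥ sq X) (1 - b) ≠ 0 := by rw [hi]; exact pow_ne_zero _ hY
    have h1 := hC.lk.res_graph a b i (sq X) hX2 hY2
    rw [hi, ← sq_vec] at h1
    simp only at hX hY
    funext l
    fin_cases l
    · simp [ph, pv, h0]
    · simp only [ph, pv, Pi.smul_apply, smul_eq_mul, Fin.mk_one, Matrix.cons_val_one,
        Matrix.cons_val_fin_one]
      have h2 : res (L a) (a, b) (sq ![X a / X (1 - a), Y b / Y (1 - b)]) *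
          (Y (1 - b) ^ 2) ^ (B + 8) = (X (1 - a) ^ 2) ^ (B + 8) := h1
      have e1 : Y (1 - b) ^ (2 * B + 17) = Y (1 - b) * (Y (1 - b) ^ 2) ^ (B + 8) := by
        rw [← pow_mul, ← pow_succ']; congr 1
      have e2 : X (1 - a) ^ (2 * B + 17) = X (1 - a) * (X (1 - a) ^ 2) ^ (B + 8) := by
        rw [← pow_mul, ← pow_succ']; congr 1
      rw [e1, e2]
      linear_combination (X (1 - a) * Y (1 - b)) * h2
  · intro α
    rw [differentiable_pi]
    intro l
    fin_cases l
    · exact (res_diff (dl_mem M) α).comp sq_diff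
    · exact (res_diff (hC.lk.hL _) α).comp sq_diff

end Crest.Agent.R258
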