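import Crest.Agent.R258.Lib

/-! GGT: global generation of `Sʲ E₀(s,t)` -/

set_option autoImplicit false

noncomputable section

namespace Crest.Agent.R258.GGT

open Crest.AlgGeometry.QuadricBundle
open Matrix Finset
open scoped ComplexConjugate ComplexOrder Topology

variable {M : Mats} {B : ℕ} {L : Fin 2 → V2 → V2 → ℂ} {K : V2 → V2 → ℂ}

theorem loc_zero {j : ℕ} {a : ℕ → V2 → V2 → ℂ} {α : Chart} {c : ℕ → V2 → ℂ}
    (h : Loc M L j a α c) (p : V2) : c 0 p = res (a 0) α p := by
  have h1 := h.2 p 0 1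
  rw [Finset.sum_range_succ', Finset.sum_range_succ'] at h1
  simp at h1
  exact h1.symm

theorem loc_top {j : ℕ} {a : ℕ → V2 → V2 → ℂ} {α : Chart} {c : ℕ → V2 → ℂ}
    (h : Loc M L j a α c) (p : V2) : res (a j) α p =
      ∑ i ∈ range (j + 1), c i p * res (dl M) α p ^ i * res (L α.1) α p ^ (j - i) := by
  have h1 := h.2 p 1 0
  simp only [one_pow, mul_one, zero_add] at h1
  rw [← h1, Finset.sum_range_succ]
  have h2 : ∑ i ∈ range j, res (a i) α p * (0 : ℂ) ^ (j - i) = 0 := by
    refine Finset.sum_eq_zero fun i hi => ?_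
    have : j - i ≠ 0 := by have := Finset.mem_range.1 hi; omega
    rw [zero_pow this, mul_zero]
  rw [h2]
  simp

theorem res_mono (α : Chart) (p : V2) (s t : ℕ) :
    res (fun X Y : V2 => X (1 - α.1) ^ s * Y (1 - α.2) ^ t) α p = 1 := by
  show (cv α.1 (p 0)) (1 - α.1) ^ s * (cv α.2 (p 1)) (1 - α.2) ^ t = 1
  rw [cv_other, cv_other]
  simp

/-- algebra: division, `δ ≠ 0` -/
theorem alg_ne {d l : ℂ} (hd : d ≠ 0) (k : ℕ) (r : ℕ → ℂ) (h0 : r 0 = 0)
    (hs : ∑ i ∈ range (k + 2 + 1), r i * d ^ i * l ^ (k + 2 - i) = 0) :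
    ∃ S : ℕ → ℂ, ∀ i ≤ k + 2, r i = (if 1 ≤ i ∧ i ≤ k + 1 then d * S (i - 1) else 0) -
      (if 2 ≤ i then l * S (i - 2) else 0) := by
  let S : ℕ → ℂ := fun n => Nat.rec (r 1 / d) (fun n s => (r (n + 2) + l * s) / d) n
  have hS0 : d * S 0 = r 1 := by
    show d * (r 1 / d) = r 1
    field_simp
  have hS1 : ∀ n, d * S (n + 1) = r (n + 2) + l * S n := by
    intro n
    show d * ((r (n + 2) + l * S n) / d) = _
    field_simp
  have hP : ∀ n, ∑ i ∈ range (n + 2), r i * d ^ i * l ^ (n + 1 - i) = d ^ (n + 2) * S n := by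
    intro n
    induction n with
    | zero =>
      rw [Finset.sum_range_succ, Finset.sum_range_succ, Finset.sum_range_zero, h0]
      simp only [zero_add, Nat.sub_self, pow_zero, mul_one, zero_mul, pow_one]
      rw [← hS0]
      ring
    | succ n ih =>
      rw [Finset.sum_range_succ]
      have e : ∑ i ∈ range (n + 2), r i * d ^ i * l ^ (n + 1 + 1 - i) =
          l * ∑ i ∈ range (n + 2), r i * d ^ i * l ^ (n + 1 - i) := by
        rw [Finset.mul_sum]
        refine Finset.sum_congr rfl fun i hi => ?_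
        have : n + 1 + 1 - i = (n + 1 - i) + 1 := by have := Finset.mem_range.1 hi; omega
        rw [this, pow_succ]
        ring
      rw [show n + 1 + 1 = n + 2 by ring] at e ⊢
      rw [e, ih, Nat.sub_self, pow_zero, mul_one]
      have := hS1 n
      calc l * (d ^ (n + 2) * S n) + r (n + 2) * d ^ (n + 2)
          = d ^ (n + 2) * (r (n + 2) + l * S n) := by ring
        _ = d ^ (n + 2) * (d * S (n + 1)) := by rw [this]
        _ = _ := by ring
  have hlast : r (k + 2) = - (l * S k) := by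
    rw [Finset.sum_range_succ] at hs
    have e : ∑ i ∈ range (k + 2), r i * d ^ i * l ^ (k + 2 - i) =
        l * ∑ i ∈ range (k + 2), r i * d ^ i * l ^ (k + 1 - i) := by
      rw [Finset.mul_sum]
      refine Finset.sum_congr rfl fun i hi => ?_
      have : k + 2 - i = (k + 1 - i) + 1 := by have := Finset.mem_range.1 hi; omega
      rw [this, pow_succ]
      ring
    rw [e, hP k, Nat.sub_self, pow_zero, mul_one] at hs
    have h3 : d ^ (k + 2) * (l * S k + r (k + 2)) = 0 := by linear_combination hs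
    have h4 := (mul_eq_zero.1 h3).resolve_left (pow_ne_zero _ hd)
    linear_combination h4
  refine ⟨S, fun i hi => ?_⟩
  rcases i with _ | _ | i
  · simp [h0]
  · simp [hS0]
  · have h2 : 2 ≤ i + 1 + 1 := by omega
    rw [if_pos h2]
    by_cases hlt : i + 1 + 1 ≤ k + 1
    · rw [if_pos ⟨by omega, hlt⟩]
      have := hS1 i
      have e1 : i + 1 + 1 - 1 = i + 1 := by omega
      have e2 : i + 1 + 1 - 2 = i := by omega
      rw [e1, e2, this]
      ring
    · have e : i = k := by omega
      subst e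
      rw [if_neg (by omega)]
      have e2 : i + 1 + 1 - 2 = i := by omega
      rw [e2, hlast]
      ring

theorem alg_zero {l : ℂ} (hl : l ≠ 0) (k : ℕ) (r : ℕ → ℂ) (h0 : r 0 = 0) (h1 : r 1 = 0) :
    ∃ S : ℕ → ℂ, ∀ i ≤ k + 2, r i = (if 1 ≤ i ∧ i ≤ k + 1 then 0 * S (i - 1) else 0) -
      (if 2 ≤ i then l * S (i - 2) else 0) := by
  refine ⟨fun n => - r (n + 2) / l, fun i hi => ?_⟩
  rcases i with _ | _ | i
  · simp [h0]
  · simp [h1]
  · have h2 : 2 ≤ i + 1 + 1 := by omega
    rw [if_pos h2]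
    have e2 : i + 1 + 1 - 2 = i := by omega
    rw [e2]
    simp only [zero_mul, ite_self, zero_sub]
    field_simp

/-- an extension of `a₀` to the other extreme coefficient -/
theorem exists_top (hI : StInterp) (hc : Ctx M B L K) {j s t : ℕ} (hs : 3 ≤ s) (ht : 3 ≤ t)
    {a0 : V2 → V2 → ℂ} (h0 : a0 ∈ H (j * (B + 8) + s) t) :
    ∃ aj ∈ H s (j * (B + 8) + t), OnD M aj a0 := by
  have hcomp : Compat M (j * (B + 8) + t) (fun i X => a0 X (M i *ᵥ X)) := by
    intro i k hik X hX μ hμ
    show a0 X (M i *ᵥ X) = μ ^ (j * (B + 8) + t) * a0 X (M k *ᵥ X)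
    rw [hμ, H_homY h0, pow_add]
    obtain ⟨q, hq⟩ := hc.dvd
    have h20 := hc.cfg.root i k hik X hX μ hμ
    have : μ ^ (j * (B + 8)) = 1 := by
      rw [hq, show j * (20 * q) = 20 * (j * q) by ring, pow_mul, h20, one_pow]
    rw [this, one_mul]
  obtain ⟨f, hf, hf2⟩ := hI M hc.cfg s (j * (B + 8) + t) hs (by omega)
    (fun i X => a0 X (M i *ᵥ X)) (fun i => Bn_cast (H_graph h0 (M i)) (by omega)) hcomp
  exact ⟨f, hf, fun i X => hf2 i X⟩

/-- first step -/
theorem first (hI : StInterp)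
    (hL : ∀ j s t, 1 ≤ j → 3 ≤ s → 3 ≤ t → Lift M B L j s t) (hc : Ctx M B L K)
    {j s t : ℕ} (hj : 1 ≤ j) (hs : 4 ≤ s) (ht : 4 ≤ t) (α : Chart) (p : V2) (R : ℕ → ℂ) :
    ∃ a c, MemM M B L j s t a ∧ Loc M L j a α c ∧ c 0 p = R 0 ∧
      (res (dl M) α p ≠ 0 → ∑ i ∈ range (j + 1), (R i - c i p) * res (dl M) α p ^ i *
        res (L α.1) α p ^ (j - i) = 0) ∧
      (res (dl M) α p = 0 → c 1 p = R 1) := by
  by_cases hd : res (dl M) α p = 0
  · -- on the graphs
    have hLne : res (L α.1) α p ≠ 0 := LK.ne_of_dl hc.cfg hc.lk α p hd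
    -- a section with the right c 0
    have h0 : (R 0 • fun X Y : V2 => X (1 - α.1) ^ (j * (B + 8) + s) * Y (1 - α.2) ^ t) ∈
        H (j * (B + 8) + s) t := Submodule.smul_mem _ _ (H_XY _ _ _ _)
    obtain ⟨aj, haj, hon⟩ := exists_top hI hc (by omega) (by omega) h0
    obtain ⟨a, ha, ha0, -⟩ := hL j s t hj (by omega) (by omega) _ h0 _ haj hon
    obtain ⟨c, hcl⟩ := ha.loc α
    have hc0 : c 0 p = R 0 := by
      rw [loc_zero hcl, ha0, res_smul, res_mono, mul_one]
    -- correction
    set T : ℂ := (R 1 - c 1 p) * res (L α.1) α p ^ (j - 1) with hT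
    have h1 : (T • fun X Y : V2 => X (1 - α.1) ^ (s - 4) * Y (1 - α.2) ^ (j * (B + 8) + t - 4)) ∈
        H (s - 4) (j * (B + 8) + t - 4) := Submodule.smul_mem _ _ (H_XY _ _ _ _)
    set b : V2 → V2 → ℂ := (T • fun X Y : V2 => X (1 - α.1) ^ (s - 4) *
      Y (1 - α.2) ^ (j * (B + 8) + t - 4)) with hb
    have h2 : (fun X Y => dl M X Y * b X Y) ∈ H s (j * (B + 8) + t) :=
      H_cast (dl_mul h1) (by omega) (by omega)
    obtain ⟨a', ha', ha'0, ha'j⟩ := hL j s t hj (by omega) (by omega) 0 (Submodule.zero_mem _) _ h2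
      (fun i X => by
        show dl M X (M i *ᵥ X) * b X (M i *ᵥ X) = 0
        rw [dl_graph, zero_mul])
    obtain ⟨c', hcl'⟩ := ha'.loc α
    have hc'0 : ∀ q, c' 0 q = 0 := fun q => by rw [loc_zero hcl', ha'0, res_zero]
    have hdiffb : Differentiable ℂ (res b α) := res_diff h1 α
    have hdd : Differentiable ℂ (res (dl M) α) := res_diff (dl_mem M) α
    have hLd : Differentiable ℂ (res (L α.1) α) := res_diff (hc.lk.hL α.1) α
    have key := eq_of_dense (f := res b α)
      (g := fun q => ∑ i ∈ range j, c' (i + 1) q * res (dl M) α q ^ i *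
        res (L α.1) α q ^ (j - 1 - i)) (h := res (dl M) α) hdiffb
      (by
        refine Differentiable.fun_sum fun i _ => ?_
        exact ((hcl'.1 (i + 1)).mul (hdd.pow _)).mul (hLd.pow _))
      (dense_dl hc.cfg α)
      (by
        intro q hq
        have h3 := loc_top hcl' q
        rw [ha'j, res_mul, Finset.sum_range_succ', hc'0] at h3
        apply mul_left_cancel₀ hq
        rw [h3, Finset.mul_sum]
        simp only [zero_mul, add_zero]
        refine Finset.sum_congr rfl fun i hi => ?_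
        have : j - (i + 1) = j - 1 - i := by omega
        rw [this]
        ring) p
    have hkey : res b α p = c' 1 p * res (L α.1) α p ^ (j - 1) := by
      rw [key]
      obtain ⟨j', rfl⟩ : ∃ j', j = j' + 1 := ⟨j - 1, by omega⟩
      rw [Finset.sum_range_succ', hd]
      have : ∑ x ∈ range j', c' (x + 1 + 1) p * (0 : ℂ) ^ (x + 1) *
          res (L α.1) α p ^ (j' + 1 - 1 - (x + 1)) = 0 := by
        refine Finset.sum_eq_zero fun i hi => ?_
        rw [zero_pow (by omega)]; ring
      rw [this]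
      simp
    have hc'1 : c' 1 p = R 1 - c 1 p := by
      rw [hb, res_smul, res_mono, mul_one, hT] at hkey
      exact (mul_right_cancel₀ (pow_ne_zero _ hLne) hkey).symm
    refine ⟨a + a', c + c', ha.add ha', hcl.add hcl', ?_, fun h => absurd hd h, fun _ => ?_⟩
    · simp [hc0, hc'0]
    · simp [hc'1]
  · set d := res (dl M) α p with hddef
    set l := res (L α.1) α p with hl
    set T : ℂ := ∑ i ∈ range (j + 1), R i * d ^ i * l ^ (j - i) with hT
    have h0 : ((R 0 / d) • fun X Y : V2 => X (1 - α.1) ^ (j * (B + 8) + s - 4) *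
        Y (1 - α.2) ^ (t - 4)) ∈ H (j * (B + 8) + s - 4) (t - 4) :=
      Submodule.smul_mem _ _ (H_XY _ _ _ _)
    have h1 : ((T / d) • fun X Y : V2 => X (1 - α.1) ^ (s - 4) *
        Y (1 - α.2) ^ (j * (B + 8) + t - 4)) ∈ H (s - 4) (j * (B + 8) + t - 4) :=
      Submodule.smul_mem _ _ (H_XY _ _ _ _)
    have h0' := H_cast (dl_mul (M := M) h0) (s' := j * (B + 8) + s) (t' := t) (by omega) (by omega)
    have h1' := H_cast (dl_mul (M := M) h1) (s' := s) (t' := j * (B + 8) + t) (by omega) (by omega)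
    obtain ⟨a, ha, ha0, haj⟩ := hL j s t hj (by omega) (by omega) _ h0' _ h1'
      (fun i X => by
        show dl M X (M i *ᵥ X) * _ = dl M X (M i *ᵥ X) * _
        rw [dl_graph, zero_mul, zero_mul])
    obtain ⟨c, hcl⟩ := ha.loc α
    refine ⟨a, c, ha, hcl, ?_, fun _ => ?_, fun h => absurd h hd⟩
    · rw [loc_zero hcl, ha0, res_mul, res_smul, res_mono, ← hddef]
      field_simp
    · have h3 := loc_top hcl p
      rw [haj, res_mul, res_smul, res_mono, ← hddef, ← hl] at h3
      have h4 : T = ∑ i ∈ range (j + 1), c i p * d ^ i * l ^ (j - i) := by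
        rw [← h3]; field_simp
      simp only [sub_mul, Finset.sum_sub_distrib]
      rw [← hT, h4, sub_self]

theorem gg_main (hI : StInterp) (hUV : StMulUV)
    (hL : ∀ j s t, 1 ≤ j → 3 ≤ s → 3 ≤ t → Lift M B L j s t) (hc : Ctx M B L K) :
    ∀ j, (∀ s t, 4 ≤ s → 4 ≤ t → GG M B L j s t) ∧
      (∀ s t, 4 ≤ s → 4 ≤ t → GG M B L (j + 1) s t) := by
  intro j
  induction j with
  | zero =>
    refine ⟨fun s t _ _ α p R => ?_, fun s t hs ht α p R => ?_⟩
    · have h0 : (R 0 • fun X Y : V2 => X (1 - α.1) ^ s * Y (1 - α.2) ^ t) ∈ H s t :=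
        Submodule.smul_mem _ _ (H_XY _ _ _ _)
      have hm := memM_zero (M := M) (B := B) (L := L) h0
      obtain ⟨c, hcl⟩ := hm.loc α
      refine ⟨_, c, hm, hcl, fun i hi => ?_⟩
      have : i = 0 := by omega
      subst this
      rw [loc_zero hcl]
      simp only [if_true]
      rw [res_smul, res_mono, mul_one]
    · obtain ⟨a, c, ha, hcl, h0, h1, h2⟩ := first hI hL hc (j := 1) le_rfl hs ht α p R
      refine ⟨a, c, ha, hcl, fun i hi => ?_⟩
      rcases i with _ | _ | i
      · exact h0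
      · by_cases hd : res (dl M) α p = 0
        · exact h2 hd
        · have h3 := h1 hd
          rw [Finset.sum_range_succ, Finset.sum_range_succ, Finset.sum_range_zero, h0] at h3
          simp only [sub_self, zero_mul, zero_add, pow_one, pow_zero, mul_one, Nat.sub_self] at h3
          have := (mul_eq_zero.1 h3).resolve_right hd
          exact (sub_eq_zero.1 this).symm
      · omega
  | succ j ih =>
    refine ⟨ih.2, fun s t hs ht α p R => ?_⟩
    obtain ⟨a, c, ha, hcl, h0, h1, h2⟩ := first hI hL hc (j := j + 1 + 1) (by omega) hs ht α p R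
    obtain ⟨S, hS⟩ : ∃ S : ℕ → ℂ, ∀ i ≤ j + 2, R i - c i p =
        (if 1 ≤ i ∧ i ≤ j + 1 then res (dl M) α p * S (i - 1) else 0) -
          (if 2 ≤ i then res (L α.1) α p * S (i - 2) else 0) := by
      by_cases hd : res (dl M) α p = 0
      · obtain ⟨S, hS⟩ := alg_zero (LK.ne_of_dl hc.cfg hc.lk α p hd) j (fun i => R i - c i p)
          (by simp [h0]) (by simp [h2 hd])
        refine ⟨S, ?_⟩
        rw [hd]
        exact hS
      · exact alg_ne hd j (fun i => R i - c i p) (by simp [h0]) (h1 hd)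
    obtain ⟨b, d, hb, hbl, hbd⟩ := ih.1 (s + B) (t + B) (by omega) (by omega) α p S
    obtain ⟨hm, hl⟩ := hUV M B L K hc j s t b hb
    refine ⟨a + mulUV M b, c + uvc M L α j d, ha.add hm, hcl.add (hl α d hbl), fun i hi => ?_⟩
    have h5 := hS i hi
    show c i p + uvc M L α j d i p = R i
    have h6 : uvc M L α j d i p = R i - c i p := by
      rw [h5]
      unfold uvc
      congr 1
      · split_ifs with hh
        · rw [hbd _ (by omega)]
        · rfl
      · split_ifs with hh
        · rw [hbd _ (by omega)]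
        · rfl
    rw [h6]
    ring

end Crest.Agent.R258.GGT

theorem Crest.Agent.R258.gg : Crest.Agent.R258.StGG := by
  intro hI _ hUV hL M B L K hc j s t hs ht
  exact (Crest.Agent.R258.GGT.gg_main hI hUV (hL M B L K hc) hc j).1 s t hs ht
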