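import Crest.Agent.R258.Defs

/-! Row 258, task INTERP: interpolation on the four graphs. -/

set_option autoImplicit false

noncomputable section

namespace Crest.Agent.R258
namespace INTERP

open Matrix Finset

theorem Bn_mon (a a' : ℕ) : (fun X : V2 => X 0 ^ a * X 1 ^ a') ∈ Bn (a + a') :=
  Submodule.subset_span ⟨a, a', rfl, rfl⟩

theorem Bn_mul {m n : ℕ} {f g : V2 → ℂ} (hf : f ∈ Bn m) (hg : g ∈ Bn n) :
    (fun X => f X * g X) ∈ Bn (m + n) := by
  refine Submodule.span_induction (p := fun f _ => (fun X => f X * g X) ∈ Bn (m + n))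
    ?_ ?_ ?_ ?_ hf
  · rintro _ ⟨a, a', h, rfl⟩
    refine Submodule.span_induction
      (p := fun g _ => (fun X : V2 => (X 0 ^ a * X 1 ^ a') * g X) ∈ Bn (m + n)) ?_ ?_ ?_ ?_ hg
    · rintro _ ⟨b, b', h', rfl⟩
      exact Submodule.subset_span ⟨a + b, a' + b', by omega, by funext X; ring⟩
    · convert (Bn (m + n)).zero_mem using 1; funext X; simp
    · intro x y _ _ hx hy
      convert (Bn (m + n)).add_mem hx hy using 1; funext X; simp [mul_add]
    · intro c x _ hx
      convert (Bn (m + n)).smul_mem c hx using 1; funext X; simp; ring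
  · convert (Bn (m + n)).zero_mem using 1; funext X; simp
  · intro x y _ _ hx hy
    convert (Bn (m + n)).add_mem hx hy using 1; funext X; simp [add_mul]
  · intro c x _ hx
    convert (Bn (m + n)).smul_mem c hx using 1; funext X; simp; ring

theorem H_mul {s t s' t' : ℕ} {f g : V2 → V2 → ℂ} (hf : f ∈ H s t) (hg : g ∈ H s' t') :
    (fun X Y => f X Y * g X Y) ∈ H (s + s') (t + t') := by
  refine Submodule.span_induction (p := fun f _ => (fun X Y => f X Y * g X Y) ∈ H (s + s') (t + t'))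
    ?_ ?_ ?_ ?_ hf
  · rintro _ ⟨a, a', b, b', h1, h2, rfl⟩
    refine Submodule.span_induction
      (p := fun g _ => (fun X Y : V2 => (X 0 ^ a * X 1 ^ a' * (Y 0 ^ b * Y 1 ^ b')) * g X Y) ∈
        H (s + s') (t + t')) ?_ ?_ ?_ ?_ hg
    · rintro _ ⟨c, c', d, d', h3, h4, rfl⟩
      exact Submodule.subset_span ⟨a + c, a' + c', b + d, b' + d', by omega, by omega,
        by funext X Y; ring⟩
    · convert (H (s + s') (t + t')).zero_mem using 1; funext X Y; simp
    · intro x y _ _ hx hy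
      convert (H (s + s') (t + t')).add_mem hx hy using 1; funext X Y; simp [mul_add]
    · intro c x _ hx
      convert (H (s + s') (t + t')).smul_mem c hx using 1; funext X Y; simp; ring
  · convert (H (s + s') (t + t')).zero_mem using 1; funext X Y; simp
  · intro x y _ _ hx hy
    convert (H (s + s') (t + t')).add_mem hx hy using 1; funext X Y; simp [add_mul]
  · intro c x _ hx
    convert (H (s + s') (t + t')).smul_mem c hx using 1; funext X Y; simp; ring

theorem Bn_one : (fun _ : V2 => (1 : ℂ)) ∈ Bn 0 :=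
  Submodule.subset_span ⟨0, 0, rfl, by funext X; simp⟩

theorem Bn_pow {m : ℕ} {f : V2 → ℂ} (hf : f ∈ Bn m) (k : ℕ) :
    (fun X => f X ^ k) ∈ Bn (k * m) := by
  induction k with
  | zero => simpa using Bn_one
  | succ k ih =>
    have := Bn_mul ih hf
    rw [show (k + 1) * m = k * m + m by ring]
    simpa [pow_succ] using this

theorem Bn_lin (c d : ℂ) : (fun X : V2 => c * X 0 + d * X 1) ∈ Bn 1 := by
  have h0 : (fun X : V2 => X 0) ∈ Bn 1 :=
    Submodule.subset_span ⟨1, 0, rfl, by funext X; simp⟩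
  have h1 : (fun X : V2 => X 1) ∈ Bn 1 :=
    Submodule.subset_span ⟨0, 1, rfl, by funext X; simp⟩
  exact (Bn 1).add_mem ((Bn 1).smul_mem c h0) ((Bn 1).smul_mem d h1)

theorem Bn_coord (i : Fin 2) : (fun X : V2 => X i) ∈ Bn 1 := by
  fin_cases i
  · simpa using Bn_lin 1 0
  · simpa using Bn_lin 0 1

theorem mv0 (A : Matrix (Fin 2) (Fin 2) ℂ) (X : V2) : (A *ᵥ X) 0 = A 0 0 * X 0 + A 0 1 * X 1 := by
  simp [Matrix.mulVec, dotProduct, Fin.sum_univ_two]

theorem mv1 (A : Matrix (Fin 2) (Fin 2) ℂ) (X : V2) : (A *ᵥ X) 1 = A 1 0 * X 0 + A 1 1 * X 1 := by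
  simp [Matrix.mulVec, dotProduct, Fin.sum_univ_two]

theorem Bn_comp {n : ℕ} {f : V2 → ℂ} (hf : f ∈ Bn n) (A : Matrix (Fin 2) (Fin 2) ℂ) :
    (fun X => f (A *ᵥ X)) ∈ Bn n := by
  refine Submodule.span_induction (p := fun f _ => (fun X => f (A *ᵥ X)) ∈ Bn n)
    ?_ ?_ ?_ ?_ hf
  · rintro _ ⟨a, a', h, rfl⟩
    have h0 := Bn_pow (Bn_lin (A 0 0) (A 0 1)) a
    have h1 := Bn_pow (Bn_lin (A 1 0) (A 1 1)) a'
    have := Bn_mul h0 h1
    rw [show a * 1 + a' * 1 = n by omega] at this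
    convert this using 1
    funext X
    simp only [mv0, mv1]
  · exact (Bn n).zero_mem
  · intro x y _ _ hx hy
    exact (Bn n).add_mem hx hy
  · intro c x _ hx
    exact (Bn n).smul_mem c hx

theorem H_of_Bn {s t : ℕ} {p q : V2 → ℂ} (hp : p ∈ Bn s) (hq : q ∈ Bn t) :
    (fun X Y => p X * q Y) ∈ H s t := by
  refine Submodule.span_induction (p := fun p _ => (fun X Y => p X * q Y) ∈ H s t)
    ?_ ?_ ?_ ?_ hp
  · rintro _ ⟨a, a', h, rfl⟩
    refine Submodule.span_induction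
      (p := fun q _ => (fun X Y : V2 => (X 0 ^ a * X 1 ^ a') * q Y) ∈ H s t) ?_ ?_ ?_ ?_ hq
    · rintro _ ⟨b, b', h', rfl⟩
      exact Submodule.subset_span ⟨a, a', b, b', h, h', rfl⟩
    · convert (H s t).zero_mem using 1; funext X Y; simp
    · intro x y _ _ hx hy
      convert (H s t).add_mem hx hy using 1; funext X Y; simp [mul_add]
    · intro c x _ hx
      convert (H s t).smul_mem c hx using 1; funext X Y; simp; ring
  · convert (H s t).zero_mem using 1; funext X Y; simp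
  · intro x y _ _ hx hy
    convert (H s t).add_mem hx hy using 1; funext X Y; simp [add_mul]
  · intro c x _ hx
    convert (H s t).smul_mem c hx using 1; funext X Y; simp; ring

theorem H_graph {s t : ℕ} {f : V2 → V2 → ℂ} (hf : f ∈ H s t) (A : Matrix (Fin 2) (Fin 2) ℂ) :
    (fun X => f X (A *ᵥ X)) ∈ Bn (s + t) := by
  refine Submodule.span_induction (p := fun f _ => (fun X => f X (A *ᵥ X)) ∈ Bn (s + t))
    ?_ ?_ ?_ ?_ hf
  · rintro _ ⟨a, a', b, b', h1, h2, rfl⟩
    subst h1 h2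
    exact Bn_mul (Bn_mon a a') (Bn_comp (Bn_mon b b') A)
  · exact (Bn (s + t)).zero_mem
  · intro x y _ _ hx hy
    exact (Bn (s + t)).add_mem hx hy
  · intro c x _ hx
    exact (Bn (s + t)).smul_mem c hx

theorem H_homY {s t : ℕ} {f : V2 → V2 → ℂ} (hf : f ∈ H s t) (c : ℂ) (X Y : V2) :
    f X (c • Y) = c ^ t * f X Y := by
  refine Submodule.span_induction (p := fun f _ => f X (c • Y) = c ^ t * f X Y)
    ?_ ?_ ?_ ?_ hf
  · rintro _ ⟨a, a', b, b', h1, h2, rfl⟩
    subst h2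
    simp only [Pi.smul_apply, smul_eq_mul, mul_pow, pow_add]
    ring
  · simp
  · intro x y _ _ hx hy
    simp only [Pi.add_apply, hx, hy]; ring
  · intro d x _ hx
    simp only [Pi.smul_apply, smul_eq_mul, hx]; ring

theorem Bn_hom {n : ℕ} {f : V2 → ℂ} (hf : f ∈ Bn n) (c : ℂ) (X : V2) :
    f (c • X) = c ^ n * f X := by
  refine Submodule.span_induction (p := fun f _ => f (c • X) = c ^ n * f X)
    ?_ ?_ ?_ ?_ hf
  · rintro _ ⟨a, a', h1, rfl⟩
    subst h1
    simp only [Pi.smul_apply, smul_eq_mul, mul_pow, pow_add]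
    ring
  · simp
  · intro x y _ _ hx hy
    simp only [Pi.add_apply, hx, hy]; ring
  · intro d x _ hx
    simp only [Pi.smul_apply, smul_eq_mul, hx]; ring

theorem Bn_zero {n : ℕ} {f : V2 → ℂ} (hf : f ∈ Bn (n + 1)) : f 0 = 0 := by
  have := Bn_hom hf 0 0
  simpa using this

theorem exists_br_one (Z : V2) (hZ : Z ≠ 0) : ∃ W : V2, br Z W = 1 := by
  by_cases h0 : Z 0 = 0
  · have h1 : Z 1 ≠ 0 := by
      intro h1; apply hZ; funext i; fin_cases i <;> simp [h0, h1]
    refine ⟨![-(Z 1)⁻¹, 0], ?_⟩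
    simp [br, h1]
  · refine ⟨![0, (Z 0)⁻¹], ?_⟩
    simp [br, h0]

theorem plucker (Z W X : V2) (i : Fin 2) : X i * br Z W = Z i * br X W + W i * br Z X := by
  fin_cases i <;> simp [br] <;> ring

theorem br_lin (Z : V2) : (fun X : V2 => br Z X) ∈ Bn 1 := by
  have := Bn_lin (-(Z 1)) (Z 0)
  convert this using 1
  funext X; simp [br]; ring

theorem br_lin' (W : V2) : (fun X : V2 => br X W) ∈ Bn 1 := by
  have := Bn_lin (W 1) (-(W 0))
  convert this using 1
  funext X; simp [br]; ring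

theorem Bn_div_step (Z W : V2) (hZW : br Z W = 1) (n : ℕ) (m : V2 → ℂ) (i : Fin 2)
    (h : ∃ g ∈ Bn n, ∀ X, m X = br Z X * g X + m Z * (br X W) ^ (n + 1)) :
    ∃ g ∈ Bn (n + 1), ∀ X, X i * m X = br Z X * g X + (Z i * m Z) * (br X W) ^ (n + 1 + 1) := by
  obtain ⟨g, hg, h⟩ := h
  refine ⟨fun X => X i * g X + (m Z * W i) * (br X W) ^ (n + 1), ?_, ?_⟩
  · refine (Bn (n + 1)).add_mem ?_ ?_
    · have := Bn_mul (Bn_coord i) hg
      rwa [add_comm] at this
    · have := Bn_pow (br_lin' W) (n + 1)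
      rw [mul_one] at this
      exact (Bn (n + 1)).smul_mem (m Z * W i) this
  · intro X
    have h1 := plucker Z W X i
    rw [hZW, mul_one] at h1
    calc X i * m X = X i * (br Z X * g X + m Z * (br X W) ^ (n + 1)) := by rw [← h X]
      _ = br Z X * (X i * g X) + m Z * (br X W) ^ (n + 1) * X i := by ring
      _ = br Z X * (X i * g X) + m Z * (br X W) ^ (n + 1) * (Z i * br X W + W i * br Z X) := by
        rw [← h1]
      _ = _ := by ring

theorem Bn_div_aux (Z W : V2) (hZW : br Z W = 1) (n : ℕ) : ∀ a a' : ℕ, a + a' = n + 1 →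
    ∃ g ∈ Bn n, ∀ X : V2, X 0 ^ a * X 1 ^ a' =
      br Z X * g X + (Z 0 ^ a * Z 1 ^ a') * (br X W) ^ (n + 1) := by
  induction n with
  | zero =>
    intro a a' h
    have key : ∀ i : Fin 2, ∃ g ∈ Bn 0, ∀ X : V2, X i =
      br Z X * g X + (Z i) * (br X W) ^ (0 + 1) := by
      intro i
      refine ⟨fun _ => W i, ?_, ?_⟩
      · have := (Bn 0).smul_mem (W i) Bn_one
        convert this using 1
        funext X; simp
      · intro X
        have h1 := plucker Z W X i
        rw [hZW, mul_one] at h1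
        rw [h1]; ring
    rcases Nat.eq_zero_or_pos a with ha | ha
    · have : a' = 1 := by omega
      subst this; subst ha
      simpa using key 1
    · have h1 : a = 1 := by omega
      have h2 : a' = 0 := by omega
      subst h1; subst h2
      simpa using key 0
  | succ n ih =>
    intro a a' h
    rcases Nat.eq_zero_or_pos a with ha | ha
    · have h2 : a' = n + 1 + 1 := by omega
      have := Bn_div_step Z W hZW n (fun X => X 0 ^ 0 * X 1 ^ (n + 1)) 1 (ih 0 (n + 1) (by omega))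
      obtain ⟨g, hg, hh⟩ := this
      refine ⟨g, hg, fun X => ?_⟩
      subst ha; subst h2
      have := hh X
      simp only [pow_zero, one_mul] at this ⊢
      rw [pow_succ' (X 1) (n + 1), this, pow_succ' (Z 1) (n + 1)]
    · obtain ⟨b, rfl⟩ : ∃ b, a = b + 1 := ⟨a - 1, by omega⟩
      have := Bn_div_step Z W hZW n (fun X => X 0 ^ b * X 1 ^ a') 0 (ih b a' (by omega))
      obtain ⟨g, hg, hh⟩ := this
      refine ⟨g, hg, fun X => ?_⟩
      have := hh X
      rw [pow_succ' (X 0) b, mul_assoc, this, pow_succ' (Z 0) b]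
      ring

/-- A binary form of degree `n + 1` vanishing at `Z ≠ 0` is divisible by `[Z, X]`. -/
theorem Bn_div {n : ℕ} {f : V2 → ℂ} (hf : f ∈ Bn (n + 1)) (Z : V2) (hZ : Z ≠ 0) (h0 : f Z = 0) :
    ∃ g ∈ Bn n, ∀ X, f X = br Z X * g X := by
  obtain ⟨W, hW⟩ := exists_br_one Z hZ
  have key : ∃ g ∈ Bn n, ∀ X, f X = br Z X * g X + f Z * (br X W) ^ (n + 1) := by
    refine Submodule.span_induction (p := fun f _ =>
      ∃ g ∈ Bn n, ∀ X, f X = br Z X * g X + f Z * (br X W) ^ (n + 1)) ?_ ?_ ?_ ?_ hf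
    · rintro _ ⟨a, a', h, rfl⟩
      exact Bn_div_aux Z W hW n a a' h
    · exact ⟨0, (Bn n).zero_mem, fun X => by simp⟩
    · rintro x y _ _ ⟨g1, hg1, h1⟩ ⟨g2, hg2, h2⟩
      refine ⟨g1 + g2, (Bn n).add_mem hg1 hg2, fun X => ?_⟩
      simp only [Pi.add_apply]
      rw [h1 X, h2 X]; ring
    · rintro c x _ ⟨g1, hg1, h1⟩
      refine ⟨c • g1, (Bn n).smul_mem c hg1, fun X => ?_⟩
      simp only [Pi.smul_apply, smul_eq_mul]
      rw [h1 X]; ring
  obtain ⟨g, hg, h⟩ := key
  refine ⟨g, hg, fun X => ?_⟩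
  rw [h X, h0]; ring

/-- surjectivity onto binary forms for one graph. -/
theorem single (A : Matrix (Fin 2) (Fin 2) ℂ) (hA : A.det = 1) (s t : ℕ) (h : V2 → ℂ)
    (hh : h ∈ Bn (s + t)) : ∃ f ∈ H s t, ∀ X, f X (A *ᵥ X) = h X := by
  have hAA : A⁻¹ * A = 1 := Matrix.nonsing_inv_mul A (by rw [hA]; exact isUnit_one)
  refine Submodule.span_induction (p := fun h _ => ∃ f ∈ H s t, ∀ X, f X (A *ᵥ X) = h X)
    ?_ ?_ ?_ ?_ hh
  · rintro _ ⟨a, a', h1, rfl⟩
    obtain ⟨a1, a2, a1', a2', e1, e2, e3, e4⟩ : ∃ a1 a2 a1' a2' : ℕ, a1 + a2 = a ∧ a1' + a2' = a' ∧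
        a1 + a1' = s ∧ a2 + a2' = t := by
      rcases le_total a s with hs | hs
      · exact ⟨a, 0, s - a, t, by omega, by omega, by omega, by omega⟩
      · exact ⟨s, a - s, 0, a', by omega, by omega, by omega, by omega⟩
    subst e3; subst e4
    refine ⟨fun X Y => (X 0 ^ a1 * X 1 ^ a1') * (fun Y => (A⁻¹ *ᵥ Y) 0 ^ a2 * (A⁻¹ *ᵥ Y) 1 ^ a2') Y,
      H_of_Bn (Bn_mon a1 a1') (Bn_comp (Bn_mon a2 a2') A⁻¹), fun X => ?_⟩
    have : A⁻¹ *ᵥ (A *ᵥ X) = X := by
      rw [Matrix.mulVec_mulVec, hAA, Matrix.one_mulVec]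
    simp only [this]
    rw [← e1, ← e2, pow_add, pow_add]; ring
  · exact ⟨0, (H s t).zero_mem, fun X => rfl⟩
  · rintro x y _ _ ⟨f1, hf1, h1⟩ ⟨f2, hf2, h2⟩
    exact ⟨f1 + f2, (H s t).add_mem hf1 hf2, fun X => by
      simp only [Pi.add_apply, h1 X, h2 X]⟩
  · rintro c x _ ⟨f1, hf1, h1⟩
    exact ⟨c • f1, (H s t).smul_mem c hf1, fun X => by
      simp only [Pi.smul_apply, h1 X]⟩

theorem br_self (X : V2) : br X X = 0 := by simp [br]; ring

theorem br_smul_eq {P Q : V2} (hP : P ≠ 0) (h : br P Q = 0) : ∃ μ : ℂ, Q = μ • P := by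
  by_cases h0 : P 0 = 0
  · have h1 : P 1 ≠ 0 := by
      intro h1; apply hP; funext i; fin_cases i <;> simp [h0, h1]
    refine ⟨Q 1 / P 1, ?_⟩
    have hQ : Q 0 = 0 := by
      simp only [br, h0, zero_mul, zero_sub, neg_eq_zero, mul_eq_zero] at h
      rcases h with h | h
      · exact absurd h h1
      · exact h
    funext i; fin_cases i
    · simp [hQ, h0]
    · simp [h1]
  · refine ⟨Q 0 / P 0, ?_⟩
    funext i; fin_cases i
    · simp [h0]
    · have : P 0 * Q 1 = P 1 * Q 0 := by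
        have := h; simp only [br] at this; linear_combination this
      simp only [Fin.mk_one, Pi.smul_apply, smul_eq_mul]
      field_simp
      linear_combination this

theorem mv_ne {A : Matrix (Fin 2) (Fin 2) ℂ} (hA : A.det = 1) {X : V2} (hX : X ≠ 0) :
    A *ᵥ X ≠ 0 := by
  intro h
  apply hX
  have hAA : A⁻¹ * A = 1 := Matrix.nonsing_inv_mul A (by rw [hA]; exact isUnit_one)
  have : A⁻¹ *ᵥ (A *ᵥ X) = X := by
    rw [Matrix.mulVec_mulVec, hAA, Matrix.one_mulVec]
  rw [← this, h, Matrix.mulVec_zero]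

theorem br_ne_of {X1 X2 : V2} (h : br X1 X2 ≠ 0) : X1 ≠ 0 ∧ X2 ≠ 0 := by
  constructor
  · rintro rfl; apply h; simp [br]
  · rintro rfl; apply h; simp [br]

/-- division by the equation of the two nodes. -/
theorem div_node {M : Mats} (hM : Cfg M) {i j : Fin 4} (hij : i ≠ j) {n : ℕ} {g : V2 → ℂ}
    (hg : g ∈ Bn (n + 2)) (h : ∀ X : V2, X ≠ 0 → br (M i *ᵥ X) (M j *ᵥ X) = 0 → g X = 0) :
    ∃ g' ∈ Bn n, ∀ X, g X = br (M i *ᵥ X) (M j *ᵥ X) * g' X := by
  obtain ⟨X1, X2, c, hb, hc, hn⟩ := hM.node i j hij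
  obtain ⟨hX1, hX2⟩ := br_ne_of hb
  have e1 : br (M i *ᵥ X1) (M j *ᵥ X1) = 0 := by rw [hn, br_self]; ring
  have e2 : br (M i *ᵥ X2) (M j *ᵥ X2) = 0 := by rw [hn, br_self]; ring
  obtain ⟨g1, hg1, h1⟩ := Bn_div (n := n + 1) hg X1 hX1 (h X1 hX1 e1)
  have hg12 : g1 X2 = 0 := by
    have := h1 X2
    rw [h X2 hX2 e2] at this
    rcases mul_eq_zero.1 this.symm with h' | h'
    · exact absurd h' hb
    · exact h'
  obtain ⟨g2, hg2, h2⟩ := Bn_div hg1 X2 hX2 hg12
  refine ⟨c⁻¹ • g2, (Bn n).smul_mem _ hg2, fun X => ?_⟩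
  rw [h1 X, h2 X, hn X]
  simp only [Pi.smul_apply, smul_eq_mul]
  field_simp

theorem div_nodes {M : Mats} (hM : Cfg M) (k : Fin 4) (S : Finset (Fin 4)) :
    k ∉ S → ∀ (n : ℕ) (F : V2 → ℂ), F ∈ Bn (n + 2 * S.card) →
    (∀ j ∈ S, ∀ X : V2, X ≠ 0 → br (M j *ᵥ X) (M k *ᵥ X) = 0 → F X = 0) →
    ∃ g ∈ Bn n, ∀ X, F X = (∏ j ∈ S, br (M j *ᵥ X) (M k *ᵥ X)) * g X := by
  induction S using Finset.induction_on with
  | empty =>
    intro _ n F hF _
    exact ⟨F, by simpa using hF, fun X => by simp⟩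
  | insert j S hj ih =>
    intro hk n F hF hv
    have hkj : k ≠ j := fun h => hk (by rw [h]; exact Finset.mem_insert_self _ _)
    have hkS : k ∉ S := fun h => hk (Finset.mem_insert_of_mem h)
    rw [Finset.card_insert_of_notMem hj] at hF
    obtain ⟨g, hg, h⟩ := ih hkS (n + 2) F (by convert hF using 2; ring)
      (fun i hi X hX e => hv i (Finset.mem_insert_of_mem hi) X hX e)
    obtain ⟨g', hg', h'⟩ := div_node hM (i := j) (j := k) (Ne.symm hkj) hg (by
      intro X hX e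
      have h1 := hv j (Finset.mem_insert_self _ _) X hX e
      rw [h X] at h1
      rcases mul_eq_zero.1 h1 with h2 | h2
      · exfalso
        obtain ⟨i, hi, hi0⟩ := Finset.prod_eq_zero_iff.1 h2
        have hij : i ≠ j := fun e => hj (e ▸ hi)
        have hik : i ≠ k := fun e => hkS (e ▸ hi)
        -- `M_k X ∥ M_j X` and `M_k X ∥ M_i X`
        have hs : br (M k *ᵥ X) (M j *ᵥ X) = 0 := by
          have := e; simp only [br] at this ⊢; linear_combination -this
        have hs' : br (M k *ᵥ X) (M i *ᵥ X) = 0 := by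
          have := hi0; simp only [br] at this ⊢; linear_combination -this
        exact hM.triple k j i hkj (Ne.symm hik) (Ne.symm hij) X hX hs hs'
      · exact h2)
    refine ⟨g', hg', fun X => ?_⟩
    rw [Finset.prod_insert hj, h X, h' X]; ring

theorem prod_mem (M : Mats) (S : Finset (Fin 4)) :
    (fun X Y : V2 => ∏ j ∈ S, br (M j *ᵥ X) Y) ∈ H S.card S.card := by
  induction S using Finset.induction_on with
  | empty =>
    simp only [Finset.prod_empty, Finset.card_empty]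
    exact Submodule.subset_span ⟨0, 0, 0, 0, rfl, rfl, by funext X Y; simp⟩
  | insert j S hj ih =>
    rw [Finset.card_insert_of_notMem hj]
    have h1 : (fun X Y : V2 => br (M j *ᵥ X) Y) ∈ H 1 1 := by
      have e0 : (fun X : V2 => (M j *ᵥ X) 0) ∈ Bn 1 := Bn_comp (Bn_coord 0) (M j)
      have e1 : (fun X : V2 => (M j *ᵥ X) 1) ∈ Bn 1 := Bn_comp (Bn_coord 1) (M j)
      exact (H 1 1).sub_mem (H_of_Bn e0 (Bn_coord 1)) (H_of_Bn e1 (Bn_coord 0))
    have := H_mul ih h1
    convert this using 1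
    funext X Y
    rw [Finset.prod_insert hj]; ring

theorem interp_aux {M : Mats} (hM : Cfg M) (s t : ℕ) (h : Fin 4 → V2 → ℂ)
    (hh : ∀ i, h i ∈ Bn (s + t)) (hc : Compat M t h) (k : ℕ) (hk : k ≤ 4) (hks : k ≤ s + 1)
    (hkt : k ≤ t + 1) : ∃ f ∈ H s t, ∀ i : Fin 4, i.val < k → ∀ X : V2, f X (M i *ᵥ X) = h i X := by
  induction k with
  | zero => exact ⟨0, (H s t).zero_mem, fun i hi => absurd hi (by omega)⟩
  | succ k ih =>
    obtain ⟨f, hf, hfi⟩ := ih (by omega) (by omega) (by omega)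
    set κ : Fin 4 := ⟨k, by omega⟩ with hκ
    set S : Finset (Fin 4) := Finset.univ.filter (fun i => i.val < k) with hS
    have hκS : κ ∉ S := by simp [hS, hκ]
    have hcard : S.card = k := by
      have : S = Finset.Iio κ := by
        ext i; simp [hS, Fin.lt_def, hκ]
      rw [this, Fin.card_Iio]
    set F : V2 → ℂ := fun X => h κ X - f X (M κ *ᵥ X) with hF
    have hFm : F ∈ Bn ((s - k + (t - k)) + 2 * S.card) := by
      rw [hcard, show s - k + (t - k) + 2 * k = s + t by omega]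
      exact (Bn (s + t)).sub_mem (hh κ) (H_graph hf (M κ))
    obtain ⟨g, hg, hgF⟩ := div_nodes hM κ S hκS (s - k + (t - k)) F hFm (by
      intro j hj X hX e
      have hjk : j.val < k := by simpa [hS] using hj
      have hne : κ ≠ j := by
        intro h'; rw [← h'] at hjk; simp [hκ] at hjk
      obtain ⟨μ, hμ⟩ := br_smul_eq (mv_ne (hM.det j) hX) e
      have h1 := hc κ j hne X hX μ hμ
      have h2 : f X (M κ *ᵥ X) = μ ^ t * h j X := by
        rw [hμ, H_homY hf, hfi j hjk]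
      simp only [hF, h1, h2, sub_self])
    obtain ⟨q, hq, hqg⟩ := single (M κ) (hM.det κ) (s - k) (t - k) g hg
    refine ⟨fun X Y => f X Y + (∏ j ∈ S, br (M j *ᵥ X) Y) * q X Y, ?_, ?_⟩
    · refine (H s t).add_mem hf ?_
      have := H_mul (prod_mem M S) hq
      rw [hcard, show k + (s - k) = s by omega, show k + (t - k) = t by omega] at this
      exact this
    · intro i hi X
      rcases Nat.lt_succ_iff_lt_or_eq.1 hi with hik | hik
      · have hiS : i ∈ S := by simp [hS, hik]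
        have : (∏ j ∈ S, br (M j *ᵥ X) (M i *ᵥ X)) = 0 :=
          Finset.prod_eq_zero hiS (br_self _)
        simp only [this, zero_mul, add_zero]
        exact hfi i hik X
      · have hiκ : i = κ := Fin.ext hik
        subst hiκ
        simp only [hqg X]
        rw [← hgF X]
        simp only [hF]; ring

end INTERP

theorem interp : StInterp := by
  intro M hM s t hs ht h hh hc
  obtain ⟨f, hf, hfi⟩ := INTERP.interp_aux hM s t h hh hc 4 le_rfl (by omega) (by omega)
  exact ⟨f, hf, fun i X => hfi i i.isLt X⟩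

end Crest.Agent.R258
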