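import Crest.Agent.R258.Lib

set_option autoImplicit false

noncomputable section

namespace Crest.Agent.R258

open Crest.AlgGeometry.QuadricBundle
open Matrix Finset
open scoped ComplexConjugate ComplexOrder Topology

namespace KER

/-- division of a form by the linear form `δ f - L e` with holomorphic coefficients -/
theorem divlin {δ L : V2 → ℂ} (hδ : Differentiable ℂ δ) (hL : Differentiable ℂ L)
    (hne : ∀ p, δ p = 0 → L p ≠ 0) : ∀ (n : ℕ) (c : ℕ → V2 → ℂ),
    (∀ i, Differentiable ℂ (c i)) →
    (∀ p, ∑ k ∈ range (n + 1), c k p * δ p ^ k * L p ^ (n - k) = 0) →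
    ∃ d : ℕ → V2 → ℂ, (∀ i, Differentiable ℂ (d i)) ∧ (∀ i, n ≤ i → d i = 0) ∧
      ∀ k ≤ n, ∀ p, c k p = δ p * d k p - (if k = 0 then 0 else L p * d (k - 1) p) := by
  intro n
  induction n with
  | zero =>
    intro c _ h
    refine ⟨0, fun i => differentiable_const (0 : ℂ), fun _ _ => rfl, ?_⟩
    intro k hk p
    have : k = 0 := by omega
    subst this
    simpa using h p
  | succ n ih =>
    intro c hc h
    set S : V2 → ℂ := fun p => ∑ k ∈ range (n + 1), c k p * δ p ^ k * L p ^ (n - k) with hS
    have hSd : Differentiable ℂ S := by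
      apply Differentiable.fun_sum
      intro k _
      exact ((hc k).mul (hδ.pow k)).mul (hL.pow _)
    have hSc : ∀ p, L p * S p + c (n + 1) p * δ p ^ (n + 1) = 0 := by
      intro p
      have := h p
      rw [Finset.sum_range_succ] at this
      simp only [Nat.sub_self, pow_zero, mul_one] at this
      rw [← this]
      congr 1
      rw [hS]
      simp only
      rw [Finset.mul_sum]
      refine Finset.sum_congr rfl fun k hk => ?_
      have : n + 1 - k = (n - k) + 1 := by have := Finset.mem_range.1 hk; omega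
      rw [this, pow_succ]
      ring
    classical
    set dn : V2 → ℂ := fun p => if L p = 0 then S p / δ p ^ (n + 1) else - c (n + 1) p / L p with hdn
    have hδL : ∀ p, L p = 0 → δ p ≠ 0 := fun p h1 h2 => hne p h2 h1
    have hdn1 : ∀ p, δ p ≠ 0 → dn p = S p / δ p ^ (n + 1) := by
      intro p hp
      rw [hdn]
      by_cases hLp : L p = 0
      · simp [hLp]
      · simp only [hLp, if_false]
        have := hSc p
        have h2 : δ p ^ (n + 1) ≠ 0 := pow_ne_zero _ hp
        field_simp
        linear_combination -this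
    have hdnd : Differentiable ℂ dn := by
      intro p
      by_cases hLp : L p = 0
      · have hδp := hδL p hLp
        have hev : ∀ᶠ q in 𝓝 p, δ q ≠ 0 := hδ.continuous.continuousAt.eventually_ne hδp
        have : dn =ᶠ[𝓝 p] fun q => S q / δ q ^ (n + 1) := by
          filter_upwards [hev] with q hq using hdn1 q hq
        refine DifferentiableAt.congr_of_eventuallyEq ?_ this
        simp only [div_eq_mul_inv]
        exact (hSd p).mul (((hδ p).pow (n + 1)).inv (pow_ne_zero _ hδp))
      · have hev : ∀ᶠ q in 𝓝 p, L q ≠ 0 := hL.continuous.continuousAt.eventually_ne hLp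
        have : dn =ᶠ[𝓝 p] fun q => - c (n + 1) q / L q := by
          filter_upwards [hev] with q hq
          rw [hdn]; simp [hq]
        refine DifferentiableAt.congr_of_eventuallyEq ?_ this
        simp only [div_eq_mul_inv]
        exact ((hc (n + 1) p).neg).mul ((hL p).inv hLp)
    have hLdn : ∀ p, L p * dn p = - c (n + 1) p := by
      intro p
      by_cases hLp : L p = 0
      · have := hSc p
        rw [hLp, zero_mul, zero_add] at this
        have h2 := (mul_eq_zero.1 this).resolve_right (pow_ne_zero _ (hδL p hLp))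
        rw [hLp, h2]; ring
      · rw [hdn]; simp only [hLp, if_false]
        field_simp
    have hSdn : ∀ p, S p = δ p ^ (n + 1) * dn p := by
      intro p
      by_cases hLp : L p = 0
      · have hδp := hδL p hLp
        rw [hdn1 p hδp]
        have h2 : δ p ^ (n + 1) ≠ 0 := pow_ne_zero _ hδp
        field_simp
      · have h1 := hSc p
        have h2 := hLdn p
        apply mul_left_cancel₀ hLp
        linear_combination h1 - δ p ^ (n + 1) * h2
    -- new coefficients
    set c' : ℕ → V2 → ℂ := fun k => if k = n then (fun p => c n p - δ p * dn p) else c k with hc'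
    obtain ⟨d', hd', hd0, hdk⟩ := ih c' (by
      intro i
      by_cases hi : i = n
      · subst hi
        simp only [hc', if_true]
        exact (hc i).sub (hδ.mul hdnd)
      · simp only [hc', hi, if_false]; exact hc i) (by
      intro p
      have h1 := hSdn p
      rw [hS] at h1
      simp only at h1
      rw [Finset.sum_range_succ] at h1 ⊢
      have e1 : ∑ k ∈ range n, c' k p * δ p ^ k * L p ^ (n - k)
          = ∑ k ∈ range n, c k p * δ p ^ k * L p ^ (n - k) := by
        refine Finset.sum_congr rfl fun k hk => ?_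
        have : k ≠ n := by have := Finset.mem_range.1 hk; omega
        simp only [hc', this, if_false]
      rw [e1]
      simp only [hc', if_true]
      simp only [Nat.sub_self, pow_zero, mul_one] at h1 ⊢
      linear_combination h1)
    refine ⟨fun i => if i = n then dn else d' i, fun i => ?_, fun i hi => ?_, fun k hk p => ?_⟩
    · by_cases hi : i = n
      · simp only [hi, if_true]; exact hdnd
      · simp only [hi, if_false]; exact hd' i
    · have : i ≠ n := by omega
      simp only [this, if_false]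
      exact hd0 i (by omega)
    · rcases Nat.lt_or_ge k n with hlt | hge
      · have h1 := hdk k hlt.le p
        have k1 : k ≠ n := by omega
        simp only [hc', k1, if_false] at h1
        rw [h1]
        have k2 : k - 1 ≠ n := by omega
        simp only [k1, k2, if_false]
      · rcases Nat.eq_or_lt_of_le hge with heq | hlt
        · subst heq
          have h1 := hdk n le_rfl p
          simp only [hc', if_true] at h1
          have h0 : d' n p = 0 := by rw [hd0 n le_rfl]; rfl
          rw [h0] at h1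
          simp only [if_true]
          by_cases hn : n = 0
          · subst hn
            simp only [if_true] at h1 ⊢
            linear_combination h1
          · have k2 : n - 1 ≠ n := by omega
            simp only [hn, k2, if_false] at h1 ⊢
            linear_combination h1
        · have : k = n + 1 := by omega
          subst this
          have k1 : n + 1 ≠ n := by omega
          have k2 : n + 1 ≠ 0 := by omega
          simp only [k1, k2, if_false, Nat.add_sub_cancel, if_true]
          rw [hd0 (n + 1) (by omega), hLdn]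
          simp

theorem coef_ext {n : ℕ} {A B : ℕ → ℂ}
    (h : ∀ U : ℂ, ∑ i ∈ range n, A i * U ^ i = ∑ i ∈ range n, B i * U ^ i) :
    ∀ i < n, A i = B i := by
  intro i hi
  have hp : (∑ i ∈ range n, Polynomial.C (A i) * Polynomial.X ^ i : Polynomial ℂ)
      = ∑ i ∈ range n, Polynomial.C (B i) * Polynomial.X ^ i := by
    apply Polynomial.funext
    intro U
    simpa [Polynomial.eval_finset_sum] using h U
  have := congrArg (fun q => Polynomial.coeff q i) hp
  simpa [Polynomial.finset_sum_coeff, Polynomial.coeff_C_mul, Polynomial.coeff_X_pow, hi] using this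

/-- expansion of `∑ dᵢ (δU)ⁱ (V+LU)^{j-i}` in powers of `U, V` -/
theorem expand {δ L : V2 → ℂ} (hδ : Differentiable ℂ δ) (hL : Differentiable ℂ L)
    (d : ℕ → V2 → ℂ) (hd : ∀ i, Differentiable ℂ (d i)) : ∀ j : ℕ,
    ∃ γ : ℕ → V2 → ℂ, (∀ i, Differentiable ℂ (γ i)) ∧ (∀ i, j < i → γ i = 0) ∧
    ∀ (p : V2) (U V : ℂ), ∑ i ∈ range (j + 1), d i p * (δ p * U) ^ i * (V + L p * U) ^ (j - i)
      = ∑ i ∈ range (j + 1), γ i p * U ^ i * V ^ (j - i) := by
  intro j
  induction j with
  | zero =>
    refine ⟨fun i => if i = 0 then d 0 else 0, fun i => ?_, fun i hi => ?_, fun p U V => by simp⟩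
    · by_cases hi : i = 0
      · simp only [hi, if_true]; exact hd 0
      · simp only [hi, if_false]; exact differentiable_const (0 : ℂ)
    · have : i ≠ 0 := by omega
      simp [this]
  | succ j ih =>
    obtain ⟨γ, hγ, hγ0, hs⟩ := ih
    refine ⟨fun i p => γ i p + (if i = 0 then 0 else L p * γ (i - 1) p)
      + (if i = j + 1 then d (j + 1) p * δ p ^ (j + 1) else 0), fun i => ?_, fun i hi => ?_,
      fun p U V => ?_⟩
    · refine ((hγ i).add ?_).add ?_
      · by_cases hi : i = 0
        · simp only [hi, if_true]; exact differentiable_const (0 : ℂ)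
        · simp only [hi, if_false]; exact hL.mul (hγ _)
      · by_cases hi : i = j + 1
        · simp only [hi, if_true]; exact (hd _).mul (hδ.pow _)
        · simp only [hi, if_false]; exact differentiable_const (0 : ℂ)
    · have k1 : i ≠ 0 := by omega
      have k2 : i ≠ j + 1 := by omega
      funext p
      simp [k1, k2, hγ0 i (by omega), hγ0 (i - 1) (by omega)]
    · have key := hs p U V
      have e1 : ∑ i ∈ range (j + 1 + 1), d i p * (δ p * U) ^ i * (V + L p * U) ^ (j + 1 - i)
          = (V + L p * U) * ∑ i ∈ range (j + 1), d i p * (δ p * U) ^ i * (V + L p * U) ^ (j - i)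
            + d (j + 1) p * (δ p * U) ^ (j + 1) := by
        rw [Finset.sum_range_succ (n := j + 1), Finset.mul_sum]
        congr 1
        · refine Finset.sum_congr rfl fun i hi => ?_
          have : j + 1 - i = (j - i) + 1 := by have := Finset.mem_range.1 hi; omega
          rw [this, pow_succ]; ring
        · simp
      rw [e1, key]
      have e2 : ∑ i ∈ range (j + 1 + 1), (γ i p + (if i = 0 then 0 else L p * γ (i - 1) p)
          + (if i = j + 1 then d (j + 1) p * δ p ^ (j + 1) else 0)) * U ^ i * V ^ (j + 1 - i)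
          = ∑ i ∈ range (j + 1 + 1), γ i p * U ^ i * V ^ (j + 1 - i)
            + ∑ i ∈ range (j + 1 + 1), (if i = 0 then 0 else L p * γ (i - 1) p) * U ^ i
                * V ^ (j + 1 - i)
            + ∑ i ∈ range (j + 1 + 1), (if i = j + 1 then d (j + 1) p * δ p ^ (j + 1) else 0)
                * U ^ i * V ^ (j + 1 - i) := by
        rw [← Finset.sum_add_distrib, ← Finset.sum_add_distrib]
        refine Finset.sum_congr rfl fun i _ => ?_
        ring
      rw [e2]
      have t1 : ∑ i ∈ range (j + 1 + 1), γ i p * U ^ i * V ^ (j + 1 - i)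
          = V * ∑ i ∈ range (j + 1), γ i p * U ^ i * V ^ (j - i) := by
        rw [Finset.sum_range_succ (n := j + 1), Finset.mul_sum, hγ0 (j + 1) (by omega)]
        simp only [Pi.zero_apply, zero_mul, add_zero]
        refine Finset.sum_congr rfl fun i hi => ?_
        have : j + 1 - i = (j - i) + 1 := by have := Finset.mem_range.1 hi; omega
        rw [this, pow_succ]; ring
      have t2 : ∑ i ∈ range (j + 1 + 1), (if i = 0 then 0 else L p * γ (i - 1) p) * U ^ i
                * V ^ (j + 1 - i)
          = L p * U * ∑ i ∈ range (j + 1), γ i p * U ^ i * V ^ (j - i) := by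
        rw [Finset.sum_range_succ' (n := j + 1), Finset.mul_sum]
        simp only [if_true, zero_mul, add_zero]
        refine Finset.sum_congr rfl fun i hi => ?_
        have k1 : i + 1 ≠ 0 := by omega
        simp only [k1, if_false, Nat.add_sub_cancel, Nat.add_sub_add_right]
        ring
      have t3 : ∑ i ∈ range (j + 1 + 1), (if i = j + 1 then d (j + 1) p * δ p ^ (j + 1) else 0)
                * U ^ i * V ^ (j + 1 - i) = d (j + 1) p * (δ p * U) ^ (j + 1) := by
        rw [Finset.sum_range_succ (n := j + 1), Finset.sum_eq_zero]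
        · simp; ring
        · intro i hi
          have k1 : i ≠ j + 1 := by have := Finset.mem_range.1 hi; omega
          simp [k1]
      rw [t1, t2, t3]
      ring

/-- `∑ uvc(d)ᵢ eⁱ f^{j+2-i} = δ²UV ∑ dᵢ eⁱ f^{j-i}` -/
theorem uvc_sum {δ L U V : ℂ} {j : ℕ} {d : ℕ → ℂ} :
    ∑ i ∈ range (j + 2 + 1), ((if 1 ≤ i ∧ i ≤ j + 1 then δ * d (i - 1) else 0)
        - (if 2 ≤ i then L * d (i - 2) else 0)) * (δ * U) ^ i * (V + L * U) ^ (j + 2 - i)
      = δ ^ 2 * U * V * ∑ i ∈ range (j + 1), d i * (δ * U) ^ i * (V + L * U) ^ (j - i) := by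
  have s2 : ∑ i ∈ range (j + 2 + 1), ((if 1 ≤ i ∧ i ≤ j + 1 then δ * d (i - 1) else 0)
        - (if 2 ≤ i then L * d (i - 2) else 0)) * (δ * U) ^ i * (V + L * U) ^ (j + 2 - i)
      = ∑ i ∈ range (j + 2 + 1), (if 1 ≤ i ∧ i ≤ j + 1 then δ * d (i - 1) else 0)
          * (δ * U) ^ i * (V + L * U) ^ (j + 2 - i)
        - ∑ i ∈ range (j + 2 + 1), (if 2 ≤ i then L * d (i - 2) else 0) * (δ * U) ^ i
          * (V + L * U) ^ (j + 2 - i) := by
    rw [← Finset.sum_sub_distrib]
    refine Finset.sum_congr rfl fun i _ => ?_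
    ring
  rw [s2]
  have t1 : ∑ i ∈ range (j + 2 + 1), (if 1 ≤ i ∧ i ≤ j + 1 then δ * d (i - 1) else 0)
          * (δ * U) ^ i * (V + L * U) ^ (j + 2 - i)
      = δ * (δ * U) * (V + L * U) *
        ∑ i ∈ range (j + 1), d i * (δ * U) ^ i * (V + L * U) ^ (j - i) := by
    rw [Finset.sum_range_succ (n := j + 2), Finset.sum_range_succ' (n := j + 1)]
    have z1 : ¬ (1 ≤ j + 2 ∧ j + 2 ≤ j + 1) := by omega
    have z2 : ¬ ((1:ℕ) ≤ 0 ∧ 0 ≤ j + 1) := by omega
    simp only [z1, z2, if_false, zero_mul, add_zero]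
    rw [Finset.mul_sum]
    refine Finset.sum_congr rfl fun i hi => ?_
    have hi' := Finset.mem_range.1 hi
    have z3 : 1 ≤ i + 1 ∧ i + 1 ≤ j + 1 := by omega
    have z4 : j + 2 - (i + 1) = (j - i) + 1 := by omega
    rw [if_pos z3, Nat.add_sub_cancel, z4, pow_succ (V + L * U)]
    ring
  have t2 : ∑ i ∈ range (j + 2 + 1), (if 2 ≤ i then L * d (i - 2) else 0) * (δ * U) ^ i
          * (V + L * U) ^ (j + 2 - i)
      = L * (δ * U) ^ 2 *
        ∑ i ∈ range (j + 1), d i * (δ * U) ^ i * (V + L * U) ^ (j - i) := by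
    rw [Finset.sum_range_succ' (n := j + 2), Finset.sum_range_succ' (n := j + 1)]
    have z1 : ¬ (2 ≤ 0 + 1) := by omega
    have z2 : ¬ ((2:ℕ) ≤ 0) := by omega
    simp only [z1, z2, if_false, zero_mul, add_zero]
    rw [Finset.mul_sum]
    refine Finset.sum_congr rfl fun i hi => ?_
    have z3 : 2 ≤ i + 1 + 1 := by omega
    have z4 : j + 2 - (i + 1 + 1) = j - i := by omega
    have z5 : i + 1 + 1 - 2 = i := by omega
    rw [if_pos z3, z4, z5]
    ring
  rw [t1, t2]
  ring

/-- a bihomogeneous function of positive `X`-degree whose restrictions vanish where `δ = 0`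
vanishes on the graphs -/
theorem ond_of_res {M : Mats} (hM : Cfg M) {s t : ℕ} {f : V2 → V2 → ℂ} (hf : f ∈ H s t)
    (hs : s ≠ 0) (h : ∀ α p, res (dl M) α p = 0 → res f α p = 0) : OnD M f 0 := by
  intro i X
  simp only [Pi.zero_apply]
  by_cases hX : X = 0
  · subst hX
    have := H_homX hf 0 0 (M i *ᵥ (0 : V2))
    rw [smul_zero, zero_pow hs, zero_mul] at this
    exact this
  · obtain ⟨l, hl⟩ := exists_chart X hX
    obtain ⟨k, hk⟩ := exists_chart (M i *ᵥ X) (hM.mulVec_ne i hX)
    rw [eq_res hf l k X (M i *ᵥ X) hl hk]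
    rw [h]
    · simp
    · have := eq_res (dl_mem M) l k X (M i *ᵥ X) hl hk
      rw [dl_graph] at this
      have h' : X (1 - l) ^ 4 * (M i *ᵥ X) (1 - k) ^ 4 ≠ 0 :=
        mul_ne_zero (pow_ne_zero _ hl) (pow_ne_zero _ hk)
      exact (mul_eq_zero.1 this.symm).resolve_left h'

/-- the local structure in one chart -/
theorem local_step {M : Mats} {B : ℕ} {L : Fin 2 → V2 → V2 → ℂ} {K : V2 → V2 → ℂ}
    (hc : Ctx M B L K) {j : ℕ} {a : ℕ → V2 → V2 → ℂ} (a0 : a 0 = 0) (aj : a (j + 2) = 0)
    (α : Chart) {c : ℕ → V2 → ℂ} (h : Loc M L (j + 2) a α c) :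
    ∃ d γ : ℕ → V2 → ℂ, (∀ i, Differentiable ℂ (d i)) ∧ (∀ i, Differentiable ℂ (γ i)) ∧
      (∀ (p : V2) (U V : ℂ), ∑ i ∈ range (j + 1), γ i p * U ^ i * V ^ (j - i) =
        ∑ i ∈ range (j + 1), d i p * (res (dl M) α p * U) ^ i
          * (V + res (L α.1) α p * U) ^ (j - i)) ∧
      ∀ k ≤ j, ∀ p, res (a (k + 1)) α p = res (dl M) α p ^ 2 * γ k p := by
  set δ : V2 → ℂ := res (dl M) α with hδ
  set Lα : V2 → ℂ := res (L α.1) α with hLα
  have hδd : Differentiable ℂ δ := res_diff (dl_mem M) α
  have hLd : Differentiable ℂ Lα := res_diff (hc.lk.hL _) α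
  have hne : ∀ p, δ p = 0 → Lα p ≠ 0 := fun p hp => hc.lk.ne_of_dl hc.cfg α p hp
  have c0 : ∀ p, c 0 p = 0 := by
    intro p
    have h2 := h.2 p 0 1
    simp only [mul_zero, add_zero, one_pow, mul_one] at h2
    have e3 : ∑ i ∈ range (j + 2 + 1), res (a i) α p * (0 : ℂ) ^ i = res (a 0) α p := by
      rw [Finset.sum_range_succ', Finset.sum_eq_zero]
      · simp
      · intro i _
        simp
    have e4 : ∑ i ∈ range (j + 2 + 1), c i p * (0 : ℂ) ^ i = c 0 p := by
      rw [Finset.sum_range_succ', Finset.sum_eq_zero]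
      · simp
      · intro i _
        simp
    rw [e3, e4, a0] at h2
    exact h2.symm
  have hsum : ∀ p, ∑ k ∈ range (j + 1 + 1), c (k + 1) p * δ p ^ k * Lα p ^ (j + 1 - k) = 0 := by
    have hdiff : Differentiable ℂ
        (fun p => ∑ k ∈ range (j + 1 + 1), c (k + 1) p * δ p ^ k * Lα p ^ (j + 1 - k)) := by
      apply Differentiable.fun_sum
      intro k _
      exact ((h.1 _).mul (hδd.pow k)).mul (hLd.pow _)
    intro p
    refine eq_of_dense hdiff (differentiable_const (0 : ℂ)) (dense_dl hc.cfg α) ?_ p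
    intro p hp
    have h1 := h.2 p 1 0
    simp only [mul_one, zero_add, one_pow] at h1
    have e1 : ∑ i ∈ range (j + 2 + 1), res (a i) α p * (0 : ℂ) ^ (j + 2 - i)
        = res (a (j + 2)) α p := by
      rw [Finset.sum_range_succ, Finset.sum_eq_zero]
      · simp
      · intro i hi
        have : j + 2 - i ≠ 0 := by have := Finset.mem_range.1 hi; omega
        simp [this]
    rw [e1, aj, Finset.sum_range_succ', c0 p] at h1
    simp only [res_zero, zero_mul, add_zero] at h1
    apply (mul_eq_zero.1 (?_ : δ p * _ = 0)).resolve_left hp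
    rw [h1, Finset.mul_sum]
    refine Finset.sum_congr rfl fun k hk => ?_
    have : j + 2 - (k + 1) = j + 1 - k := by omega
    rw [this, pow_succ]
    ring
  obtain ⟨d, hd, hd0, hdk⟩ := divlin hδd hLd hne (j + 1) (fun k => c (k + 1))
    (fun i => h.1 _) hsum
  obtain ⟨γ, hγ, hγ0, hγs⟩ := expand hδd hLd d hd j
  refine ⟨d, γ, hd, hγ, fun p U V => (hγs p U V).symm, fun k hk p => ?_⟩
  -- coefficient comparison
  have hcu : ∀ i, i ≤ j + 2 → c i p = (if 1 ≤ i ∧ i ≤ j + 1 then δ p * d (i - 1) p else 0)
        - (if 2 ≤ i then Lα p * d (i - 2) p else 0) := by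
    intro i hi
    rcases i with _ | i
    · simp [c0 p]
    · have h1 := hdk i (by omega) p
      rw [h1]
      by_cases hi0 : i = 0
      · subst hi0
        have z1 : 1 ≤ 0 + 1 ∧ 0 + 1 ≤ j + 1 := by omega
        simp
      · have z2 : 2 ≤ i + 1 := by omega
        have z3 : i + 1 - 2 = i - 1 := by omega
        simp only [hi0, if_false, z2, if_true, z3, Nat.add_sub_cancel]
        by_cases hij : i ≤ j
        · have z1 : 1 ≤ i + 1 ∧ i + 1 ≤ j + 1 := by omega
          simp only [z1, and_self, if_true]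
        · have z1 : ¬ (1 ≤ i + 1 ∧ i + 1 ≤ j + 1) := by omega
          rw [if_neg z1, hd0 i (by omega)]
          simp
  have hid : ∀ U : ℂ, ∑ i ∈ range (j + 2 + 1), res (a i) α p * U ^ i
      = ∑ i ∈ range (j + 2 + 1), (if 1 ≤ i ∧ i ≤ j + 1 then δ p ^ 2 * γ (i - 1) p else 0) * U ^ i := by
    intro U
    have h1 := h.2 p U 1
    simp only [one_pow, mul_one] at h1
    rw [h1]
    have h2 : ∑ i ∈ range (j + 2 + 1), c i p * (δ p * U) ^ i * (1 + Lα p * U) ^ (j + 2 - i)
        = ∑ i ∈ range (j + 2 + 1), ((if 1 ≤ i ∧ i ≤ j + 1 then δ p * d (i - 1) p else 0)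
        - (if 2 ≤ i then Lα p * d (i - 2) p else 0)) * (δ p * U) ^ i
          * (1 + Lα p * U) ^ (j + 2 - i) := by
      refine Finset.sum_congr rfl fun i hi => ?_
      rw [hcu i (by have := Finset.mem_range.1 hi; omega)]
    rw [h2, uvc_sum (d := fun i => d i p), hγs p U 1]
    simp only [one_pow, mul_one]
    rw [Finset.sum_range_succ (n := j + 2), Finset.sum_range_succ' (n := j + 1)]
    have z1 : ¬ (1 ≤ j + 2 ∧ j + 2 ≤ j + 1) := by omega
    have z2 : ¬ ((1:ℕ) ≤ 0 ∧ 0 ≤ j + 1) := by omega
    rw [if_neg z1, if_neg z2, Finset.mul_sum]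
    simp only [zero_mul, add_zero]
    refine Finset.sum_congr rfl fun i hi => ?_
    have z3 : 1 ≤ i + 1 ∧ i + 1 ≤ j + 1 := by have := Finset.mem_range.1 hi; omega
    rw [if_pos z3, Nat.add_sub_cancel]
    ring
  have := coef_ext hid (k + 1) (by omega)
  have z3 : 1 ≤ k + 1 ∧ k + 1 ≤ j + 1 := by omega
  rw [if_pos z3, Nat.add_sub_cancel] at this
  exact this

end KER

theorem ker : StDiv → StKer := by
  intro hD M B L K hc j s t a ha a0 aj
  have hl : ∀ α, ∃ d γ : ℕ → V2 → ℂ, (∀ i, Differentiable ℂ (d i)) ∧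
      (∀ i, Differentiable ℂ (γ i)) ∧
      (∀ (p : V2) (U V : ℂ), ∑ i ∈ range (j + 1), γ i p * U ^ i * V ^ (j - i) =
        ∑ i ∈ range (j + 1), d i p * (res (dl M) α p * U) ^ i
          * (V + res (L α.1) α p * U) ^ (j - i)) ∧
      ∀ k ≤ j, ∀ p, res (a (k + 1)) α p = res (dl M) α p ^ 2 * γ k p := by
    intro α
    obtain ⟨c, hcl⟩ := ha.loc α
    exact KER.local_step hc a0 aj α hcl
  choose d γ hd hγ hs hk using hl
  -- global quotients
  have hb : ∀ k, ∃ b : V2 → V2 → ℂ, (k ≤ j → b ∈ H ((j - k) * (B + 8) + (s + B))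
      (k * (B + 8) + (t + B)) ∧ (∀ X Y : V2, a (k + 1) X Y = dl M X Y ^ 2 * b X Y) ∧
      ∀ α p, res b α p = γ α k p) ∧ (j < k → b = 0) := by
    intro k
    by_cases hkj : k ≤ j
    · have hm := ha.mem (k + 1) (by omega)
      have e1 : (j + 2 - (k + 1)) * (B + 8) + s = ((j - k) * (B + 8) + (s + B) + 4) + 4 := by
        have : j + 2 - (k + 1) = (j - k) + 1 := by omega
        rw [this]; ring
      have e2 : (k + 1) * (B + 8) + t = (k * (B + 8) + (t + B) + 4) + 4 := by ring
      have hm' := H_cast hm e1 e2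
      have ho1 : OnD M (a (k + 1)) 0 := KER.ond_of_res hc.cfg hm' (by omega) (by
        intro α p hp
        rw [hk α k hkj p, hp]; ring)
      obtain ⟨a', ha', hae'⟩ := (hD M hc.cfg).1 _ _ _ hm' ho1
      have hr1 : ∀ α p, res a' α p = res (dl M) α p * γ α k p := by
        intro α p
        refine eq_of_dense (res_diff ha' α) ((res_diff (dl_mem M) α).mul (hγ α k))
          (dense_dl hc.cfg α) ?_ p
        intro p hp
        have h1 := hk α k hkj p
        have h2 : res (a (k + 1)) α p = res (dl M) α p * res a' α p := hae' _ _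
        rw [h2] at h1
        apply mul_left_cancel₀ hp
        rw [h1, Pi.mul_apply]; ring
      have ho2 : OnD M a' 0 := KER.ond_of_res hc.cfg ha' (by omega) (by
        intro α p hp
        rw [hr1 α p, hp]; ring)
      obtain ⟨b, hb, hbe⟩ := (hD M hc.cfg).1 _ _ _ ha' ho2
      refine ⟨b, fun _ => ⟨hb, fun X Y => by rw [hae', hbe]; ring, fun α p => ?_⟩,
        fun h => by omega⟩
      refine eq_of_dense (res_diff hb α) (hγ α k) (dense_dl hc.cfg α) ?_ p
      intro p hp
      have h1 := hr1 α p
      have h2 : res a' α p = res (dl M) α p * res b α p := hbe _ _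
      rw [h2] at h1
      exact mul_left_cancel₀ hp h1
    · exact ⟨0, fun h => absurd h hkj, fun _ => rfl⟩
  choose b hb1 hb2 using hb
  refine ⟨b, ⟨fun i hi => (hb1 i hi).1, fun i hi => hb2 i hi, fun α => ?_⟩, ?_⟩
  · refine ⟨d α, hd α, fun p U V => ?_⟩
    rw [← hs α p U V]
    refine Finset.sum_congr rfl fun i hi => ?_
    rw [(hb1 i (by have := Finset.mem_range.1 hi; omega)).2.2 α p]
  · funext i X Y
    rcases i with _ | i
    · rw [a0]; rfl
    · by_cases hi : i ≤ j
      · rw [(hb1 i hi).2.1 X Y]; rfl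
      · have h1 : a (i + 1) = 0 := by
          by_cases hi2 : i + 1 = j + 2
          · rw [hi2, aj]
          · exact ha.zero _ (by omega)
        have h2 : b i = 0 := hb2 i (by omega)
        rw [h1]
        simp [mulUV, h2]

end Crest.Agent.R258
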