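import Crest.Agent.R258.Lib

set_option autoImplicit false

noncomputable section

namespace Crest.Agent.R258

open Crest.AlgGeometry.QuadricBundle
open Matrix Finset
open scoped ComplexConjugate ComplexOrder Topology

theorem lk : StLK := by
  intro hI hD M hM B hB
  have hroot : ∀ i j, i ≠ j → ∀ X : V2, X ≠ 0 → ∀ μ : ℂ, M i *ᵥ X = μ • (M j *ᵥ X) →
      μ ^ (B + 8) = 1 := by
    intro i j hij X hX μ h
    obtain ⟨k, hk⟩ := hB
    rw [hk, pow_mul, hM.root i j hij X hX μ h, one_pow]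
  have hex : ∀ a : Fin 2, ∃ f ∈ H 3 (B + 8), ∀ i (X : V2), f X (M i *ᵥ X) = X (1 - a) ^ (B + 11) := by
    intro a
    refine hI M hM 3 (B + 8) le_rfl (by omega) (fun _ X => X (1 - a) ^ (B + 11)) ?_ ?_
    · intro i
      exact Bn_cast (Bn_X (1 - a) (B + 11)) (by omega)
    · intro i j hij X hX μ h
      simp only
      rw [hroot i j hij X hX μ h, one_mul]
  choose L hL hLM using hex
  have h1 : (fun X Y : V2 => X 0 ^ (B + 11) * L 0 X Y - X 1 ^ (B + 11) * L 1 X Y)
      ∈ H (B + 10 + 4) (B + 4 + 4) := by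
    refine Submodule.sub_mem _ (x := fun X Y => X 0 ^ (B + 11) * L 0 X Y)
      (y := fun X Y => X 1 ^ (B + 11) * L 1 X Y) ?_ ?_
    · exact H_cast (H_XpowMul 0 (B + 11) (hL 0)) (by omega) (by omega)
    · exact H_cast (H_XpowMul 1 (B + 11) (hL 1)) (by omega) (by omega)
  obtain ⟨K, hK, hKe⟩ := (hD M hM).1 (B + 10) (B + 4) _ h1 (by
    intro i X
    simp only [hLM, Pi.zero_apply]
    simp only [sub_zero, Fin.isValue, sub_self]
    ring_nf
    )
  exact ⟨L, K, hL, fun a i X => hLM a i X, hK, hKe⟩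

end Crest.Agent.R258
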