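import Crest.Agent.R258.Lib

set_option autoImplicit false

noncomputable section

namespace Crest.Agent.R258

open Crest.AlgGeometry.QuadricBundle
open Matrix Finset
open scoped ComplexConjugate ComplexOrder Topology

namespace LR

/-! ### `H` and `Bn` -/

theorem H_zeroX {s t : ℕ} (hs : 1 ≤ s) {f : V2 → V2 → ℂ} (hf : f ∈ H s t) (X Y : V2)
    (hX : X = 0) : f X Y = 0 := by
  subst hX
  have := H_homX hf 0 0 Y
  rwa [zero_pow (by omega), zero_mul, smul_zero] at this

theorem Bn_cont {n : ℕ} {f : V2 → ℂ} (hf : f ∈ Bn n) : Continuous f := by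
  unfold Bn at hf
  induction hf using Submodule.span_induction with
  | mem f hf =>
    obtain ⟨a, a', h1, rfl⟩ := hf
    fun_prop
  | zero => exact continuous_const
  | add x y _ _ hx hy => exact hx.add hy
  | smul c x _ hx => exact hx.const_smul c

theorem Bn_split {n : ℕ} {f : V2 → ℂ} (hf : f ∈ Bn (n + 1)) :
    ∃ c : ℂ, ∃ h ∈ Bn n, ∀ X : V2, f X = c * X 0 ^ (n + 1) + X 1 * h X := by
  unfold Bn at hf
  induction hf using Submodule.span_induction with
  | mem f hf =>
    obtain ⟨a, a', h1, rfl⟩ := hf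
    cases a' with
    | zero =>
      obtain rfl : a = n + 1 := by omega
      exact ⟨1, 0, Submodule.zero_mem _, fun X => by simp⟩
    | succ a' =>
      exact ⟨0, _, Bn_mon (a := a) (a' := a') (by omega), fun X => by ring⟩
  | zero => exact ⟨0, 0, Submodule.zero_mem _, fun X => by simp⟩
  | add x y _ _ hx hy =>
    obtain ⟨c, h, hh, e⟩ := hx
    obtain ⟨c', h', hh', e'⟩ := hy
    refine ⟨c + c', h + h', Submodule.add_mem _ hh hh', fun X => ?_⟩
    simp only [Pi.add_apply, e, e']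
    ring
  | smul k x _ hx =>
    obtain ⟨c, h, hh, e⟩ := hx
    refine ⟨k * c, k • h, Submodule.smul_mem _ _ hh, fun X => ?_⟩
    simp only [Pi.smul_apply, smul_eq_mul, e]
    ring

theorem cont_X1 {r : V2 → ℂ} (hr : Continuous r) (h : ∀ X : V2, X 1 * r X = 0) (X : V2) :
    r X = 0 := by
  have h1 : Continuous fun ε : ℂ => r ![X 0, ε] := by
    refine hr.comp ?_
    refine continuous_pi fun i => ?_
    fin_cases i
    · exact continuous_const
    · exact continuous_id
  have h2 : (fun ε : ℂ => r ![X 0, ε]) = fun _ => 0 := by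
    refine h1.ext_on (dense_compl_singleton (0 : ℂ)) continuous_const ?_
    intro ε hε
    have := h ![X 0, ε]
    simp only [Matrix.cons_val_one, Matrix.cons_val_fin_one, mul_eq_zero] at this
    rcases this with h3 | h3
    · exact absurd h3 hε
    · exact h3
  have h3 := congrFun h2 (X 1)
  have h4 : ![X 0, X 1] = X := by
    ext i; fin_cases i <;> rfl
  simpa only [h4] using h3

theorem syz {n : ℕ} {u w : V2 → ℂ} (hu : u ∈ Bn (n + 1)) (hw : w ∈ Bn (n + 1))
    (h : ∀ X : V2, X 0 * u X + X 1 * w X = 0) :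
    ∃ g ∈ Bn n, (∀ X : V2, u X = X 1 * g X) ∧ ∀ X : V2, w X = -(X 0 * g X) := by
  obtain ⟨c, g, hg, e⟩ := Bn_split hu
  have hc : c = 0 := by
    have := h ![1, 0]
    rw [e] at this
    simpa using this
  subst hc
  have e' : ∀ X : V2, u X = X 1 * g X := fun X => by rw [e]; ring
  refine ⟨g, hg, e', fun X => ?_⟩
  have h1 : ∀ X : V2, X 1 * (w X + X 0 * g X) = 0 := by
    intro X
    have := h X
    rw [e'] at this
    linear_combination this
  have h2 : Continuous fun X : V2 => w X + X 0 * g X :=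
    (Bn_cont hw).add ((continuous_apply 0).mul (Bn_cont hg))
  have := cont_X1 h2 h1 X
  linear_combination this

/-- the two extreme coefficients can be split compatibly -/
theorem regQ (hI : StInterp) {M : Mats} {B : ℕ} {L : Fin 2 → V2 → V2 → ℂ} {K : V2 → V2 → ℂ}
    (C : Ctx M B L K) {D s t : ℕ} (hD : 20 ∣ D) (hs : 3 ≤ s) (ht : 3 ≤ t)
    {a0 aj : V2 → V2 → ℂ} (h0 : a0 ∈ H (D + (s + 2)) t) (hj : aj ∈ H (s + 2) (D + t))
    (hon : OnD M aj a0) :
    ∃ b0 c0 bj cj : V2 → V2 → ℂ, b0 ∈ H (D + (s + 1)) t ∧ c0 ∈ H (D + (s + 1)) t ∧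
      bj ∈ H (s + 1) (D + t) ∧ cj ∈ H (s + 1) (D + t) ∧ OnD M bj b0 ∧ OnD M cj c0 ∧
      (∀ X Y : V2, a0 X Y = X 0 * b0 X Y + X 1 * c0 X Y) ∧
      (∀ X Y : V2, aj X Y = X 0 * bj X Y + X 1 * cj X Y) := by
  obtain ⟨b0, hb0, c0, hc0, e0⟩ := H_split (s := D + (s + 1)) (H_cast h0 (by omega) rfl)
  obtain ⟨bj, hbj, cj, hcj, ej⟩ := H_split (s := s + 1) hj
  have hu : ∀ i, (fun X => b0 X (M i *ᵥ X) - bj X (M i *ᵥ X)) ∈ Bn ((D + s + t) + 1) := by
    intro i
    have h1 := Bn_cast (H_graph hb0 (M i)) (show D + (s + 1) + t = (D + s + t) + 1 by omega)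
    have h2 := Bn_cast (H_graph hbj (M i)) (show s + 1 + (D + t) = (D + s + t) + 1 by omega)
    exact Submodule.sub_mem _ h1 h2
  have hw : ∀ i, (fun X => c0 X (M i *ᵥ X) - cj X (M i *ᵥ X)) ∈ Bn ((D + s + t) + 1) := by
    intro i
    have h1 := Bn_cast (H_graph hc0 (M i)) (show D + (s + 1) + t = (D + s + t) + 1 by omega)
    have h2 := Bn_cast (H_graph hcj (M i)) (show s + 1 + (D + t) = (D + s + t) + 1 by omega)
    exact Submodule.sub_mem _ h1 h2
  have hsyz : ∀ i, ∀ X : V2, X 0 * (b0 X (M i *ᵥ X) - bj X (M i *ᵥ X))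
      + X 1 * (c0 X (M i *ᵥ X) - cj X (M i *ᵥ X)) = 0 := by
    intro i X
    have h1 := hon i X
    rw [e0, ej] at h1
    linear_combination -h1
  have hex : ∀ i, ∃ g ∈ Bn (D + s + t),
      (∀ X : V2, b0 X (M i *ᵥ X) - bj X (M i *ᵥ X) = X 1 * g X) ∧
      ∀ X : V2, c0 X (M i *ᵥ X) - cj X (M i *ᵥ X) = -(X 0 * g X) :=
    fun i => syz (hu i) (hw i) (hsyz i)
  choose g hg hgu hgw using hex
  have hcomp : Compat M t g := by
    intro i j hij X hX μ hμ
    have hroot := C.cfg.root i j hij X hX μ hμ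
    have hμD : μ ^ D = 1 := by
      obtain ⟨q, rfl⟩ := hD
      rw [pow_mul, hroot, one_pow]
    have h1 : X 1 * (g i X - μ ^ t * g j X) = 0 := by
      have a1 := hgu i X
      have a2 := hgu j X
      rw [hμ, H_homY hb0, H_homY hbj, pow_add, hμD] at a1
      linear_combination μ ^ t * a2 - a1
    have h2 : X 0 * (g i X - μ ^ t * g j X) = 0 := by
      have a1 := hgw i X
      have a2 := hgw j X
      rw [hμ, H_homY hc0, H_homY hcj, pow_add, hμD] at a1
      linear_combination a1 - μ ^ t * a2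
    by_contra hne
    have hne' : g i X - μ ^ t * g j X ≠ 0 := sub_ne_zero.2 hne
    apply hX
    funext l
    fin_cases l
    · exact (mul_eq_zero.1 h2).resolve_right hne'
    · exact (mul_eq_zero.1 h1).resolve_right hne'
  obtain ⟨d, hd, hdg⟩ := hI M C.cfg (D + s) t (by omega) ht g hg hcomp
  refine ⟨fun X Y => b0 X Y - X 1 * d X Y, fun X Y => c0 X Y + X 0 * d X Y, bj, cj,
    Submodule.sub_mem _ hb0 (H_Xmul 1 hd), Submodule.add_mem _ hc0 (H_Xmul 0 hd), hbj, hcj,
    ?_, ?_, ?_, ej⟩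
  · intro i X
    have := hgu i X
    simp only [hdg]
    linear_combination -this
  · intro i X
    have := hgw i X
    simp only [hdg]
    linear_combination -this
  · intro X Y
    rw [e0]
    ring

section
variable {M : Mats} {B : ℕ} {L : Fin 2 → V2 → V2 → ℂ} {K : V2 → V2 → ℂ}

theorem memM_X (hH : StMulH) (C : Ctx M B L K) (l : Fin 2) {j s t : ℕ} {a : ℕ → V2 → V2 → ℂ}
    (ha : MemM M B L j s t a) : MemM M B L j (s + 1) t (fun i X Y => X l * a i X Y) :=
  (hH M B L K C j s t a 1 0 _ (H_X1 l) ha).cast rfl rfl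

theorem reg_zero (s t : ℕ) : Reg M B L 0 s t := by
  intro a ha
  have h0 := ha.mem 0 le_rfl
  have h0' : a 0 ∈ H ((s + 1) + 1) t := H_cast h0 (by omega) (by omega)
  obtain ⟨b, hb, c, hc, e⟩ := H_split h0'
  refine ⟨_, _, memM_zero hb, memM_zero hc, fun i X Y => ?_⟩
  by_cases hi : i = 0
  · subst hi
    simp [e]
  · rw [ha.zero i (by omega)]
    simp [hi]

theorem lift_one (hM1 : StM1) (C : Ctx M B L K) (s t : ℕ) : Lift M B L 1 s t := by
  intro a0 h0 a1 h1 hon
  exact ⟨_, hM1 M B L K C s t a0 (H_cast h0 (by omega) rfl) a1 (H_cast h1 rfl (by omega)) hon,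
    by simp, by simp⟩

/-- splitting the extreme coefficients of an element and lifting them -/
theorem regQ_lift (hI : StInterp) (hOnD : StOnD) (C : Ctx M B L K) {j s t : ℕ}
    (hs : 3 ≤ s) (ht : 3 ≤ t) (hL : Lift M B L j (s + 1) t) {a : ℕ → V2 → V2 → ℂ}
    (ha : MemM M B L j (s + 2) t a) :
    ∃ b c, MemM M B L j (s + 1) t b ∧ MemM M B L j (s + 1) t c ∧
      (∀ X Y : V2, a 0 X Y = X 0 * b 0 X Y + X 1 * c 0 X Y) ∧
      (∀ X Y : V2, a j X Y = X 0 * b j X Y + X 1 * c j X Y) := by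
  have h0 := H_cast (ha.mem 0 (Nat.zero_le _)) (show (j - 0) * (B + 8) + (s + 2) =
    j * (B + 8) + (s + 2) by simp) (show 0 * (B + 8) + t = t by simp)
  have hj := H_cast (ha.mem j le_rfl) (show (j - j) * (B + 8) + (s + 2) = s + 2 by simp)
    (show j * (B + 8) + t = j * (B + 8) + t by simp)
  have hD : 20 ∣ j * (B + 8) := Dvd.dvd.mul_left C.dvd j
  obtain ⟨b0, c0, bj, cj, hb0, hc0, hbj, hcj, ob, oc, e0, ej⟩ :=
    regQ hI C hD hs ht h0 hj (hOnD M B L K C j _ _ a ha)
  obtain ⟨b, hb, hbe0, hbej⟩ := hL b0 hb0 bj hbj ob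
  obtain ⟨c, hc, hce0, hcej⟩ := hL c0 hc0 cj hcj oc
  refine ⟨b, c, hb, hc, ?_, ?_⟩
  · rw [hbe0, hce0]; exact e0
  · rw [hbej, hcej]; exact ej

theorem reg_one (hI : StInterp) (hOnD : StOnD) (hM1 : StM1) (C : Ctx M B L K) {s t : ℕ}
    (hs : 3 ≤ s) (ht : 3 ≤ t) : Reg M B L 1 s t := by
  intro a ha
  obtain ⟨b, c, hb, hc, e0, e1⟩ := regQ_lift hI hOnD C hs ht (lift_one hM1 C _ _) ha
  refine ⟨b, c, hb, hc, fun i X Y => ?_⟩
  rcases Nat.lt_or_ge 1 i with hi | hi
  · rw [ha.zero i hi, hb.zero i hi, hc.zero i hi]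
    simp
  · interval_cases i
    · exact e0 X Y
    · exact e1 X Y

theorem mulUV_lin (G0 G1 G : ℕ → V2 → V2 → ℂ)
    (e : ∀ i (X Y : V2), G i X Y = X 0 * G0 i X Y + X 1 * G1 i X Y) (i : ℕ) (X Y : V2) :
    mulUV M G i X Y = X 0 * mulUV M G0 i X Y + X 1 * mulUV M G1 i X Y := by
  cases i with
  | zero => simp [mulUV]
  | succ i =>
    simp only [mulUV, e]
    ring

theorem lift_step (hUV : StMulUV) (hH : StMulH) (hKer : StKer)
    (hDivX : StDivX) (C : Ctx M B L K) {j s t : ℕ} (hs : 3 ≤ s)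
    (hR : Reg M B L j (s + B) (t + B)) (hL : Lift M B L (j + 2) (s + 1) t) :
    Lift M B L (j + 2) s t := by
  intro a0 h0 aj hj hon
  have h0' : ∀ l : Fin 2, (fun X Y : V2 => X l * a0 X Y) ∈ H ((j + 2) * (B + 8) + (s + 1)) t :=
    fun l => H_cast (H_Xmul l h0) (by omega) rfl
  have hj' : ∀ l : Fin 2, (fun X Y : V2 => X l * aj X Y) ∈ H (s + 1) ((j + 2) * (B + 8) + t) :=
    fun l => H_Xmul l hj
  have hon' : ∀ l : Fin 2, OnD M (fun X Y : V2 => X l * aj X Y) (fun X Y : V2 => X l * a0 X Y) :=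
    fun l i X => by simp only [hon i X]
  obtain ⟨F0, hF0, e00, e0j⟩ := hL _ (h0' 0) _ (hj' 0) (hon' 0)
  obtain ⟨F1, hF1, e10, e1j⟩ := hL _ (h0' 1) _ (hj' 1) (hon' 1)
  have hP := ((memM_X hH C 1 hF0).sub (memM_X hH C 0 hF1))
  obtain ⟨G, hG, hPG⟩ := hKer M B L K C j _ _ _ hP (by
    funext X Y
    simp only [Pi.sub_apply, e00, e10, Pi.zero_apply]
    ring) (by
    funext X Y
    simp only [Pi.sub_apply, e0j, e1j, Pi.zero_apply]
    ring)
  obtain ⟨G0, G1, hG0, hG1, eG⟩ := hR G (hG.cast (by omega) rfl)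
  have hA : MemM M B L (j + 2) (s + 1) t (F0 - mulUV M G1) :=
    hF0.sub (hUV M B L K C j (s + 1) t G1 (hG1.cast (by omega) rfl)).1
  have hB : MemM M B L (j + 2) (s + 1) t (F1 + mulUV M G0) :=
    hF1.add (hUV M B L K C j (s + 1) t G0 (hG0.cast (by omega) rfl)).1
  have hPG' : ∀ i (X Y : V2), X 1 * F0 i X Y - X 0 * F1 i X Y = mulUV M G i X Y := by
    intro i X Y
    have := congrFun (congrFun (congrFun hPG i) X) Y
    simpa using this
  obtain ⟨c, hc, ec⟩ := hDivX M B L K C (j + 2) s t _ _ hA hB (by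
    intro i X Y
    have h1 := hPG' i X Y
    rw [mulUV_lin G0 G1 G eG] at h1
    simp only [Pi.sub_apply, Pi.add_apply]
    linear_combination h1)
  have hext : ∀ (f g : V2 → V2 → ℂ) (s' t' : ℕ), 1 ≤ s' → f ∈ H s' t' → g ∈ H s' t' →
      (∀ X Y : V2, X 0 * f X Y = X 0 * g X Y) → (∀ X Y : V2, X 1 * f X Y = X 1 * g X Y) →
      f = g := by
    intro f g s' t' hs' hf hg k0 k1
    funext X Y
    by_cases hX : X = 0
    · rw [H_zeroX hs' hf X Y hX, H_zeroX hs' hg X Y hX]
    · by_contra hne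
      apply hX
      funext l
      fin_cases l
      · by_contra hl
        exact hne (mul_left_cancel₀ hl (k0 X Y))
      · by_contra hl
        exact hne (mul_left_cancel₀ hl (k1 X Y))
  refine ⟨c, hc, ?_, ?_⟩
  · refine hext _ _ _ _ (by omega) (H_cast (hc.mem 0 (Nat.zero_le _)) (show _ =
      (j + 2) * (B + 8) + s by simp) (show _ = t by simp)) h0 ?_ ?_
    · intro X Y
      have h1 := (ec 0 X Y).1
      simp only [Pi.sub_apply, e00, mulUV, Pi.zero_apply, sub_zero] at h1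
      exact h1.symm
    · intro X Y
      have h1 := (ec 0 X Y).2
      simp only [Pi.add_apply, e10, mulUV, Pi.zero_apply, add_zero] at h1
      exact h1.symm
  · refine hext _ _ _ _ (by omega) (H_cast (hc.mem (j + 2) le_rfl) (show _ =
      s by simp) rfl) hj ?_ ?_
    · intro X Y
      have h1 := (ec (j + 2) X Y).1
      have h2 : mulUV M G1 (j + 2) X Y = 0 := by
        show dl M X Y ^ 2 * G1 (j + 1) X Y = 0
        rw [hG1.zero (j + 1) (by omega)]
        simp
      simp only [Pi.sub_apply, e0j, h2, sub_zero] at h1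
      exact h1.symm
    · intro X Y
      have h1 := (ec (j + 2) X Y).2
      have h2 : mulUV M G0 (j + 2) X Y = 0 := by
        show dl M X Y ^ 2 * G0 (j + 1) X Y = 0
        rw [hG0.zero (j + 1) (by omega)]
        simp
      simp only [Pi.add_apply, e1j, h2, add_zero] at h1
      exact h1.symm

theorem reg_step (hI : StInterp) (hUV : StMulUV) (hH : StMulH) (hOnD : StOnD) (hKer : StKer)
    (C : Ctx M B L K) {j s t : ℕ} (hs : 3 ≤ s) (ht : 3 ≤ t)
    (hR : Reg M B L j (s + B) (t + B)) (hL : Lift M B L (j + 2) (s + 1) t) :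
    Reg M B L (j + 2) s t := by
  intro a ha
  obtain ⟨b, c, hb, hc, e0, ej⟩ := regQ_lift hI hOnD C hs ht hL ha
  have hP := (ha.sub (memM_X hH C 0 hb)).sub (memM_X hH C 1 hc)
  obtain ⟨G, hG, hPG⟩ := hKer M B L K C j _ _ _ hP (by
    funext X Y
    simp only [Pi.sub_apply, e0, Pi.zero_apply]
    ring) (by
    funext X Y
    simp only [Pi.sub_apply, ej, Pi.zero_apply]
    ring)
  obtain ⟨G0, G1, hG0, hG1, eG⟩ := hR G (hG.cast (by omega) rfl)
  refine ⟨b + mulUV M G0, c + mulUV M G1,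
    hb.add (hUV M B L K C j (s + 1) t G0 (hG0.cast (by omega) rfl)).1,
    hc.add (hUV M B L K C j (s + 1) t G1 (hG1.cast (by omega) rfl)).1, ?_⟩
  intro i X Y
  have h1 := congrFun (congrFun (congrFun hPG i) X) Y
  rw [mulUV_lin G0 G1 G eG] at h1
  simp only [Pi.sub_apply] at h1
  simp only [Pi.add_apply]
  linear_combination h1

end

end LR

/-- the main double induction -/
theorem lr : StLR := by
  intro hI hDiv hUV hH hOnD hKer hDivX hM1 hBig hE hF M B L K C j
  induction j using Nat.strong_induction_on with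
  | _ j ih =>
    match j, ih with
    | 0, _ =>
      intro s t _ _
      exact ⟨fun h => absurd h (by omega), LR.reg_zero s t⟩
    | 1, _ =>
      intro s t hs ht
      exact ⟨fun _ => LR.lift_one hM1 C s t, LR.reg_one hI hOnD hM1 C hs ht⟩
    | j + 2, ih =>
      have hlift : ∀ s t, 3 ≤ s → 3 ≤ t → Lift M B L (j + 2) s t := by
        obtain ⟨S, hS⟩ := hBig hI hDiv hE hF hH hOnD M B L K C (j + 2) (by omega)
        have key : ∀ n s t, 3 ≤ s → 3 ≤ t → S ≤ s + n → Lift M B L (j + 2) s t := by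
          intro n
          induction n with
          | zero => exact fun s t _ ht h => hS s t h ht
          | succ n ihn =>
            intro s t hs ht h
            exact LR.lift_step hUV hH hKer hDivX C hs
              (ih j (by omega) (s + B) (t + B) (by omega) (by omega)).2
              (ihn (s + 1) t (by omega) ht (by omega))
        exact fun s t hs ht => key S s t hs ht (by omega)
      intro s t hs ht
      exact ⟨fun _ => hlift s t hs ht, LR.reg_step hI hUV hH hOnD hKer C hs ht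
        (ih j (by omega) (s + B) (t + B) (by omega) (by omega)).2
        (hlift (s + 1) t (by omega) ht)⟩

end Crest.Agent.R258
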