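import Crest.Agent.R258.Lib

set_option autoImplicit false

noncomputable section

namespace Crest.Agent.R258

open Crest.AlgGeometry.QuadricBundle
open Matrix Finset
open scoped ComplexConjugate ComplexOrder Topology

/-- divisibility in a form without restriction on the degrees -/
theorem M1.div_any (hD : StDiv) {M : Mats} (hM : Cfg M) {s t : ℕ} {f : V2 → V2 → ℂ}
    (hf : f ∈ H s t) (h : OnD M f 0) :
    ∃ s' t', ∃ g ∈ H s' t', ∀ X Y : V2, f X Y = dl M X Y * g X Y := by
  by_cases hst : 4 ≤ s ∧ 4 ≤ t
  · obtain ⟨s', rfl⟩ := Nat.exists_eq_add_of_le' hst.1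
    obtain ⟨t', rfl⟩ := Nat.exists_eq_add_of_le' hst.2
    obtain ⟨g, hg, hg'⟩ := (hD M hM).1 s' t' f hf h
    exact ⟨s', t', g, hg, hg'⟩
  · have : f = 0 := (hD M hM).2 s t (by omega) f hf h
    subst this
    exact ⟨0, 0, 0, Submodule.zero_mem _, fun X Y => by simp⟩

theorem m1 : StDiv → StM1 := by
  intro hD M B L K hc s t a0 h0 a1 h1 hon
  refine ⟨fun i hi => ?_, fun i hi => ?_, fun α => ?_⟩
  · rcases i with _ | _ | i
    · simpa using H_cast h0 (by ring) (by ring)
    · simpa using H_cast h1 (by ring) (by ring)
    · omega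
  · have e0 : i ≠ 0 := by omega
    have e1 : i ≠ 1 := by omega
    simp [e0, e1]
  · -- X_{1-l}^N a1 - L_l a0
    set l := α.1 with hl
    have hf : (fun X Y : V2 => X (1 - l) ^ (B + 11) * a1 X Y - L l X Y * a0 X Y)
        ∈ H (s + (B + 11)) (B + 8 + t) := by
      refine Submodule.sub_mem _ (x := fun X Y => X (1 - l) ^ (B + 11) * a1 X Y)
        (y := fun X Y => L l X Y * a0 X Y) ?_ ?_
      · exact H_XpowMul (1 - l) (B + 11) h1
      · exact H_cast (H_mul (hc.lk.hL l) h0) (by omega) (by omega)
    obtain ⟨s', t', g, hg, hg'⟩ := M1.div_any hD hc.cfg hf (by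
      intro i X
      simp only [Pi.zero_apply]
      rw [hon i X, hc.lk.hLM l i X]
      ring)
    refine ⟨fun i => if i = 0 then res a0 α else if i = 1 then res g α else 0, fun i => ?_,
      fun p U V => ?_⟩
    · by_cases e0 : i = 0
      · subst e0; simpa using res_diff h0 α
      · by_cases e1 : i = 1
        · subst e1; simpa using res_diff hg α
        · simp only [e0, e1, if_false]; exact differentiable_const (0 : ℂ)
    · have h3 : res a1 α p - res (L α.1) α p * res a0 α p = res (dl M) α p * res g α p := by
        have := hg' (cv α.1 (p 0)) (cv α.2 (p 1))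
        rw [← hl, cv_other] at this
        simp only [one_pow, one_mul] at this
        unfold res
        rw [← hl]
        exact this
      simp only [Finset.sum_range_succ, Finset.sum_range_zero, zero_add, Nat.reduceAdd]
      simp
      linear_combination U * h3

end Crest.Agent.R258
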