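import Crest.Agent.R258.Lib

set_option autoImplicit false

noncomputable section

namespace Crest.Agent.R258

open Crest.AlgGeometry.QuadricBundle
open Matrix Finset
open scoped ComplexConjugate ComplexOrder Topology

/-! `OnD` -/

theorem MCL.loc_extreme {M : Mats} {L : Fin 2 → V2 → V2 → ℂ} {j : ℕ} {a : ℕ → V2 → V2 → ℂ}
    {α : Chart} {c : ℕ → V2 → ℂ} (h : Loc M L j a α c) (p : V2) (hd : res (dl M) α p = 0) :
    res (a j) α p = res (L α.1) α p ^ j * res (a 0) α p := by
  have h1 := h.2 p 1 0
  have h2 := h.2 p 0 1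
  simp only [hd, mul_one, mul_zero, zero_add, add_zero, one_pow] at h1 h2
  have e1 : ∑ i ∈ range (j + 1), res (a i) α p * (0 : ℂ) ^ (j - i) = res (a j) α p := by
    rw [Finset.sum_range_succ]
    rw [Finset.sum_eq_zero]
    · simp
    · intro i hi
      have : j - i ≠ 0 := by have := Finset.mem_range.1 hi; omega
      simp [this]
  have e2 : ∑ i ∈ range (j + 1), c i p * (0 : ℂ) ^ i * res (L α.1) α p ^ (j - i)
      = c 0 p * res (L α.1) α p ^ j := by
    rw [Finset.sum_range_succ', Finset.sum_eq_zero]
    · simp
    · intro i _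
      simp
  have e3 : ∑ i ∈ range (j + 1), res (a i) α p * (0 : ℂ) ^ i = res (a 0) α p := by
    rw [Finset.sum_range_succ', Finset.sum_eq_zero]
    · simp
    · intro i _
      simp
  have e4 : ∑ i ∈ range (j + 1), c i p * (0 : ℂ) ^ i = c 0 p := by
    rw [Finset.sum_range_succ', Finset.sum_eq_zero]
    · simp
    · intro i _
      simp
  rw [e1, e2] at h1
  rw [e3, e4] at h2
  rw [h1, h2]
  ring

theorem ond : StOnD := by
  intro M B L K hc j s t a ha i X
  by_cases hX : X = 0
  · subst hX
    rcases Nat.eq_zero_or_pos j with rfl | hj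
    · rfl
    · have h0 := ha.mem 0 (Nat.zero_le _)
      have hj' := ha.mem j le_rfl
      have e0 := H_hom h0 0 0 0 0
      have ej := H_hom hj' 0 0 0 0
      simp only [smul_zero] at e0 ej
      have k1 : (j - 0) * (B + 8) + s ≠ 0 := by
        have : 0 < (j - 0) * (B + 8) := by positivity
        omega
      have k2 : j * (B + 8) + t ≠ 0 := by
        have : 0 < j * (B + 8) := by positivity
        omega
      rw [zero_pow k1] at e0
      rw [zero_pow k2] at ej
      simp only [mulVec_zero]
      rw [e0, ej]
      simp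
  · obtain ⟨l, hl⟩ := exists_chart X hX
    obtain ⟨k, hk⟩ := exists_chart (M i *ᵥ X) (hc.cfg.mulVec_ne i hX)
    obtain ⟨c, hcl⟩ := ha.loc (l, k)
    set p : V2 := ![X l / X (1 - l), (M i *ᵥ X) k / (M i *ᵥ X) (1 - k)] with hp
    have hd : res (dl M) (l, k) p = 0 := by
      have := eq_res (dl_mem M) l k X (M i *ᵥ X) hl hk
      rw [dl_graph] at this
      have h' : X (1 - l) ^ 4 * (M i *ᵥ X) (1 - k) ^ 4 ≠ 0 :=
        mul_ne_zero (pow_ne_zero _ hl) (pow_ne_zero _ hk)
      exact (mul_eq_zero.1 this.symm).resolve_left h'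
    have h1 := MCL.loc_extreme hcl p hd
    have h2 := hc.lk.res_graph l k i X hl hk
    rw [← hp] at h2
    rw [eq_res (ha.mem j le_rfl) l k X (M i *ᵥ X) hl hk,
      eq_res (ha.mem 0 (Nat.zero_le _)) l k X (M i *ᵥ X) hl hk, ← hp, h1]
    simp only [Nat.sub_self, zero_mul, zero_add, Nat.sub_zero]
    have h3 : (res (L l) (l, k) p * (M i *ᵥ X) (1 - k) ^ (B + 8)) ^ j
        = (X (1 - l) ^ (B + 8)) ^ j := by rw [h2]
    rw [mul_pow, ← pow_mul, ← pow_mul, mul_comm (B + 8) j] at h3
    simp only [pow_add (X (1 - l)), pow_add ((M i *ᵥ X) (1 - k))]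
    rw [← h3]
    ring

/-- general multiplication by `b ∈ H u w` -/
theorem mulH : StMulH := by
  intro M B L K hc j s t a u w b hb ha
  refine ⟨fun i hi => ?_, fun i hi => ?_, fun α => ?_⟩
  · exact H_cast (H_mul hb (ha.mem i hi)) (by omega) (by omega)
  · funext X Y
    simp [ha.zero i hi]
  · obtain ⟨c, hcl⟩ := ha.loc α
    refine ⟨fun i p => res b α p * c i p, fun i => ?_, fun p U V => ?_⟩
    · exact (res_diff hb α).mul (hcl.1 i)
    · have := hcl.2 p U V
      calc ∑ i ∈ range (j + 1), res (fun X Y => b X Y * a i X Y) α p * U ^ i * V ^ (j - i)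
          = res b α p * ∑ i ∈ range (j + 1), res (a i) α p * U ^ i * V ^ (j - i) := by
            rw [Finset.mul_sum]
            refine Finset.sum_congr rfl fun i _ => ?_
            rw [res_mul]; ring
        _ = _ := by
            rw [this, Finset.mul_sum]
            refine Finset.sum_congr rfl fun i _ => ?_
            ring

/-- multiplication by `e` : local version -/
theorem MCL.locE {M : Mats} {L : Fin 2 → V2 → V2 → ℂ} {j : ℕ} {a : ℕ → V2 → V2 → ℂ}
    {α : Chart} {c : ℕ → V2 → ℂ} (h : Loc M L j a α c) :
    Loc M L (j + 1) (mulE M a) α (fun i => if i = 0 then 0 else c (i - 1)) := by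
  refine ⟨fun i => ?_, fun p U V => ?_⟩
  · by_cases hi : i = 0
    · subst hi; simpa using differentiable_const (0 : ℂ)
    · simpa [hi] using h.1 (i - 1)
  · rw [Finset.sum_range_succ', Finset.sum_range_succ' (n := j + 1)]
    have e0 : res (mulE M a 0) α p = 0 := rfl
    simp only [e0, zero_mul, add_zero, if_true, Pi.zero_apply, Nat.succ_ne_zero, if_false,
      Nat.add_sub_cancel, Nat.add_sub_add_right]
    have := h.2 p U V
    have e1 : ∀ i, res (mulE M a (i + 1)) α p = res (dl M) α p * res (a i) α p := fun i => rfl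
    calc ∑ i ∈ range (j + 1), res (mulE M a (i + 1)) α p * U ^ (i + 1) * V ^ (j - i)
        = (res (dl M) α p * U) * ∑ i ∈ range (j + 1), res (a i) α p * U ^ i * V ^ (j - i) := by
          rw [Finset.mul_sum]
          refine Finset.sum_congr rfl fun i _ => ?_
          rw [e1]; ring
      _ = _ := by
          rw [this, Finset.mul_sum]
          refine Finset.sum_congr rfl fun i _ => ?_
          ring

theorem mulE' : StMulE := by
  intro M B L K hc j s t a ha
  refine ⟨fun i hi => ?_, fun i hi => ?_, fun α => ?_⟩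
  · rcases i with _ | i
    · exact Submodule.zero_mem _
    · have h := dl_mul (M := M) (ha.mem i (by omega))
      refine H_cast h ?_ ?_
      · have : j + 1 - (i + 1) = j - i := by omega
        rw [this]
        omega
      · ring
  · rcases i with _ | i
    · rfl
    · funext X Y
      simp [mulE, ha.zero i (by omega)]
  · obtain ⟨c, hcl⟩ := ha.loc α
    exact ⟨_, MCL.locE hcl⟩

/-- local version of the multiplication by `A V + (A L + δ D) U = A f + D e` -/
theorem MCL.locF {M : Mats} {L : Fin 2 → V2 → V2 → ℂ} {j : ℕ} {a : ℕ → V2 → V2 → ℂ}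
    {α : Chart} {c : ℕ → V2 → ℂ} (h : Loc M L j a α c) (haz : ∀ i, j < i → a i = 0)
    (A D : V2 → ℂ) (hA : Differentiable ℂ A) (hD : Differentiable ℂ D)
    (a' : ℕ → V2 → V2 → ℂ)
    (h0 : ∀ p, res (a' 0) α p = A p * res (a 0) α p)
    (hs : ∀ i p, res (a' (i + 1)) α p = A p * res (a (i + 1)) α p
      + (A p * res (L α.1) α p + res (dl M) α p * D p) * res (a i) α p) :
    Loc M L (j + 1) a' α (fun i p => (if i ≤ j then A p * c i p else 0) +
      (if 1 ≤ i then D p * c (i - 1) p else 0)) := by
  refine ⟨fun i => ?_, fun p U V => ?_⟩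
  · refine Differentiable.add ?_ ?_
    · by_cases hi : i ≤ j
      · simp only [hi, if_true]; exact hA.mul (h.1 i)
      · simp only [hi, if_false]; exact differentiable_const (0 : ℂ)
    · by_cases hi : 1 ≤ i
      · simp only [hi, if_true]; exact hD.mul (h.1 (i - 1))
      · simp only [hi, if_false]; exact differentiable_const (0 : ℂ)
  · have key := h.2 p U V
    set Lp := res (L α.1) α p
    set dp := res (dl M) α p
    have haj : res (a (j + 1)) α p = 0 := by rw [haz (j + 1) (by omega)]; rfl
    -- LHS
    have hL : ∑ i ∈ range (j + 1 + 1), res (a' i) α p * U ^ i * V ^ (j + 1 - i)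
        = (A p * V + (A p * Lp + dp * D p) * U) *
          ∑ i ∈ range (j + 1), res (a i) α p * U ^ i * V ^ (j - i) := by
      have s1 : ∑ i ∈ range (j + 1 + 1), res (a' i) α p * U ^ i * V ^ (j + 1 - i)
          = ∑ i ∈ range (j + 1 + 1), A p * res (a i) α p * U ^ i * V ^ (j + 1 - i)
            + ∑ i ∈ range (j + 1), (A p * Lp + dp * D p) * res (a i) α p * U ^ (i + 1)
                * V ^ (j - i) := by
        rw [Finset.sum_range_succ' (n := j + 1), Finset.sum_range_succ' (n := j + 1), h0,
          add_right_comm, ← Finset.sum_add_distrib]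
        congr 1
        refine Finset.sum_congr rfl fun i _ => ?_
        rw [hs, Nat.add_sub_add_right]
        ring
      rw [s1, Finset.sum_range_succ, haj, add_mul, Finset.mul_sum, Finset.mul_sum]
      simp only [mul_zero, zero_mul, add_zero]
      congr 1
      · refine Finset.sum_congr rfl fun i hi => ?_
        have : j + 1 - i = (j - i) + 1 := by have := Finset.mem_range.1 hi; omega
        rw [this, pow_succ]; ring
      · refine Finset.sum_congr rfl fun i hi => ?_
        ring
    rw [hL, key]
    have s2 : ∑ i ∈ range (j + 1 + 1), ((if i ≤ j then A p * c i p else 0) +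
        (if 1 ≤ i then D p * c (i - 1) p else 0)) * (dp * U) ^ i * (V + Lp * U) ^ (j + 1 - i)
        = ∑ i ∈ range (j + 1 + 1), (if i ≤ j then A p * c i p else 0) * (dp * U) ^ i
            * (V + Lp * U) ^ (j + 1 - i)
          + ∑ i ∈ range (j + 1 + 1), (if 1 ≤ i then D p * c (i - 1) p else 0) * (dp * U) ^ i
            * (V + Lp * U) ^ (j + 1 - i) := by
      rw [← Finset.sum_add_distrib]
      refine Finset.sum_congr rfl fun i _ => ?_
      ring
    rw [s2]
    have t1 : ∑ i ∈ range (j + 1 + 1), (if i ≤ j then A p * c i p else 0) * (dp * U) ^ i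
            * (V + Lp * U) ^ (j + 1 - i)
        = A p * (V + Lp * U) *
          ∑ i ∈ range (j + 1), c i p * (dp * U) ^ i * (V + Lp * U) ^ (j - i) := by
      rw [Finset.sum_range_succ (n := j + 1)]
      have z1 : ¬ (j + 1 ≤ j) := by omega
      rw [if_neg z1, Finset.mul_sum]
      simp only [zero_mul, add_zero]
      refine Finset.sum_congr rfl fun i hi => ?_
      have hi' := Finset.mem_range.1 hi
      have : j + 1 - i = (j - i) + 1 := by omega
      have h3 : i ≤ j := by omega
      rw [this, pow_succ, if_pos h3]; ring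
    have t2 : ∑ i ∈ range (j + 1 + 1), (if 1 ≤ i then D p * c (i - 1) p else 0) * (dp * U) ^ i
            * (V + Lp * U) ^ (j + 1 - i)
        = D p * (dp * U) *
          ∑ i ∈ range (j + 1), c i p * (dp * U) ^ i * (V + Lp * U) ^ (j - i) := by
      rw [Finset.sum_range_succ' (n := j + 1)]
      have z2 : ¬ ((1:ℕ) ≤ 0) := by omega
      rw [if_neg z2, Finset.mul_sum]
      simp only [zero_mul, add_zero]
      refine Finset.sum_congr rfl fun i hi => ?_
      have h3 : 1 ≤ i + 1 := by omega
      rw [if_pos h3, Nat.add_sub_cancel, Nat.add_sub_add_right]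
      ring
    rw [t1, t2]
    ring

theorem mulF' : StMulF := by
  intro M B L K hc j s t a l ha
  refine ⟨fun i hi => ?_, fun i hi => ?_, fun α => ?_⟩
  · rcases i with _ | i
    · have h := H_XpowMul (1 - l) (B + 11) (ha.mem 0 (Nat.zero_le _))
      refine H_cast h ?_ ?_
      · simp only [Nat.sub_zero]; ring
      · ring
    · refine Submodule.add_mem _ (x := fun X Y => X (1 - l) ^ (B + 11) * a (i + 1) X Y)
        (y := fun X Y => L l X Y * a i X Y) ?_ ?_
      · by_cases hi' : i + 1 ≤ j
        · have h := H_XpowMul (1 - l) (B + 11) (ha.mem (i + 1) hi')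
          refine H_cast h ?_ ?_
          · have : j + 1 - (i + 1) = (j - (i + 1)) + 1 := by omega
            rw [this]; ring
          · rfl
        · have : a (i + 1) = 0 := ha.zero _ (by omega)
          rw [this]
          convert Submodule.zero_mem _ using 3
          simp
      · have h := H_mul (hc.lk.hL l) (ha.mem i (by omega))
        refine H_cast h ?_ ?_
        · have : j + 1 - (i + 1) = j - i := by omega
          rw [this]; omega
        · ring
  · rcases i with _ | i
    · omega
    · funext X Y
      simp [mulF, ha.zero i (by omega), ha.zero (i + 1) (by omega)]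
  · obtain ⟨c, hcl⟩ := ha.loc α
    by_cases hl : α.1 = l
    · -- X_{1-l} = 1
      refine ⟨_, MCL.locF hcl ha.zero (fun _ => 1) (fun _ => 0) (differentiable_const _)
        (differentiable_const _) _ ?_ ?_⟩
      · intro p
        show cv α.1 (p 0) (1 - l) ^ (B + 11) * res (a 0) α p = _
        rw [hl, cv_other]; simp
      · intro i p
        show cv α.1 (p 0) (1 - l) ^ (B + 11) * res (a (i + 1)) α p + res (L l) α p * res (a i) α p = _
        rw [hl, cv_other]; simp
    · -- other chart
      have hl' : α.1 = 1 - l := by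
        rcases α with ⟨a', b'⟩
        fin_cases a' <;> fin_cases l <;> simp_all
      refine ⟨_, MCL.locF hcl ha.zero (fun p => p 0 ^ (B + 11))
        (fun p => (if l = 0 then 1 else -1) * res K α p) (by fun_prop)
        ((res_diff hc.lk.hK α).const_mul _) _ ?_ ?_⟩
      · intro p
        show cv α.1 (p 0) (1 - l) ^ (B + 11) * res (a 0) α p = _
        rw [hl', cv_self]
      · intro i p
        show cv α.1 (p 0) (1 - l) ^ (B + 11) * res (a (i + 1)) α p + res (L l) α p * res (a i) α p = _
        have h4 := hc.lk.eq (cv α.1 (p 0)) (cv α.2 (p 1))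
        have h5 : res (L l) α p = p 0 ^ (B + 11) * res (L α.1) α p +
            res (dl M) α p * ((if l = 0 then 1 else -1) * res K α p) := by
          unfold res
          rw [hl'] at h4 ⊢
          fin_cases l
          · simp at h4 ⊢
            linear_combination h4
          · simp at h4 ⊢
            linear_combination -h4
        rw [h5, hl', cv_self, ← hl']

theorem mulUV' : StMulUV := by
  intro M B L K hc j s t a ha
  have hloc : ∀ α c, Loc M L j a α c → Loc M L (j + 2) (mulUV M a) α (uvc M L α j c) := by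
    intro α c hcl
    refine ⟨fun i => ?_, fun p U V => ?_⟩
    · refine Differentiable.sub ?_ ?_
      · by_cases hi : 1 ≤ i ∧ i ≤ j + 1
        · simp only [hi, and_self, if_true]
          exact (res_diff (dl_mem M) α).mul (hcl.1 _)
        · simp only [hi, if_false]; exact differentiable_const (0 : ℂ)
      · by_cases hi : 2 ≤ i
        · simp only [hi, if_true]
          exact (res_diff (hc.lk.hL _) α).mul (hcl.1 _)
        · simp only [hi, if_false]; exact differentiable_const (0 : ℂ)
    · have key := hcl.2 p U V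
      set Lp := res (L α.1) α p with hLp
      set dp := res (dl M) α p with hdp
      have haj : ∀ i, j < i → res (a i) α p = 0 := fun i hi => by rw [ha.zero i hi]; rfl
      have hL : ∑ i ∈ range (j + 2 + 1), res (mulUV M a i) α p * U ^ i * V ^ (j + 2 - i)
          = dp ^ 2 * U * V * ∑ i ∈ range (j + 1), res (a i) α p * U ^ i * V ^ (j - i) := by
        rw [Finset.sum_range_succ' (n := j + 2), Finset.sum_range_succ (n := j + 1)]
        have e0 : res (mulUV M a 0) α p = 0 := rfl
        have e1 : ∀ i, res (mulUV M a (i + 1)) α p = dp ^ 2 * res (a i) α p := fun i => rfl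
        rw [e0, e1 (j + 1), haj (j + 1) (by omega)]
        simp only [mul_zero, zero_mul, add_zero]
        rw [Finset.mul_sum]
        refine Finset.sum_congr rfl fun i hi => ?_
        have : j + 2 - (i + 1) = (j - i) + 1 := by have := Finset.mem_range.1 hi; omega
        rw [e1, this, pow_succ V]; ring
      rw [hL, key]
      unfold uvc
      rw [← hLp, ← hdp]
      have s2 : ∑ i ∈ range (j + 2 + 1), ((if 1 ≤ i ∧ i ≤ j + 1 then dp * c (i - 1) p else 0)
            - (if 2 ≤ i then Lp * c (i - 2) p else 0)) * (dp * U) ^ i * (V + Lp * U) ^ (j + 2 - i)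
          = ∑ i ∈ range (j + 2 + 1), (if 1 ≤ i ∧ i ≤ j + 1 then dp * c (i - 1) p else 0)
              * (dp * U) ^ i * (V + Lp * U) ^ (j + 2 - i)
            - ∑ i ∈ range (j + 2 + 1), (if 2 ≤ i then Lp * c (i - 2) p else 0) * (dp * U) ^ i
              * (V + Lp * U) ^ (j + 2 - i) := by
        rw [← Finset.sum_sub_distrib]
        refine Finset.sum_congr rfl fun i _ => ?_
        ring
      rw [s2]
      have t1 : ∑ i ∈ range (j + 2 + 1), (if 1 ≤ i ∧ i ≤ j + 1 then dp * c (i - 1) p else 0)
              * (dp * U) ^ i * (V + Lp * U) ^ (j + 2 - i)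
          = dp * (dp * U) * (V + Lp * U) *
            ∑ i ∈ range (j + 1), c i p * (dp * U) ^ i * (V + Lp * U) ^ (j - i) := by
        rw [Finset.sum_range_succ (n := j + 2), Finset.sum_range_succ' (n := j + 1)]
        have z1 : ¬ (1 ≤ j + 2 ∧ j + 2 ≤ j + 1) := by omega
        have z2 : ¬ ((1:ℕ) ≤ 0 ∧ 0 ≤ j + 1) := by omega
        simp only [z1, z2, if_false, zero_mul, add_zero]
        rw [Finset.mul_sum]
        refine Finset.sum_congr rfl fun i hi => ?_
        have hi' := Finset.mem_range.1 hi
        have z3 : 1 ≤ i + 1 ∧ i + 1 ≤ j + 1 := by omega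
        have z4 : j + 2 - (i + 1) = (j - i) + 1 := by omega
        rw [if_pos z3, Nat.add_sub_cancel, z4, pow_succ (V + Lp * U)]
        ring
      have t2 : ∑ i ∈ range (j + 2 + 1), (if 2 ≤ i then Lp * c (i - 2) p else 0) * (dp * U) ^ i
              * (V + Lp * U) ^ (j + 2 - i)
          = Lp * (dp * U) ^ 2 *
            ∑ i ∈ range (j + 1), c i p * (dp * U) ^ i * (V + Lp * U) ^ (j - i) := by
        rw [Finset.sum_range_succ' (n := j + 2), Finset.sum_range_succ' (n := j + 1)]
        have z1 : ¬ (2 ≤ 0 + 1) := by omega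
        have z2 : ¬ ((2:ℕ) ≤ 0) := by omega
        simp only [z1, z2, if_false, zero_mul, add_zero]
        rw [Finset.mul_sum]
        refine Finset.sum_congr rfl fun i hi => ?_
        have z3 : 2 ≤ i + 1 + 1 := by omega
        have z4 : j + 2 - (i + 1 + 1) = j - i := by omega
        have z5 : i + 1 + 1 - 2 = i := by omega
        rw [if_pos z3, z4, z5]
        ring
      rw [t1, t2]
      ring
  refine ⟨⟨fun i hi => ?_, fun i hi => ?_, fun α => ?_⟩, hloc⟩
  · rcases i with _ | i
    · exact Submodule.zero_mem _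
    · by_cases hi' : i ≤ j
      · have h := H_mul (H_pow (dl_mem M) 2) (ha.mem i hi')
        refine H_cast h ?_ ?_
        · have : j + 2 - (i + 1) = (j - i) + 1 := by omega
          rw [this]; ring
        · ring
      · have : mulUV M a (i + 1) = 0 := by
          funext X Y
          simp [mulUV, ha.zero i (by omega)]
        rw [this]
        exact Submodule.zero_mem _
  · rcases i with _ | i
    · rfl
    · funext X Y
      simp [mulUV, ha.zero i (by omega)]
  · obtain ⟨c, hcl⟩ := ha.loc α
    exact ⟨_, hloc α c hcl⟩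

theorem mulE_ : StMulE := mulE'
theorem mulF_ : StMulF := mulF'
theorem mulUV_ : StMulUV := mulUV'

end Crest.Agent.R258
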