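import Crest.Agent.R258.Defs

/-! NLM: Griffiths positivity implies that `|ℓ|^2_{H^*}/|G|` has no local maximum along a
complex line. -/

set_option autoImplicit false

open Filter Topology
open scoped ComplexConjugate ComplexOrder
open Crest.AlgGeometry.QuadricBundle

namespace Crest.Agent.R258

/-- second derivative test: a local minimum has nonnegative second derivative -/
theorem nlm_second {f : ℝ → ℝ} (hf : ContinuousAt f 0) (hmin : IsLocalMin f 0) :
    0 ≤ deriv (deriv f) 0 := by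
  by_contra hneg
  push Not at hneg
  have h0 : deriv f 0 = 0 := hmin.deriv_eq_zero
  have hmax : IsLocalMax f 0 := isLocalMax_of_deriv_deriv_neg hneg h0 hf
  have hconst : f =ᶠ[𝓝 0] fun _ => f 0 := by
    filter_upwards [hmin, hmax] with x h1 h2
    exact le_antisymm h2 h1
  have h1 : deriv f =ᶠ[𝓝 0] fun _ => 0 := by
    have := hconst.deriv
    simpa using this
  have h2 : deriv (deriv f) 0 = 0 := by
    rw [h1.deriv_eq]; simp
  linarith

theorem nlm_cd {f : ℝ → ℝ} {x : ℝ} (hf : ContDiffAt ℝ 2 f x) : DifferentiableAt ℝ (deriv f) x := by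
  have h1 : ContDiffAt ℝ 1 (fderiv ℝ f) x := hf.fderiv_right (by norm_num)
  have h2 : ContDiffAt ℝ 1 (fun y => fderiv ℝ f y 1) x := h1.clm_apply contDiffAt_const
  exact h2.differentiableAt (by simp)

/-- logarithmic comparison -/
theorem nlm_log {n κ : ℝ → ℝ} (hn : ContDiffAt ℝ 2 n 0) (hκ : ContDiffAt ℝ 2 κ 0) (hpos : 0 < n 0)
    (hmin : IsLocalMin (fun t => Real.log (n t) - κ t) 0) :
    n 0 * deriv (deriv κ) 0 ≤ deriv (deriv n) 0 := by
  have hn1 : ∀ᶠ t in 𝓝 (0 : ℝ), DifferentiableAt ℝ n t := by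
    have := hn.eventually (by simp)
    filter_upwards [this] with t ht
    exact ht.differentiableAt (by simp)
  have hκ1 : ∀ᶠ t in 𝓝 (0 : ℝ), DifferentiableAt ℝ κ t := by
    have := hκ.eventually (by simp)
    filter_upwards [this] with t ht
    exact ht.differentiableAt (by simp)
  have hpos' : ∀ᶠ t in 𝓝 (0 : ℝ), 0 < n t := hn.continuousAt.eventually (lt_mem_nhds hpos)
  have hd : deriv (fun t => Real.log (n t) - κ t) =ᶠ[𝓝 0] fun t => deriv n t / n t - deriv κ t := by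
    filter_upwards [hn1, hκ1, hpos'] with t h1 h2 h3
    exact ((h1.hasDerivAt.log h3.ne').sub h2.hasDerivAt).deriv
  have hn2 : DifferentiableAt ℝ (deriv n) 0 := nlm_cd hn
  have hκ2 : DifferentiableAt ℝ (deriv κ) 0 := nlm_cd hκ
  have hd2 : deriv (deriv (fun t => Real.log (n t) - κ t)) 0 =
      (deriv (deriv n) 0 * n 0 - deriv n 0 * deriv n 0) / n 0 ^ 2 - deriv (deriv κ) 0 := by
    rw [hd.deriv_eq]
    exact ((hn2.hasDerivAt.div hn1.self_of_nhds.hasDerivAt hpos.ne').sub hκ2.hasDerivAt).deriv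
  have hcont : ContinuousAt (fun t => Real.log (n t) - κ t) 0 :=
    (hn.continuousAt.log hpos.ne').sub hκ.continuousAt
  have h := nlm_second hcont hmin
  rw [hd2] at h
  have h3 : deriv (deriv κ) 0 ≤ deriv (deriv n) 0 / n 0 := by
    have e : (deriv (deriv n) 0 * n 0 - deriv n 0 * deriv n 0) / n 0 ^ 2 =
        deriv (deriv n) 0 / n 0 - (deriv n 0 / n 0) ^ 2 := by
      field_simp
    rw [e] at h
    nlinarith [sq_nonneg (deriv n 0 / n 0)]
  rw [le_div_iff₀ hpos] at h3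
  linarith

theorem nlm_line {k : ℂ → ℂ} (hk : AnalyticAt ℂ k 0) (η : ℂ) :
    ContDiffAt ℝ 2 (fun t : ℝ => k ((t : ℂ) * η)) 0 := by
  have hcomp : AnalyticAt ℂ (fun z => k (z * η)) 0 := by
    have : AnalyticAt ℂ k ((fun z : ℂ => z * η) 0) := by simpa using hk
    exact this.comp (f := fun z : ℂ => z * η) (by fun_prop)
  have h1 : ContDiffAt ℂ 2 (fun z => k (z * η)) 0 := hcomp.contDiffAt
  have h2 : ContDiffAt ℝ 2 (fun z => k (z * η)) 0 := h1.restrict_scalars ℝ
  refine ContDiffAt.comp (g := fun z : ℂ => k (z * η)) (f := fun t : ℝ => (t : ℂ)) 0 ?_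
    Complex.ofRealCLM.contDiff.contDiffAt
  simpa using h2

/-- second derivative of the real part of an analytic function along a line -/
theorem nlm_re {k : ℂ → ℂ} (hk : AnalyticAt ℂ k 0) (η : ℂ) :
    ContDiffAt ℝ 2 (fun t : ℝ => (k ((t : ℂ) * η)).re) 0 ∧
      deriv (deriv (fun t : ℝ => (k ((t : ℂ) * η)).re)) 0 = (η ^ 2 * deriv (deriv k) 0).re := by
  refine ⟨?_, ?_⟩
  · exact Complex.reCLM.contDiff.contDiffAt.comp 0 (nlm_line hk η)
  · have hev : ∀ᶠ z in 𝓝 (0 : ℂ), AnalyticAt ℂ k z := hk.eventually_analyticAt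
    have hlin : Tendsto (fun t : ℝ => (t : ℂ) * η) (𝓝 0) (𝓝 0) := by
      have : Continuous (fun t : ℝ => (t : ℂ) * η) := by fun_prop
      have h := this.tendsto 0
      simpa using h
    have h1 : deriv (fun t : ℝ => (k ((t : ℂ) * η)).re) =ᶠ[𝓝 0]
        fun t : ℝ => (deriv k ((t : ℂ) * η) * η).re := by
      filter_upwards [hlin.eventually hev] with t ht
      have h2 : HasDerivAt (fun z : ℂ => k (z * η)) (deriv k ((t : ℂ) * η) * η) (t : ℂ) := by
        have h3 : HasDerivAt (fun z : ℂ => z * η) η (t : ℂ) := by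
          simpa using (hasDerivAt_id (t : ℂ)).mul_const η
        exact (ht.differentiableAt.hasDerivAt).comp (t : ℂ) h3
      exact h2.real_of_complex.deriv
    rw [h1.deriv_eq]
    have h4 : HasDerivAt (fun z : ℂ => deriv k (z * η) * η)
        (deriv (deriv k) (((0 : ℝ) : ℂ) * η) * η * η) ((0 : ℝ) : ℂ) := by
      have h3 : HasDerivAt (fun z : ℂ => z * η) η ((0 : ℝ) : ℂ) := by
        simpa using (hasDerivAt_id ((0 : ℝ) : ℂ)).mul_const η
      have h5 : HasDerivAt (deriv k) (deriv (deriv k) (((0 : ℝ) : ℂ) * η))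
          (((0 : ℝ) : ℂ) * η) := by
        have : AnalyticAt ℂ (deriv k) (((0 : ℝ) : ℂ) * η) := by
          simpa using hk.deriv
        exact this.differentiableAt.hasDerivAt
      exact (h5.comp ((0 : ℝ) : ℂ) h3).mul_const η
    rw [h4.real_of_complex.deriv]
    simp only [Complex.ofReal_zero, zero_mul]
    ring_nf

/-- the core statement -/
theorem nlm_core {r : ℕ} (H : MetricData r) (hsm : ∀ α (i j : Fin r),
      ContDiff ℝ (⊤ : ℕ∞) (fun p => H α p i j)) (hG : IsGriffithsPositive H)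
    (α : Chart) (p ξ : Fin 2 → ℂ) (hξ : ξ ≠ 0) (l : ℂ → Fin r → ℂ) (G : ℂ → ℂ)
    (hl : ∀ᶠ z in 𝓝 (0 : ℂ), DifferentiableAt ℂ l z)
    (hGd : ∀ᶠ z in 𝓝 (0 : ℂ), DifferentiableAt ℂ G z) (hG0 : G 0 ≠ 0) (ρ : ℂ → ℝ)
    (hρ : ∀ᶠ z in 𝓝 (0 : ℂ), ∀ v : Fin r → ℂ,
      ‖∑ i, l z i * v i‖ ^ 2 ≤ ρ z * hNormSq H α (p + z • ξ) v)
    (v : Fin r → ℂ) (hv : v ≠ 0) (hlv : ∑ i, l 0 i * v i ≠ 0)
    (hpos : 0 < hNormSq H α p v)
    (heq : ‖∑ i, l 0 i * v i‖ ^ 2 = ρ 0 * hNormSq H α p v) :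
    ¬ IsLocalMax (fun z => ρ z / ‖G z‖) 0 := by
  intro hmax
  obtain ⟨U, s, hU, hpU, hs, hsv, hlevi⟩ := hG α p ξ v hξ hv
  set F : (Fin 2 → ℂ) → ℝ := fun q => hNormSq H α q (s q) with hF
  -- the section along the line
  set S : ℂ → Fin r → ℂ := fun z => s (p + z • ξ) with hS
  have hline : Continuous (fun z : ℂ => p + z • ξ) := by fun_prop
  have hV : IsOpen {z : ℂ | p + z • ξ ∈ U} := hU.preimage hline
  have h0V : (0 : ℂ) ∈ {z : ℂ | p + z • ξ ∈ U} := by simpa using hpU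
  have hSd : DifferentiableOn ℂ S {z : ℂ | p + z • ξ ∈ U} := by
    refine hs.comp (f := fun z : ℂ => p + z • ξ) ?_ (fun z hz => hz)
    exact (by fun_prop : Differentiable ℂ (fun z : ℂ => p + z • ξ)).differentiableOn
  have hSan : ∀ i, AnalyticAt ℂ (fun z => S z i) 0 := by
    intro i
    have h1 : DifferentiableOn ℂ (fun z => S z i) {z : ℂ | p + z • ξ ∈ U} :=
      (differentiableOn_pi.1 hSd) i
    exact h1.analyticAt (hV.mem_nhds h0V)
  have hlan : ∀ i, AnalyticAt ℂ (fun z => l z i) 0 := by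
    intro i
    rw [Complex.analyticAt_iff_eventually_differentiableAt]
    filter_upwards [hl] with z hz
    exact (differentiableAt_pi.1 hz) i
  have hGan : AnalyticAt ℂ G 0 := Complex.analyticAt_iff_eventually_differentiableAt.2 hGd
  set u : ℂ → ℂ := fun z => ∑ i, l z i * S z i with hu
  have hS0 : S 0 = v := by simp [hS, hsv]
  have hu0 : u 0 ≠ 0 := by
    simp only [hu, hS0]; exact hlv
  have huan : AnalyticAt ℂ u 0 :=
    Finset.univ.analyticAt_fun_sum fun i _ => (hlan i).mul (hSan i)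
  set w : ℂ → ℂ := fun z => u z ^ 2 / G z with hw
  have hwan : AnalyticAt ℂ w 0 := (huan.pow 2).div hGan hG0
  have hw0 : w 0 ≠ 0 := div_ne_zero (pow_ne_zero 2 hu0) hG0
  set k : ℂ → ℂ := fun z => Complex.log (w z / w 0) with hk
  have hkan : AnalyticAt ℂ k 0 := by
    refine AnalyticAt.clog (hwan.div analyticAt_const hw0) ?_
    rw [div_self hw0]; simp
  -- regularity of the norm along real lines
  have hreg : ∀ η : ℂ, ContDiffAt ℝ 2 (fun t : ℝ => F (p + (t : ℂ) • (η • ξ))) 0 := by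
    intro η
    have hS2 : ∀ i, ContDiffAt ℝ 2 (fun t : ℝ => s (p + (t : ℂ) • (η • ξ)) i) 0 := by
      intro i
      have := nlm_line (hSan i) η
      simp only [hS, mul_smul] at this
      exact this
    have hline2 : ContDiff ℝ (⊤ : ℕ∞) (fun t : ℝ => p + (t : ℂ) • (η • ξ)) := by
      refine contDiff_const.add ?_
      exact (Complex.ofRealCLM.contDiff).smul contDiff_const
    have hH2 : ∀ i j, ContDiffAt ℝ 2 (fun t : ℝ => H α (p + (t : ℂ) • (η • ξ)) i j) 0 := by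
      intro i j
      have := ((hsm α i j).comp hline2).contDiffAt (x := 0)
      exact this.of_le (WithTop.coe_le_coe.2 (le_top (a := (2 : ℕ∞))))
    have hsum : ContDiffAt ℝ 2 (fun t : ℝ => ∑ i, ∑ j, H α (p + (t : ℂ) • (η • ξ)) i j *
        s (p + (t : ℂ) • (η • ξ)) i * conj (s (p + (t : ℂ) • (η • ξ)) j)) 0 := by
      refine ContDiffAt.sum fun i _ => ContDiffAt.sum fun j _ => ?_
      refine ((hH2 i j).mul (hS2 i)).mul ?_
      exact Complex.conjCLE.contDiff.contDiffAt.comp 0 (hS2 j)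
    exact Complex.reCLM.contDiff.contDiffAt.comp 0 hsum
  have hF0 : F p = hNormSq H α p v := by simp only [hF, hsv]
  have hFpos : 0 < F p := by rw [hF0]; exact hpos
  -- the local comparison on ℂ
  have hFc : ∀ᶠ z in 𝓝 (0 : ℂ), 0 < F (p + z • ξ) := by
    have hS3 : ContinuousAt S 0 := (hSd.continuousOn).continuousAt (hV.mem_nhds h0V)
    have hcont : ContinuousAt (fun z : ℂ => F (p + z • ξ)) 0 := by
      have h1 : ContinuousAt (fun z : ℂ => ∑ i, ∑ j, H α (p + z • ξ) i j * S z i *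
          conj (S z j)) 0 := by
        refine tendsto_finsetSum _ fun i _ => tendsto_finsetSum _ fun j _ => ?_
        have hH : ContinuousAt (fun z : ℂ => H α (p + z • ξ) i j) 0 :=
          ((hsm α i j).continuous.comp hline).continuousAt
        have hSi : ∀ i, ContinuousAt (fun z : ℂ => S z i) 0 := fun i =>
          (continuous_apply i).continuousAt.comp hS3
        exact (hH.mul (hSi i)).mul (Complex.continuous_conj.continuousAt.comp (hSi j))
      exact Complex.continuous_re.continuousAt.comp h1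
    refine hcont.eventually (lt_mem_nhds ?_)
    simpa using hFpos
  have hu0' : 0 < ‖u 0‖ ^ 2 := by positivity
  have heq' : ‖u 0‖ ^ 2 = ρ 0 * F p := by
    simp only [hu, hS0, hF0]; exact heq
  have hρ0 : 0 < ρ 0 := by
    by_contra hcon
    push Not at hcon
    nlinarith
  have hG0' : 0 < ‖G 0‖ := norm_pos_iff.2 hG0
  have hcmp : ∀ᶠ z in 𝓝 (0 : ℂ),
      Real.log (F p) ≤ Real.log (F (p + z • ξ)) - (k z).re := by
    have hGne : ∀ᶠ z in 𝓝 (0 : ℂ), G z ≠ 0 := hGan.continuousAt.eventually_ne hG0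
    have hune : ∀ᶠ z in 𝓝 (0 : ℂ), u z ≠ 0 := huan.continuousAt.eventually_ne hu0
    filter_upwards [hmax, hρ, hFc, hGne, hune] with z h1 h2 h3 h4 h5
    have h6 : ‖u z‖ ^ 2 ≤ ρ z * F (p + z • ξ) := h2 (S z)
    have hGz : 0 < ‖G z‖ := norm_pos_iff.2 h4
    have h7 : ρ z ≤ ρ 0 / ‖G 0‖ * ‖G z‖ := by
      rw [div_le_iff₀ hGz] at h1; exact h1
    have h8 : ‖w z‖ ≤ ρ 0 / ‖G 0‖ * F (p + z • ξ) := by
      simp only [hw, norm_div, norm_pow]
      rw [div_le_iff₀ hGz]
      nlinarith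
    have h9 : ‖w 0‖ = ρ 0 / ‖G 0‖ * F p := by
      simp only [hw, norm_div, norm_pow]
      rw [heq']; ring
    have hM : 0 < ρ 0 / ‖G 0‖ := div_pos hρ0 hG0'
    have hw0' : 0 < ‖w 0‖ := norm_pos_iff.2 hw0
    have hwz : 0 < ‖w z‖ := norm_pos_iff.2 (div_ne_zero (pow_ne_zero 2 h5) h4)
    have h10 : (k z).re = Real.log ‖w z‖ - Real.log ‖w 0‖ := by
      simp only [hk]
      rw [Complex.log_re, norm_div, Real.log_div hwz.ne' hw0'.ne']
    have h11 : Real.log ‖w z‖ ≤ Real.log (ρ 0 / ‖G 0‖) + Real.log (F (p + z • ξ)) := by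
      rw [← Real.log_mul hM.ne' h3.ne']
      exact Real.log_le_log hwz h8
    have h12 : Real.log ‖w 0‖ = Real.log (ρ 0 / ‖G 0‖) + Real.log (F p) := by
      rw [h9, Real.log_mul hM.ne' hFpos.ne']
    rw [h10, h12]
    linarith
  have hk0 : k 0 = 0 := by
    simp only [hk]; rw [div_self hw0, Complex.log_one]
  have key : ∀ η : ℂ, F p * (η ^ 2 * deriv (deriv k) 0).re ≤
      deriv (deriv (fun t : ℝ => F (p + (t : ℂ) • (η • ξ)))) 0 := by
    intro η
    obtain ⟨hc, hd⟩ := nlm_re hkan η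
    have hlin : Tendsto (fun t : ℝ => (t : ℂ) * η) (𝓝 0) (𝓝 0) := by
      have : Continuous (fun t : ℝ => (t : ℂ) * η) := by fun_prop
      have h := this.tendsto 0
      simpa using h
    have hmin : IsLocalMin (fun t : ℝ => Real.log (F (p + (t : ℂ) • (η • ξ))) -
        (k ((t : ℂ) * η)).re) 0 := by
      filter_upwards [hlin.eventually hcmp] with t ht
      simp only [Complex.ofReal_zero, zero_smul, add_zero, zero_mul, hk0, Complex.zero_re,
        sub_zero]
      rw [← mul_smul]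
      exact ht
    have h := nlm_log (hreg η) hc (by simpa using hFpos) hmin
    simp only [Complex.ofReal_zero, zero_smul, add_zero] at h
    rw [hd] at h
    exact h
  have h1 := key 1
  have h2 := key Complex.I
  unfold leviAlong secondDerivAlong at hlevi
  rw [one_smul] at h1
  have h3 : (Complex.I ^ 2 * deriv (deriv k) 0).re = - ((1 : ℂ) ^ 2 * deriv (deriv k) 0).re := by
    rw [Complex.I_sq]; simp
  rw [h3] at h2
  linarith

open Matrix in
/-- dual norm squared of the covector `l` for the Hermitian matrix `M` (linear in first slot) -/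
noncomputable def dualSq {r : ℕ} (M : Matrix (Fin r) (Fin r) ℂ) (l : Fin r → ℂ) : ℝ :=
  (star l ⬝ᵥ (M⁻¹ *ᵥ l)).re

open Matrix in
theorem hNormSq_eq {r : ℕ} (H : MetricData r) (α : Chart) (p : Fin 2 → ℂ) (v : Fin r → ℂ) :
    hNormSq H α p v = (star (star v) ⬝ᵥ (H α p *ᵥ star v)).re := by
  unfold hNormSq
  congr 1
  simp only [dotProduct, Matrix.mulVec, star_star, Finset.mul_sum]
  refine Finset.sum_congr rfl fun i _ => Finset.sum_congr rfl fun j _ => ?_
  simp only [Pi.star_apply, RCLike.star_def]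
  ring

open Matrix in
theorem dual_cs {r : ℕ} {M : Matrix (Fin r) (Fin r) ℂ} (hM : M.PosDef) (l w : Fin r → ℂ) :
    ‖star w ⬝ᵥ l‖ ^ 2 ≤ (star l ⬝ᵥ (M⁻¹ *ᵥ l)).re * (star w ⬝ᵥ (M *ᵥ w)).re := by
  classical
  set c := M⁻¹ *ᵥ l with hc
  have hdet : IsUnit M.det := hM.isUnit.map Matrix.detMonoidHom
  have hMc : M *ᵥ c = l := by
    rw [hc, Matrix.mulVec_mulVec, Matrix.mul_nonsing_inv _ hdet, Matrix.one_mulVec]
  by_cases hl : l = 0
  · subst hl
    simp
  have hc0 : c ≠ 0 := by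
    intro h
    apply hl
    rw [← hMc, h, Matrix.mulVec_zero]
  have hDpos : 0 < star c ⬝ᵥ (M *ᵥ c) := hM.dotProduct_mulVec_pos hc0
  have hD' : star l ⬝ᵥ c = star c ⬝ᵥ (M *ᵥ c) := by
    conv_lhs => rw [← hMc]
    rw [Matrix.star_mulVec, hM.1.eq, ← Matrix.dotProduct_mulVec]
  set D : ℝ := (star c ⬝ᵥ (M *ᵥ c)).re with hD
  have hDre : star c ⬝ᵥ (M *ᵥ c) = (D : ℂ) := by
    have := (Complex.pos_iff.1 hDpos).2
    apply Complex.ext
    · rfl
    · simp [← this]
  have hD0 : 0 < D := (Complex.pos_iff.1 hDpos).1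
  rw [hD']
  set a : ℂ := star w ⬝ᵥ l with ha
  have ha2 : star c ⬝ᵥ (M *ᵥ w) = conj a := by
    rw [ha, ← hMc]
    have h1 : star (star w ⬝ᵥ (M *ᵥ c)) = star c ⬝ᵥ (M *ᵥ w) := by
      rw [← Matrix.star_dotProduct_star, star_star, Matrix.star_mulVec, hM.1.eq,
        ← Matrix.dotProduct_mulVec]
    exact h1.symm
  have hq := hM.posSemidef.dotProduct_mulVec_nonneg (w - (conj a / D) • c)
  have hexp : star (w - (conj a / D) • c) ⬝ᵥ (M *ᵥ (w - (conj a / D) • c)) =
      star w ⬝ᵥ (M *ᵥ w) - a * conj a / D := by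
    have hDne : (D : ℂ) ≠ 0 := by exact_mod_cast hD0.ne'
    rw [Matrix.mulVec_sub, Matrix.mulVec_smul, star_sub, star_smul, sub_dotProduct,
      dotProduct_sub, dotProduct_sub, smul_dotProduct, smul_dotProduct, dotProduct_smul,
      dotProduct_smul, ha2, hDre, hMc, ← ha]
    simp only [smul_eq_mul, RCLike.star_def, map_div₀, Complex.conj_conj, Complex.conj_ofReal]
    field_simp
    ring
  rw [hexp] at hq
  have h2 := (Complex.nonneg_iff.1 hq).1
  have h3 : (a * conj a / (D : ℂ)).re = ‖a‖ ^ 2 / D := by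
    rw [Complex.mul_conj, Complex.normSq_eq_norm_sq]
    rw [← Complex.ofReal_div, Complex.ofReal_re]
  rw [Complex.sub_re, h3, sub_nonneg, div_le_iff₀ hD0] at h2
  linarith [mul_comm D (star w ⬝ᵥ (M *ᵥ w)).re]

open Matrix in
theorem dual_pos {r : ℕ} {M : Matrix (Fin r) (Fin r) ℂ} (hM : M.PosDef) {l : Fin r → ℂ}
    (hl : l ≠ 0) : ∃ c : Fin r → ℂ, c ≠ 0 ∧ ∃ D : ℝ, 0 < D ∧ star c ⬝ᵥ l = (D : ℂ) ∧
      star c ⬝ᵥ (M *ᵥ c) = (D : ℂ) ∧ dualSq M l = D := by
  classical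
  set c := M⁻¹ *ᵥ l with hc
  have hdet : IsUnit M.det := hM.isUnit.map Matrix.detMonoidHom
  have hMc : M *ᵥ c = l := by
    rw [hc, Matrix.mulVec_mulVec, Matrix.mul_nonsing_inv _ hdet, Matrix.one_mulVec]
  have hc0 : c ≠ 0 := by
    intro h
    apply hl
    rw [← hMc, h, Matrix.mulVec_zero]
  have hDpos : 0 < star c ⬝ᵥ (M *ᵥ c) := hM.dotProduct_mulVec_pos hc0
  have hD' : star l ⬝ᵥ c = star c ⬝ᵥ (M *ᵥ c) := by
    conv_lhs => rw [← hMc]
    rw [Matrix.star_mulVec, hM.1.eq, ← Matrix.dotProduct_mulVec]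
  have hDre : star c ⬝ᵥ (M *ᵥ c) = (((star c ⬝ᵥ (M *ᵥ c)).re : ℝ) : ℂ) := by
    have := (Complex.pos_iff.1 hDpos).2
    apply Complex.ext
    · simp
    · simp [← this]
  refine ⟨c, hc0, (star c ⬝ᵥ (M *ᵥ c)).re, (Complex.pos_iff.1 hDpos).1, ?_, hDre, ?_⟩
  · rw [← hDre, hMc]
  · unfold dualSq
    rw [← hc, hD']

theorem nlm0 {r : ℕ} (H : MetricData r) (hsm : ∀ α (i j : Fin r),
      ContDiff ℝ (⊤ : ℕ∞) (fun p => H α p i j)) (hpd : ∀ α p, (H α p).PosDef)
    (hG : IsGriffithsPositive H)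
    (α : Chart) (p ξ : Fin 2 → ℂ) (hξ : ξ ≠ 0) (l : ℂ → Fin r → ℂ) (G : ℂ → ℂ)
    (hl : ∀ᶠ z in 𝓝 (0 : ℂ), DifferentiableAt ℂ l z)
    (hGd : ∀ᶠ z in 𝓝 (0 : ℂ), DifferentiableAt ℂ G z) (hG0 : G 0 ≠ 0) (hl0 : l 0 ≠ 0) :
    ¬ IsLocalMax (fun z => dualSq (H α (p + z • ξ)) (l z) / ‖G z‖) 0 := by
  obtain ⟨c, hc0, D, hD, h1, h2, h3⟩ := dual_pos (hpd α p) hl0
  have e1 : ∀ (l v : Fin r → ℂ), ∑ i, l i * v i = dotProduct (star (star v)) l := by
    intro l v
    simp [dotProduct, mul_comm]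
  have e2 : hNormSq H α p (star c) = D := by
    rw [hNormSq_eq, star_star, star_star, h2]; simp
  refine nlm_core H hsm hG α p ξ hξ l G hl hGd hG0 _ ?_ (star c) ?_ ?_ ?_ ?_
  · refine Filter.Eventually.of_forall fun z v => ?_
    rw [e1, hNormSq_eq]
    exact dual_cs (hpd α _) (l z) (star v)
  · intro h
    apply hc0
    have := congrArg star h
    simpa using this
  · rw [e1, star_star, h1]
    exact_mod_cast hD.ne'
  · rw [e2]; exact hD
  · rw [e1, star_star, h1, e2]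
    simp only [zero_smul, add_zero]
    rw [h3, Complex.norm_real, Real.norm_eq_abs, sq_abs]
    ring

/-- NLM: no local maximum, at any point of a complex line -/
theorem nlm {r : ℕ} (H : MetricData r) (hsm : ∀ α (i j : Fin r),
      ContDiff ℝ (⊤ : ℕ∞) (fun p => H α p i j)) (hpd : ∀ α p, (H α p).PosDef)
    (hG : IsGriffithsPositive H)
    (α : Chart) (p ξ : Fin 2 → ℂ) (hξ : ξ ≠ 0) (l : ℂ → Fin r → ℂ) (G : ℂ → ℂ) (z₀ : ℂ)
    (hl : ∀ᶠ z in 𝓝 z₀, DifferentiableAt ℂ l z)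
    (hGd : ∀ᶠ z in 𝓝 z₀, DifferentiableAt ℂ G z) (hG0 : G z₀ ≠ 0) (hl0 : l z₀ ≠ 0) :
    ¬ IsLocalMax (fun z => dualSq (H α (p + z • ξ)) (l z) / ‖G z‖) z₀ := by
  intro hmax
  have ht : Tendsto (fun z : ℂ => z₀ + z) (𝓝 0) (𝓝 z₀) := by
    have : Continuous (fun z : ℂ => z₀ + z) := by fun_prop
    simpa using this.tendsto 0
  refine nlm0 H hsm hpd hG α (p + z₀ • ξ) ξ hξ (fun z => l (z₀ + z)) (fun z => G (z₀ + z))
    ?_ ?_ (by simpa using hG0) (by simpa using hl0) ?_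
  · filter_upwards [ht.eventually hl] with z hz
    exact hz.comp z (by fun_prop)
  · filter_upwards [ht.eventually hGd] with z hz
    exact hz.comp z (by fun_prop)
  · have h := ht.eventually hmax
    filter_upwards [h] with z hz
    simp only [add_zero, zero_smul]
    rw [add_smul] at hz
    rw [add_assoc]
    exact hz

open Matrix in
/-- explicit formula in rank two: `|l|^2_{H^*} = |(l 1, - l 0)|^2_H / det H` -/
theorem dualSq_two (H : MetricData 2) (hpd : ∀ α p, (H α p).PosDef) (α : Chart)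
    (p : Fin 2 → ℂ) (l : Fin 2 → ℂ) :
    dualSq (H α p) l = hNormSq H α p ![l 1, - l 0] / (H α p).det.re := by
  have hdet := (hpd α p).det_pos
  have hdre : (H α p).det = (((H α p).det.re : ℝ) : ℂ) := by
    have := (Complex.pos_iff.1 hdet).2
    apply Complex.ext
    · simp
    · simp [← this]
  unfold dualSq hNormSq
  rw [Matrix.inv_def, Ring.inverse_eq_inv']
  have e : ((H α p).det)⁻¹ = ((((H α p).det.re)⁻¹ : ℝ) : ℂ) := by
    rw [Complex.ofReal_inv, ← hdre]
  rw [e, Matrix.smul_mulVec, dotProduct_smul, smul_eq_mul, Complex.re_ofReal_mul, div_eq_inv_mul]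
  congr 2
  rw [Matrix.adjugate_fin_two]
  simp [Fin.sum_univ_two, Matrix.mulVec, dotProduct]
  ring

open Matrix in
theorem dn_eq_dualSq (A : Matrix (Fin 2) (Fin 2) ℂ) (φ : V2) : dn A φ = dualSq A φ := by
  unfold dn dualSq
  rw [← Complex.conj_re]
  congr 1
  simp [dotProduct, Fin.sum_univ_two]

theorem stNLM : StNLM := by
  intro g Hm hH hG α p ξ hξ φ G hφ hGd hφ0 hG0 hmax
  have hpd := hH.posDef
  refine nlm0 Hm hH.smooth hpd hG α p ξ hξ φ G hφ hGd hG0 hφ0 ?_
  have hnn : ∀ (A : Matrix (Fin 2) (Fin 2) ℂ), A.PosDef → ∀ l : V2, 0 ≤ dualSq A l := by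
    intro A hA l
    have h := hA.inv.posSemidef.dotProduct_mulVec_nonneg l
    exact (Complex.nonneg_iff.1 h).1
  filter_upwards [hmax] with z hz
  simp only [dn_eq_dualSq] at hz
  rw [← div_pow, ← div_pow] at hz
  exact (pow_le_pow_iff_left₀ (div_nonneg (hnn _ (hpd _ _) _) (norm_nonneg _))
    (div_nonneg (hnn _ (hpd _ _) _) (norm_nonneg _)) two_ne_zero).1 hz

end Crest.Agent.R258
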