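import Crest.Agent.R258.Defs

/-!
# Row 258, task SCHW: the Schwarz lemma with two zeros
-/

set_option autoImplicit false

noncomputable section

namespace Crest.Agent.R258

open scoped ComplexConjugate ComplexOrder Topology

namespace SCHW

theorem differentiable_dslope {f : ℂ → V2} (hf : Differentiable ℂ f) (c : ℂ) :
    Differentiable ℂ (dslope f c) := by
  rw [← differentiableOn_univ] at hf ⊢
  exact (Complex.differentiableOn_dslope Filter.univ_mem).2 hf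

theorem factor (F : ℂ → V2) (hF : Differentiable ℂ F) (heven : ∀ x, F (-x) = F x) (z : ℂ)
    (h1 : F z = 0) : ∃ G : ℂ → V2, Differentiable ℂ G ∧ ∀ x, F x = (x ^ 2 - z ^ 2) • G x := by
  have h2 : F (-z) = 0 := by rw [heven, h1]
  have h3 : dslope F z (-z) = 0 := by
    by_cases hz : z = 0
    · subst hz
      rw [neg_zero, dslope_same]
      have e : deriv F 0 = - deriv F 0 := by
        have : (fun x => F (-x)) = F := funext heven
        have h := deriv_comp_neg F (0 : ℂ)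
        rw [this, neg_zero] at h
        exact h
      ext i
      have := congrFun e i
      rw [Pi.neg_apply] at this
      rw [Pi.zero_apply]
      linear_combination (1 / 2 : ℂ) * this
    · have h := sub_smul_dslope F z (-z)
      rw [h1, h2, sub_zero] at h
      rcases smul_eq_zero.1 h with h | h
      · exfalso
        apply hz
        linear_combination (-1 / 2 : ℂ) * h
      · exact h
  refine ⟨dslope (dslope F z) (-z), differentiable_dslope (differentiable_dslope hF z) _, ?_⟩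
  intro x
  have e1 := sub_smul_dslope F z x
  have e2 := sub_smul_dslope (dslope F z) (-z) x
  rw [h1, sub_zero] at e1
  rw [h3, sub_zero] at e2
  rw [← e1, ← e2, smul_smul]
  congr 1
  ring

theorem N_zero {N : Fin 2 → ℂ → V2 → ℝ} (hN : LineNorm N) (a : Fin 2) (x : ℂ) : N a x 0 = 0 := by
  have := hN.smul a x 0 0
  simpa using this

theorem sqrt_smul {N : Fin 2 → ℂ → V2 → ℝ} (hN : LineNorm N) (a : Fin 2) (x c : ℂ) (φ : V2) :
    √(N a x (c • φ)) = ‖c‖ * √(N a x φ) := by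
  rw [hN.smul, Real.sqrt_mul (by positivity), Real.sqrt_sq (norm_nonneg _)]

end SCHW

open SCHW in
theorem schwarz : StSchwarz := by
  intro θ hθ N n h v Z m hm D hZ0 hZ10 hZθ w hw
  have hN := D.line
  have hz0 : 0 < ‖Z 0‖ := norm_pos_iff.2 hZ0
  set z : ℂ := Z 1 / Z 0 with hz
  set F : ℂ → V2 := fun x => Z 0 • h 1 x - Z 0 ^ n • v 1 x with hFdef
  have hFd : Differentiable ℂ F := by
    have h1 : Differentiable ℂ (Z 0 • h 1) := (D.hdiff 1).const_smul _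
    have h2 : Differentiable ℂ (Z 0 ^ n • v 1) := (D.vdiff 1).const_smul _
    exact h1.sub h2
  have hFe : ∀ x, F (-x) = F x := fun x => by simp only [hFdef, D.heven, D.veven]
  have hFz : F z = 0 := by
    have := D.van 1 Z rfl rfl hZ0
    simp only [hFdef, sub_eq_zero]
    exact this
  obtain ⟨G, hGd, hFG⟩ := factor F hFd hFe z hFz
  have hcoef : ∀ x : ℂ, ‖Z 0‖ ^ 2 * ‖x ^ 2 - z ^ 2‖ = ‖(Z 0 * x) ^ 2 - Z 1 ^ 2‖ := by
    intro x
    rw [← norm_pow, ← norm_mul]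
    congr 1
    rw [hz]
    field_simp
  -- bound for F
  have hFb : ∀ x : ℂ, ‖Z 0‖ ^ 4 + ‖Z 0 * x‖ ^ 4 = 1 → √(N 1 x (F x)) ≤ 2 * √m := by
    intro x hx
    have hkey : ‖Z 0‖ ^ 2 * √(1 + ‖x‖ ^ 4) = 1 := by
      have : ‖Z 0‖ ^ 2 = √(‖Z 0‖ ^ 4) := by
        rw [show ‖Z 0‖ ^ 4 = (‖Z 0‖ ^ 2) ^ 2 by ring, Real.sqrt_sq (by positivity)]
      rw [this, ← Real.sqrt_mul (by positivity)]
      have h5 : ‖Z 0‖ ^ 4 * (1 + ‖x‖ ^ 4) = 1 := by
        rw [norm_mul] at hx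
        linear_combination hx
      rw [h5]
      exact Real.sqrt_one
    have e1 : √(N 1 x (Z 0 • h 1 x)) ≤ √m := by
      apply Real.sqrt_le_sqrt
      rw [hN.smul]
      calc ‖Z 0‖ ^ 2 * N 1 x (h 1 x) ≤ ‖Z 0‖ ^ 2 * (m * √(1 + ‖x‖ ^ 4)) :=
            mul_le_mul_of_nonneg_left (D.bh 1 x) (by positivity)
        _ = m * (‖Z 0‖ ^ 2 * √(1 + ‖x‖ ^ 4)) := by ring
        _ = m := by rw [hkey, mul_one]
    have e2 : √(N 1 x (-(Z 0 ^ n) • v 1 x)) ≤ √m := by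
      apply Real.sqrt_le_sqrt
      rw [hN.smul, norm_neg, norm_pow]
      calc (‖Z 0‖ ^ n) ^ 2 * N 1 x (v 1 x) ≤ (‖Z 0‖ ^ n) ^ 2 * (m * √(1 + ‖x‖ ^ 4) ^ n) :=
            mul_le_mul_of_nonneg_left (D.bv 1 x) (by positivity)
        _ = m * (‖Z 0‖ ^ 2 * √(1 + ‖x‖ ^ 4)) ^ n := by
            rw [mul_pow, ← pow_mul, ← pow_mul, mul_comm n 2]
            ring
        _ = m := by rw [hkey, one_pow, mul_one]
    have e3 : F x = Z 0 • h 1 x + -(Z 0 ^ n) • v 1 x := by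
      simp only [hFdef, neg_smul, sub_eq_add_neg]
    rw [e3]
    have := hN.tri 1 x (Z 0 • h 1 x) (-(Z 0 ^ n) • v 1 x)
    linarith
  -- the radius
  have hθ1 : ‖Z 0‖ ^ 4 < 1 := by
    have : 0 ≤ ‖Z 1‖ ^ 4 := by positivity
    linarith
  set S : ℝ := √(√(1 - ‖Z 0‖ ^ 4)) with hS
  have hS4 : S ^ 4 = 1 - ‖Z 0‖ ^ 4 := by
    rw [hS, show (√(√(1 - ‖Z 0‖ ^ 4))) ^ 4 = ((√(√(1 - ‖Z 0‖ ^ 4))) ^ 2) ^ 2 by ring,
      Real.sq_sqrt (Real.sqrt_nonneg _), Real.sq_sqrt (by linarith)]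
  have hSpos : 0 < S := Real.sqrt_pos.2 (Real.sqrt_pos.2 (by linarith))
  -- lower bound on the circle
  have hlow : ∀ y : ℂ, ‖y‖ = S → (1 - θ) / 2 ≤ ‖y ^ 2 - Z 1 ^ 2‖ := by
    intro y hy
    have h1 : ‖y‖ ^ 2 - ‖Z 1‖ ^ 2 ≤ ‖y ^ 2 - Z 1 ^ 2‖ := by
      have := norm_sub_norm_le (y ^ 2) (Z 1 ^ 2)
      rwa [norm_pow, norm_pow] at this
    rw [hy] at h1
    have h2 : (S ^ 2 - ‖Z 1‖ ^ 2) * (S ^ 2 + ‖Z 1‖ ^ 2) ≥ 1 - θ := by
      have : (S ^ 2 - ‖Z 1‖ ^ 2) * (S ^ 2 + ‖Z 1‖ ^ 2) = S ^ 4 - ‖Z 1‖ ^ 4 := by ring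
      rw [this, hS4]
      linarith
    have h3 : S ^ 2 ≤ 1 := by
      have : (S ^ 2) ^ 2 ≤ 1 := by
        rw [show (S ^ 2) ^ 2 = S ^ 4 by ring, hS4]
        have : 0 ≤ ‖Z 0‖ ^ 4 := by positivity
        linarith
      nlinarith [sq_nonneg (S ^ 2 - 1), sq_nonneg S]
    have h4 : ‖Z 1‖ ^ 2 ≤ 1 := by
      have : (‖Z 1‖ ^ 2) ^ 2 ≤ 1 := by
        have : 0 ≤ ‖Z 0‖ ^ 4 := by positivity
        rw [show (‖Z 1‖ ^ 2) ^ 2 = ‖Z 1‖ ^ 4 by ring]
        linarith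
      nlinarith [sq_nonneg (‖Z 1‖ ^ 2 - 1), sq_nonneg ‖Z 1‖]
    have h5 : 0 ≤ S ^ 2 - ‖Z 1‖ ^ 2 := by
      by_contra hneg
      push Not at hneg
      have : 0 ≤ S ^ 2 + ‖Z 1‖ ^ 2 := by positivity
      nlinarith
    nlinarith
  set T : ℝ := S / ‖Z 0‖ with hT
  have hTpos : 0 < T := by positivity
  set b : ℝ := 4 * √m / (1 - θ) * ‖Z 0‖ ^ 2 with hb
  have hb0 : 0 ≤ b := by
    have : 0 < 1 - θ := by linarith
    positivity
  -- maximum principle
  have hmax : ∀ x : ℂ, ‖x‖ ≤ T → √(N 1 x (G x)) ≤ b := by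
    have hcont : Continuous (fun x => N 1 x (G x)) := hN.cont 1 G hGd.continuous
    obtain ⟨x0, hx0, hx0m⟩ := (isCompact_closedBall (0 : ℂ) T).exists_isMaxOn
      ⟨0, Metric.mem_closedBall_self hTpos.le⟩ hcont.continuousOn
    have hx0' : ‖x0‖ ≤ T := by simpa using hx0
    suffices hsuf : √(N 1 x0 (G x0)) ≤ b by
      intro x hx
      refine (Real.sqrt_le_sqrt ?_).trans hsuf
      exact hx0m (by simpa using hx)
    rcases hx0'.lt_or_eq with hlt | heq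
    · -- interior
      by_cases hG0 : G x0 = 0
      · rw [hG0, N_zero hN, Real.sqrt_zero]
        exact hb0
      · exfalso
        refine hN.nlm 1 x0 G (fun _ => 1) (Filter.Eventually.of_forall fun x => hGd x)
          (Filter.Eventually.of_forall fun x => differentiableAt_const _) hG0 one_ne_zero ?_
        have hnb : Metric.closedBall (0 : ℂ) T ∈ 𝓝 x0 :=
          Filter.mem_of_superset (Metric.isOpen_ball.mem_nhds (by simpa using hlt))
            Metric.ball_subset_closedBall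
        filter_upwards [hnb] with x hx
        have := hx0m hx
        simp only [norm_one, one_pow, div_one]
        exact pow_le_pow_left₀ (hN.nonneg _ _ _) this 2
    · -- boundary
      have hZx : ‖Z 0 * x0‖ = S := by
        rw [norm_mul, heq, hT]
        field_simp
      have h1 := hFb x0 (by rw [hZx, hS4]; ring)
      rw [hFG x0, sqrt_smul hN] at h1
      have h2 := hlow (Z 0 * x0) hZx
      rw [← hcoef] at h2
      have hθ' : 0 < 1 - θ := by linarith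
      have hq : 0 < ‖x0 ^ 2 - z ^ 2‖ := by
        by_contra hneg
        have h3 : ‖x0 ^ 2 - z ^ 2‖ = 0 := le_antisymm (not_lt.1 hneg) (norm_nonneg _)
        rw [h3, mul_zero] at h2
        linarith
      set A := √(N 1 x0 (G x0))
      have hA : 0 ≤ A := Real.sqrt_nonneg _
      rw [hb, div_mul_eq_mul_div, le_div_iff₀ hθ']
      have h6 : A * (1 - θ) ≤ A * (2 * (‖Z 0‖ ^ 2 * ‖x0 ^ 2 - z ^ 2‖)) :=
        mul_le_mul_of_nonneg_left (by linarith) hA
      have h7 : A * (2 * (‖Z 0‖ ^ 2 * ‖x0 ^ 2 - z ^ 2‖)) =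
        2 * ‖Z 0‖ ^ 2 * (‖x0 ^ 2 - z ^ 2‖ * A) := by ring
      have h8 : 2 * ‖Z 0‖ ^ 2 * (‖x0 ^ 2 - z ^ 2‖ * A) ≤ 2 * ‖Z 0‖ ^ 2 * (2 * √m) :=
        mul_le_mul_of_nonneg_left h1 (by positivity)
      linarith
  -- conclusion
  have hx : ‖w / Z 0‖ ≤ T := by
    rw [norm_div, hT]
    apply div_le_div_of_nonneg_right _ hz0.le
    by_contra hlt
    push Not at hlt
    have : S ^ 4 < ‖w‖ ^ 4 := pow_lt_pow_left₀ hlt hSpos.le (by norm_num)
    rw [hS4] at this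
    linarith
  have hfin := hmax _ hx
  have e := hFG (w / Z 0)
  have e' : Z 0 • h 1 (w / Z 0) - Z 0 ^ n • v 1 (w / Z 0) = F (w / Z 0) := rfl
  rw [e', e, sqrt_smul hN]
  have hc := hcoef (w / Z 0)
  rw [mul_div_cancel₀ _ hZ0] at hc
  rw [← hc]
  calc ‖(w / Z 0) ^ 2 - z ^ 2‖ * √(N 1 (w / Z 0) (G (w / Z 0)))
      ≤ ‖(w / Z 0) ^ 2 - z ^ 2‖ * b := mul_le_mul_of_nonneg_left hfin (norm_nonneg _)
    _ = _ := by rw [hb]; ring

end Crest.Agent.R258
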