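import Crest.Agent.R258.AMPLE
import Crest.Agent.R258.BIG
import Crest.Agent.R258.CFG
import Crest.Agent.R258.CONTR
import Crest.Agent.R258.CONV
import Crest.Agent.R258.DIV
import Crest.Agent.R258.DIVX
import Crest.Agent.R258.DN
import Crest.Agent.R258.GGT
import Crest.Agent.R258.INTERP
import Crest.Agent.R258.KER
import Crest.Agent.R258.LKT
import Crest.Agent.R258.LR
import Crest.Agent.R258.M1
import Crest.Agent.R258.MCL
import Crest.Agent.R258.NLM
import Crest.Agent.R258.NONPOS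
import Crest.Agent.R258.SCHW

set_option autoImplicit false

namespace Crest.Agent.R258

open Crest.AlgGeometry.QuadricBundle

theorem main (hcoc : StCocycle) (hfr : StFrame) :
    ∃ g : Transition 2, IsHoloCocycle g ∧ IsAmple g ∧
      ∀ H : MetricData 2, IsHermitianMetric g H → ¬ IsGriffithsPositive H := by
  obtain ⟨M, hM, hcov⟩ := cfg
  obtain ⟨n0, hn0⟩ := nonpos dnorm stNLM hfr (contr schwarz) M hM hcov
  -- choose B with 20 ∣ B + 8
  obtain ⟨B, hB1, hB2, hB3⟩ : ∃ B, n0 ≤ B ∧ 20 ∣ B + 8 ∧ 12 ≤ B :=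
    ⟨20 * n0 + 12, by omega, ⟨n0 + 1, by ring⟩, by omega⟩
  obtain ⟨L, K, hLK⟩ := lk interp div_ M hM B hB2
  have hc : Ctx M B L K := ⟨hM, hB2, hB3, hLK⟩
  refine ⟨g1 B K, hcoc B K hLK.hK, ?_, fun Hm hHm => hn0 B L K hB1 hc Hm hHm⟩
  refine ample conv M B L K hc ?_
  refine gg interp div_ mulUV_ ?_ M B L K hc
  intro M B L K hc j s t hj hs ht
  exact (lr interp div_ mulUV_ mulH ond (ker div_) divX (m1 div_) big mulE_ mulF_ M B L K hc
    j s t hs ht).1 hj

end Crest.Agent.R258
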