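import Crest.Agent.R258.Defs

set_option autoImplicit false

noncomputable section

namespace Crest.Agent.R258

open Crest.AlgGeometry.QuadricBundle
open Matrix Finset
open scoped ComplexConjugate ComplexOrder Topology

/-! ### `H` and `Bn` -/

theorem mon_mem (a a' b b' : ℕ) :
    (fun X Y : V2 => X 0 ^ a * X 1 ^ a' * (Y 0 ^ b * Y 1 ^ b')) ∈ H (a + a') (b + b') :=
  Submodule.subset_span ⟨a, a', b, b', rfl, rfl, rfl⟩

theorem mon_mem' {s t a a' b b' : ℕ} (h : a + a' = s) (h' : b + b' = t) :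
    (fun X Y : V2 => X 0 ^ a * X 1 ^ a' * (Y 0 ^ b * Y 1 ^ b')) ∈ H s t :=
  Submodule.subset_span ⟨a, a', b, b', h, h', rfl⟩

theorem H_cast {s t s' t' : ℕ} {f : V2 → V2 → ℂ} (hf : f ∈ H s t) (h : s = s') (h' : t = t') :
    f ∈ H s' t' := by subst h; subst h'; exact hf

/-- induction principle -/
theorem H_induction {s t : ℕ} {P : (V2 → V2 → ℂ) → Prop}
    (hm : ∀ a a' b b' : ℕ, a + a' = s → b + b' = t →
      P (fun X Y => X 0 ^ a * X 1 ^ a' * (Y 0 ^ b * Y 1 ^ b')))
    (h0 : P 0) (hadd : ∀ f g, f ∈ H s t → g ∈ H s t → P f → P g → P (f + g))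
    (hsmul : ∀ (c : ℂ) f, f ∈ H s t → P f → P (c • f)) :
    ∀ f ∈ H s t, P f := by
  intro f hf
  refine Submodule.span_induction (p := fun f _ => P f) ?_ h0 ?_ ?_ hf
  · rintro _ ⟨a, a', b, b', h, h', rfl⟩
    exact hm a a' b b' h h'
  · intro f g hf hg; exact hadd f g hf hg
  · intro c f hf; exact hsmul c f hf

theorem H_mul {s t s' t' : ℕ} {f g : V2 → V2 → ℂ} (hf : f ∈ H s t) (hg : g ∈ H s' t') :
    (fun X Y => f X Y * g X Y) ∈ H (s + s') (t + t') := by
  revert g
  refine H_induction (P := fun f => ∀ {g}, g ∈ H s' t' →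
    (fun X Y => f X Y * g X Y) ∈ H (s + s') (t + t')) ?_ ?_ ?_ ?_ f hf
  · intro a a' b b' h h' g hg
    refine H_induction (P := fun g => (fun X Y : V2 =>
      X 0 ^ a * X 1 ^ a' * (Y 0 ^ b * Y 1 ^ b') * g X Y) ∈ H (s + s') (t + t')) ?_ ?_ ?_ ?_ g hg
    · intro c c' d d' k k'
      have := mon_mem' (s := s + s') (t := t + t') (a := a + c) (a' := a' + c') (b := b + d)
        (b' := b' + d') (by omega) (by omega)
      convert this using 3
      ring
    · convert Submodule.zero_mem _ using 3; simp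
    · intro f g _ _ h1 h2
      convert Submodule.add_mem _ h1 h2 using 3
      simp [mul_add]
    · intro c f _ h1
      convert Submodule.smul_mem _ c h1 using 3
      simp [mul_left_comm]
  · intro g _
    convert Submodule.zero_mem _ using 3; simp
  · intro f f' _ _ h1 h2 g hg
    convert Submodule.add_mem _ (h1 hg) (h2 hg) using 3
    simp [add_mul]
  · intro c f _ h1 g hg
    convert Submodule.smul_mem _ c (h1 hg) using 3
    simp [mul_assoc]

theorem H_const (c : ℂ) : (fun _ _ : V2 => c) ∈ H 0 0 := by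
  have := Submodule.smul_mem _ c (mon_mem 0 0 0 0)
  convert this using 3
  simp

theorem H_X (l : Fin 2) (n : ℕ) : (fun X _ : V2 => X l ^ n) ∈ H n 0 := by
  fin_cases l
  · convert mon_mem' (s := n) (t := 0) (a := n) (a' := 0) (b := 0) (b' := 0) (by omega) (by omega)
      using 3
    simp
  · convert mon_mem' (s := n) (t := 0) (a := 0) (a' := n) (b := 0) (b' := 0) (by omega) (by omega)
      using 3
    simp

theorem H_Y (l : Fin 2) (n : ℕ) : (fun _ Y : V2 => Y l ^ n) ∈ H 0 n := by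
  fin_cases l
  · convert mon_mem' (s := 0) (t := n) (a := 0) (a' := 0) (b := n) (b' := 0) (by omega) (by omega)
      using 3
    simp
  · convert mon_mem' (s := 0) (t := n) (a := 0) (a' := 0) (b := 0) (b' := n) (by omega) (by omega)
      using 3
    simp

theorem H_X1 (l : Fin 2) : (fun X _ : V2 => X l) ∈ H 1 0 := by
  simpa using H_X l 1

theorem H_Y1 (l : Fin 2) : (fun _ Y : V2 => Y l) ∈ H 0 1 := by
  simpa using H_Y l 1

/-- monomial `X_l^s Y_k^t` -/
theorem H_XY (l k : Fin 2) (s t : ℕ) : (fun X Y : V2 => X l ^ s * Y k ^ t) ∈ H s t := by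
  have := H_mul (H_X l s) (H_Y k t)
  simpa using this

theorem H_pow {s t : ℕ} {f : V2 → V2 → ℂ} (hf : f ∈ H s t) (n : ℕ) :
    (fun X Y => f X Y ^ n) ∈ H (n * s) (n * t) := by
  induction n with
  | zero => simpa using H_const 1
  | succ n ih =>
    have := H_mul ih hf
    simp only [← pow_succ] at this
    exact H_cast this (by ring) (by ring)

theorem H_Xmul {s t : ℕ} {f : V2 → V2 → ℂ} (l : Fin 2) (hf : f ∈ H s t) :
    (fun X Y => X l * f X Y) ∈ H (s + 1) t := by
  have := H_mul (H_X1 l) hf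
  exact H_cast this (by omega) (by omega)

theorem H_XpowMul {s t : ℕ} {f : V2 → V2 → ℂ} (l : Fin 2) (n : ℕ) (hf : f ∈ H s t) :
    (fun X Y => X l ^ n * f X Y) ∈ H (s + n) t := by
  have := H_mul (H_X l n) hf
  exact H_cast this (by omega) (by omega)

theorem br_mem (A : Matrix (Fin 2) (Fin 2) ℂ) : (fun X Y : V2 => br (A *ᵥ X) Y) ∈ H 1 1 := by
  have e : (fun X Y : V2 => br (A *ᵥ X) Y) =
      A 0 0 • (fun X Y : V2 => X 0 * Y 1) + A 0 1 • (fun X Y : V2 => X 1 * Y 1)
      + ((-A 1 0) • (fun X Y : V2 => X 0 * Y 0) + (-A 1 1) • (fun X Y : V2 => X 1 * Y 0)) := by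
    funext X Y
    simp [br, Matrix.mulVec, dotProduct, Fin.sum_univ_two]
    ring
  rw [e]
  have h : ∀ l k : Fin 2, (fun X Y : V2 => X l * Y k) ∈ H 1 1 := fun l k => by
    simpa using H_XY l k 1 1
  exact Submodule.add_mem _ (Submodule.add_mem _ (Submodule.smul_mem _ _ (h 0 1))
    (Submodule.smul_mem _ _ (h 1 1))) (Submodule.add_mem _ (Submodule.smul_mem _ _ (h 0 0))
    (Submodule.smul_mem _ _ (h 1 0)))

theorem dl_mem (M : Mats) : dl M ∈ H 4 4 := by
  have e : dl M = fun X Y => br (M 0 *ᵥ X) Y * br (M 1 *ᵥ X) Y * br (M 2 *ᵥ X) Y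
      * br (M 3 *ᵥ X) Y := by
    funext X Y
    simp [dl, Fin.prod_univ_four]
  rw [e]
  have h01 := H_mul (br_mem (M 0)) (br_mem (M 1))
  have h23 := H_mul h01 (br_mem (M 2))
  have h4 := H_mul h23 (br_mem (M 3))
  exact H_cast h4 rfl rfl

theorem dl_mul {M : Mats} {s t : ℕ} {f : V2 → V2 → ℂ} (hf : f ∈ H s t) :
    (fun X Y => dl M X Y * f X Y) ∈ H (s + 4) (t + 4) :=
  H_cast (H_mul (dl_mem M) hf) (by omega) (by omega)

theorem H_hom {s t : ℕ} {f : V2 → V2 → ℂ} (hf : f ∈ H s t) (c d : ℂ) (X Y : V2) :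
    f (c • X) (d • Y) = c ^ s * d ^ t * f X Y := by
  refine H_induction (P := fun f => f (c • X) (d • Y) = c ^ s * d ^ t * f X Y) ?_ ?_ ?_ ?_ f hf
  · rintro a a' b b' rfl rfl
    simp only [Pi.smul_apply, smul_eq_mul, mul_pow, pow_add]
    ring
  · simp
  · intro f g _ _ h1 h2
    simp [h1, h2, mul_add]
  · intro k f _ h1
    simp [h1]
    ring

theorem H_homX {s t : ℕ} {f : V2 → V2 → ℂ} (hf : f ∈ H s t) (c : ℂ) (X Y : V2) :
    f (c • X) Y = c ^ s * f X Y := by
  simpa using H_hom hf c 1 X Y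

theorem H_homY {s t : ℕ} {f : V2 → V2 → ℂ} (hf : f ∈ H s t) (d : ℂ) (X Y : V2) :
    f X (d • Y) = d ^ t * f X Y := by
  simpa using H_hom hf 1 d X Y

theorem cv_ne (a : Fin 2) (x : ℂ) : cv a x ≠ 0 := by
  intro h
  fin_cases a
  · have := congrFun h 1; simp [cv] at this
  · have := congrFun h 0; simp [cv] at this

@[simp] theorem cv_zero_zero (x : ℂ) : cv 0 x 0 = x := by simp [cv]
@[simp] theorem cv_zero_one (x : ℂ) : cv 0 x 1 = 1 := by simp [cv]
@[simp] theorem cv_one_zero (x : ℂ) : cv 1 x 0 = 1 := by simp [cv]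
@[simp] theorem cv_one_one (x : ℂ) : cv 1 x 1 = x := by simp [cv]

theorem cv_self (a : Fin 2) (x : ℂ) : cv a x a = x := by fin_cases a <;> simp
theorem cv_other (a : Fin 2) (x : ℂ) : cv a x (1 - a) = 1 := by fin_cases a <;> simp

/-- `X = X_{1-a} • cv a (X_a / X_{1-a})` -/
theorem eq_cv (a : Fin 2) (X : V2) (h : X (1 - a) ≠ 0) :
    X = X (1 - a) • cv a (X a / X (1 - a)) := by
  funext l
  fin_cases a <;> fin_cases l <;> simp_all <;> field_simp

theorem cv_diff (a l : Fin 2) (k : Fin 2) : Differentiable ℂ (fun p : V2 => cv a (p k) l) := by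
  fin_cases a <;> fin_cases l <;> simp <;> fun_prop

theorem res_add (f g : V2 → V2 → ℂ) (α : Chart) (p : V2) :
    res (f + g) α p = res f α p + res g α p := rfl

theorem res_mul (f g : V2 → V2 → ℂ) (α : Chart) (p : V2) :
    res (fun X Y => f X Y * g X Y) α p = res f α p * res g α p := rfl

theorem res_smul (c : ℂ) (f : V2 → V2 → ℂ) (α : Chart) (p : V2) :
    res (c • f) α p = c * res f α p := rfl

@[simp] theorem res_zero (α : Chart) (p : V2) : res 0 α p = 0 := rfl

theorem res_diff {s t : ℕ} {f : V2 → V2 → ℂ} (hf : f ∈ H s t) (α : Chart) :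
    Differentiable ℂ (res f α) := by
  refine H_induction (P := fun f => Differentiable ℂ (res f α)) ?_ ?_ ?_ ?_ f hf
  · intro a a' b b' _ _
    show Differentiable ℂ (fun p : V2 => cv α.1 (p 0) 0 ^ a * cv α.1 (p 0) 1 ^ a' *
      (cv α.2 (p 1) 0 ^ b * cv α.2 (p 1) 1 ^ b'))
    have h1 := cv_diff α.1 0 0
    have h2 := cv_diff α.1 1 0
    have h3 := cv_diff α.2 0 1
    have h4 := cv_diff α.2 1 1
    fun_prop
  · exact differentiable_const (0 : ℂ)
  · intro f g _ _ h1 h2
    exact h1.add h2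
  · intro c f _ h1
    exact h1.const_smul c

/-- coordinate change on one factor -/
theorem cv_inv (a b : Fin 2) (x : ℂ) (h : a ≠ b → x ≠ 0) :
    cv a x = (if a = b then (1 : ℂ) else x) • cv b (if a = b then x else x⁻¹) := by
  funext l
  fin_cases a <;> fin_cases b <;> fin_cases l <;> simp_all

/-- transition rule for bihomogeneous functions -/
theorem res_trans {s t : ℕ} {f : V2 → V2 → ℂ} (hf : f ∈ H s t) (α β : Chart) (p : V2)
    (hp : p ∈ overlap α β) :
    res f α p = lineTrans s t α β p * res f β (tau α β p) := by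
  have h1 := cv_inv α.1 β.1 (p 0) hp.1
  have h2 := cv_inv α.2 β.2 (p 1) hp.2
  unfold res
  rw [h1, h2, H_hom hf]
  simp only [lineTrans, tau, Matrix.cons_val_zero, Matrix.cons_val_one, ite_pow, one_pow,
    zpow_natCast]

theorem eq_res {s t : ℕ} {f : V2 → V2 → ℂ} (hf : f ∈ H s t) (a b : Fin 2) (X Y : V2)
    (hX : X (1 - a) ≠ 0) (hY : Y (1 - b) ≠ 0) :
    f X Y = X (1 - a) ^ s * Y (1 - b) ^ t *
      res f (a, b) ![X a / X (1 - a), Y b / Y (1 - b)] := by
  conv_lhs => rw [eq_cv a X hX, eq_cv b Y hY]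
  rw [H_hom hf]
  rfl

theorem exists_chart (X : V2) (hX : X ≠ 0) : ∃ a : Fin 2, X (1 - a) ≠ 0 := by
  by_contra h
  push Not at h
  apply hX
  funext l
  fin_cases l
  · simpa using h 1
  · simpa using h 0

/-- a bihomogeneous function is determined by its four restrictions (off `X = 0`, `Y = 0`) -/
theorem H_ext_res {s t : ℕ} {f g : V2 → V2 → ℂ} (hf : f ∈ H s t) (hg : g ∈ H s t)
    (h : ∀ α p, res f α p = res g α p) (X Y : V2) (hX : X ≠ 0) (hY : Y ≠ 0) : f X Y = g X Y := by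
  obtain ⟨a, ha⟩ := exists_chart X hX
  obtain ⟨b, hb⟩ := exists_chart Y hY
  rw [eq_res hf a b X Y ha hb, eq_res hg a b X Y ha hb, h]

theorem H_cont {s t : ℕ} {f : V2 → V2 → ℂ} (hf : f ∈ H s t) :
    Continuous (fun q : V2 × V2 => f q.1 q.2) := by
  refine H_induction (P := fun f => Continuous (fun q : V2 × V2 => f q.1 q.2)) ?_ ?_ ?_ ?_ f hf
  · intro a a' b b' _ _
    fun_prop
  · exact continuous_const
  · intro f g _ _ h1 h2
    exact h1.add h2
  · intro c f _ h1
    exact h1.const_smul c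

theorem H_differentiable {s t : ℕ} {f : V2 → V2 → ℂ} (hf : f ∈ H s t) :
    Differentiable ℂ (fun q : V2 × V2 => f q.1 q.2) := by
  refine H_induction (P := fun f => Differentiable ℂ (fun q : V2 × V2 => f q.1 q.2)) ?_ ?_ ?_ ?_ f hf
  · intro a a' b b' _ _
    fun_prop
  · exact differentiable_const (0 : ℂ)
  · intro f g _ _ h1 h2
    exact h1.add h2
  · intro c f _ h1
    exact h1.const_smul c

/-! ### splitting -/

theorem H_split_pow {s t N : ℕ} (hN : N ≤ s + 1) {f : V2 → V2 → ℂ} (hf : f ∈ H (s + N) t) :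
    ∃ b ∈ H s t, ∃ c ∈ H s t, ∀ X Y : V2, f X Y = X 1 ^ N * b X Y + X 0 ^ N * c X Y := by
  refine H_induction (P := fun f => ∃ b ∈ H s t, ∃ c ∈ H s t,
    ∀ X Y : V2, f X Y = X 1 ^ N * b X Y + X 0 ^ N * c X Y) ?_ ?_ ?_ ?_ f hf
  · intro a a' b b' h h'
    by_cases ha : N ≤ a
    · refine ⟨0, Submodule.zero_mem _, _, mon_mem' (s := s) (t := t) (a := a - N) (a' := a')
        (b := b) (b' := b') (by omega) h', ?_⟩
      intro X Y
      have : X 0 ^ a = X 0 ^ N * X 0 ^ (a - N) := by rw [← pow_add]; congr 1; omega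
      simp only [Pi.zero_apply, mul_zero, zero_add, this]
      ring
    · refine ⟨_, mon_mem' (s := s) (t := t) (a := a) (a' := a' - N)
        (b := b) (b' := b') (by omega) h', 0, Submodule.zero_mem _, ?_⟩
      intro X Y
      have : X 1 ^ a' = X 1 ^ N * X 1 ^ (a' - N) := by rw [← pow_add]; congr 1; omega
      simp only [Pi.zero_apply, mul_zero, add_zero, this]
      ring
  · exact ⟨0, Submodule.zero_mem _, 0, Submodule.zero_mem _, by simp⟩
  · rintro f g _ _ ⟨b, hb, c, hc, h1⟩ ⟨b', hb', c', hc', h2⟩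
    refine ⟨b + b', Submodule.add_mem _ hb hb', c + c', Submodule.add_mem _ hc hc', ?_⟩
    intro X Y
    simp only [Pi.add_apply, h1, h2]
    ring
  · rintro k f _ ⟨b, hb, c, hc, h1⟩
    refine ⟨k • b, Submodule.smul_mem _ _ hb, k • c, Submodule.smul_mem _ _ hc, ?_⟩
    intro X Y
    simp only [Pi.smul_apply, smul_eq_mul, h1]
    ring

theorem H_split {s t : ℕ} {f : V2 → V2 → ℂ} (hf : f ∈ H (s + 1) t) :
    ∃ b ∈ H s t, ∃ c ∈ H s t, ∀ X Y : V2, f X Y = X 0 * b X Y + X 1 * c X Y := by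
  obtain ⟨b, hb, c, hc, h⟩ := H_split_pow (N := 1) (by omega) hf
  exact ⟨c, hc, b, hb, fun X Y => by rw [h]; ring⟩

/-! ### binary forms -/

theorem Bn_mon {n a a' : ℕ} (h : a + a' = n) : (fun X : V2 => X 0 ^ a * X 1 ^ a') ∈ Bn n :=
  Submodule.subset_span ⟨a, a', h, rfl⟩

theorem Bn_cast {n n' : ℕ} {h : V2 → ℂ} (hh : h ∈ Bn n) (e : n = n') : h ∈ Bn n' := by
  subst e; exact hh

theorem Bn_induction {n : ℕ} {P : (V2 → ℂ) → Prop}
    (hm : ∀ a a' : ℕ, a + a' = n → P (fun X => X 0 ^ a * X 1 ^ a'))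
    (h0 : P 0) (hadd : ∀ f g, f ∈ Bn n → g ∈ Bn n → P f → P g → P (f + g))
    (hsmul : ∀ (c : ℂ) f, f ∈ Bn n → P f → P (c • f)) :
    ∀ f ∈ Bn n, P f := by
  intro f hf
  refine Submodule.span_induction (p := fun f _ => P f) ?_ h0 ?_ ?_ hf
  · rintro _ ⟨a, a', h, rfl⟩
    exact hm a a' h
  · intro f g hf hg; exact hadd f g hf hg
  · intro c f hf; exact hsmul c f hf

theorem Bn_iff_H {n : ℕ} {h : V2 → ℂ} : h ∈ Bn n → (fun X _ => h X) ∈ H n 0 := by
  intro hh
  refine Bn_induction (P := fun h => (fun X _ : V2 => h X) ∈ H n 0) ?_ ?_ ?_ ?_ h hh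
  · intro a a' e
    convert mon_mem' (s := n) (t := 0) (a := a) (a' := a') (b := 0) (b' := 0) e (by omega) using 3
    simp
  · exact Submodule.zero_mem _
  · intro f g _ _ h1 h2
    exact Submodule.add_mem _ h1 h2
  · intro c f _ h1
    exact Submodule.smul_mem _ c h1

theorem Bn_mul {n n' : ℕ} {f g : V2 → ℂ} (hf : f ∈ Bn n) (hg : g ∈ Bn n') :
    (fun X => f X * g X) ∈ Bn (n + n') := by
  revert g
  refine Bn_induction (P := fun f => ∀ {g}, g ∈ Bn n' →
    (fun X => f X * g X) ∈ Bn (n + n')) ?_ ?_ ?_ ?_ f hf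
  · intro a a' h g hg
    refine Bn_induction (P := fun g => (fun X : V2 =>
      X 0 ^ a * X 1 ^ a' * g X) ∈ Bn (n + n')) ?_ ?_ ?_ ?_ g hg
    · intro c c' k
      have := Bn_mon (n := n + n') (a := a + c) (a' := a' + c') (by omega)
      convert this using 2
      ring
    · convert Submodule.zero_mem _ using 2; simp
    · intro f g _ _ h1 h2
      convert Submodule.add_mem _ h1 h2 using 2
      simp [mul_add]
    · intro c f _ h1
      convert Submodule.smul_mem _ c h1 using 2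
      simp [mul_left_comm]
  · intro g _
    convert Submodule.zero_mem _ using 2; simp
  · intro f f' _ _ h1 h2 g hg
    convert Submodule.add_mem _ (h1 hg) (h2 hg) using 2
    simp [add_mul]
  · intro c f _ h1 g hg
    convert Submodule.smul_mem _ c (h1 hg) using 2
    simp [mul_assoc]

theorem Bn_const (c : ℂ) : (fun _ : V2 => c) ∈ Bn 0 := by
  have := Submodule.smul_mem _ c (Bn_mon (n := 0) (a := 0) (a' := 0) rfl)
  convert this using 2
  simp

theorem Bn_pow {n : ℕ} {f : V2 → ℂ} (hf : f ∈ Bn n) (k : ℕ) : (fun X => f X ^ k) ∈ Bn (k * n) := by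
  induction k with
  | zero => simpa using Bn_const 1
  | succ k ih =>
    have := Bn_mul ih hf
    simp only [← pow_succ] at this
    exact Bn_cast this (by ring)

theorem Bn_X (l : Fin 2) (n : ℕ) : (fun X : V2 => X l ^ n) ∈ Bn n := by
  fin_cases l
  · simpa using Bn_mon (n := n) (a := n) (a' := 0) (by omega)
  · simpa using Bn_mon (n := n) (a := 0) (a' := n) (by omega)

theorem Bn_lin (u v : ℂ) : (fun X : V2 => u * X 0 + v * X 1) ∈ Bn 1 := by
  have h0 := Submodule.smul_mem _ u (Bn_X 0 1)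
  have h1 := Submodule.smul_mem _ v (Bn_X 1 1)
  convert Submodule.add_mem _ h0 h1 using 2
  simp

theorem Bn_hom {n : ℕ} {h : V2 → ℂ} (hh : h ∈ Bn n) (c : ℂ) (X : V2) :
    h (c • X) = c ^ n * h X := by
  have := H_homX (Bn_iff_H hh) c X 0
  simpa using this

theorem Bn_mulVec (A : Matrix (Fin 2) (Fin 2) ℂ) (l : Fin 2) :
    (fun X : V2 => (A *ᵥ X) l) ∈ Bn 1 := by
  have := Bn_lin (A l 0) (A l 1)
  convert this using 2
  simp [Matrix.mulVec, dotProduct, Fin.sum_univ_two]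

theorem Bn_comp {n : ℕ} {h : V2 → ℂ} (hh : h ∈ Bn n) (A : Matrix (Fin 2) (Fin 2) ℂ) :
    (fun X => h (A *ᵥ X)) ∈ Bn n := by
  refine Bn_induction (P := fun h => (fun X => h (A *ᵥ X)) ∈ Bn n) ?_ ?_ ?_ ?_ h hh
  · intro a a' e
    have := Bn_mul (Bn_pow (Bn_mulVec A 0) a) (Bn_pow (Bn_mulVec A 1) a')
    exact Bn_cast this (by omega)
  · exact Submodule.zero_mem _
  · intro f g _ _ h1 h2
    exact Submodule.add_mem _ h1 h2
  · intro c f _ h1
    exact Submodule.smul_mem _ c h1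

theorem Bn_br (A B : Matrix (Fin 2) (Fin 2) ℂ) : (fun X : V2 => br (A *ᵥ X) (B *ᵥ X)) ∈ Bn 2 := by
  have h1 := Bn_mul (Bn_mulVec A 0) (Bn_mulVec B 1)
  have h2 := Bn_mul (Bn_mulVec A 1) (Bn_mulVec B 0)
  exact Submodule.sub_mem _ h1 h2

theorem Bn_brv (v : V2) : (fun X : V2 => br v X) ∈ Bn 1 := by
  have := Bn_lin (-v 1) (v 0)
  convert this using 2
  simp [br]; ring

/-- restriction to a graph -/
theorem H_graph {s t : ℕ} {f : V2 → V2 → ℂ} (hf : f ∈ H s t) (A : Matrix (Fin 2) (Fin 2) ℂ) :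
    (fun X => f X (A *ᵥ X)) ∈ Bn (s + t) := by
  refine H_induction (P := fun f => (fun X => f X (A *ᵥ X)) ∈ Bn (s + t)) ?_ ?_ ?_ ?_ f hf
  · intro a a' b b' e e'
    have h1 := Bn_mon (n := s) e
    have h2 := Bn_mul (Bn_pow (Bn_mulVec A 0) b) (Bn_pow (Bn_mulVec A 1) b')
    exact Bn_cast (Bn_mul h1 h2) (by omega)
  · exact Submodule.zero_mem _
  · intro f g _ _ h1 h2
    exact Submodule.add_mem _ h1 h2
  · intro c f _ h1
    exact Submodule.smul_mem _ c h1

/-! ### elementary facts on the configuration -/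

theorem br_self (X : V2) : br X X = 0 := by simp [br]; ring

theorem br_smul_right (c : ℂ) (X Y : V2) : br X (c • Y) = c * br X Y := by
  simp [br]; ring

theorem br_smul_left (c : ℂ) (X Y : V2) : br (c • X) Y = c * br X Y := by
  simp [br]; ring

theorem br_swap (X Y : V2) : br Y X = - br X Y := by simp [br]; ring

theorem eq_smul_of_br {X Y : V2} (hY : Y ≠ 0) (h : br X Y = 0) : ∃ μ : ℂ, X = μ • Y := by
  obtain ⟨a, ha⟩ := exists_chart Y hY
  refine ⟨X (1 - a) / Y (1 - a), ?_⟩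
  have h' : X 0 * Y 1 - X 1 * Y 0 = 0 := h
  funext l
  rw [Pi.smul_apply, smul_eq_mul, div_mul_eq_mul_div, eq_div_iff ha]
  fin_cases a <;> fin_cases l <;> simp
  · linear_combination h'
  · linear_combination -h'

theorem mulVec_ne {A : Matrix (Fin 2) (Fin 2) ℂ} (hA : A.det ≠ 0) {X : V2} (hX : X ≠ 0) :
    A *ᵥ X ≠ 0 := by
  intro h
  apply hX
  exact Matrix.eq_zero_of_mulVec_eq_zero hA h

theorem Cfg.mulVec_ne {M : Mats} (hM : Cfg M) (i : Fin 4) {X : V2} (hX : X ≠ 0) :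
    M i *ᵥ X ≠ 0 := Crest.Agent.R258.mulVec_ne (by rw [hM.det]; exact one_ne_zero) hX

theorem dl_graph (M : Mats) (i : Fin 4) (X : V2) : dl M X (M i *ᵥ X) = 0 := by
  unfold dl
  exact Finset.prod_eq_zero (Finset.mem_univ i) (br_self _)

theorem dl_zero_iff {M : Mats} (X Y : V2) : dl M X Y = 0 ↔ ∃ i, br (M i *ᵥ X) Y = 0 := by
  unfold dl
  rw [Finset.prod_eq_zero_iff]
  simp

/-- a zero of `δ` is a graph point up to scaling -/
theorem Cfg.graph_of_dl {M : Mats} (hM : Cfg M) {X Y : V2} (hX : X ≠ 0) (h : dl M X Y = 0) :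
    ∃ i, ∃ μ : ℂ, Y = μ • (M i *ᵥ X) := by
  obtain ⟨i, hi⟩ := dl_zero_iff X Y |>.1 h
  refine ⟨i, ?_⟩
  apply eq_smul_of_br (hM.mulVec_ne i hX)
  rw [br_swap, hi, neg_zero]

/-- density of the complement of the zero set of an entire function -/
theorem dense_ne {f : V2 → ℂ} (hf : Differentiable ℂ f) {q : V2} (hq : f q ≠ 0) :
    Dense {p | f p ≠ 0} := by
  intro p
  rw [mem_closure_iff_frequently]
  let g : ℂ → ℂ := fun w => f (p + w • (q - p))
  have hg : Differentiable ℂ g := hf.comp (by fun_prop)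
  have hga : AnalyticAt ℂ g 0 := hg.analyticAt 0
  have hne : ∀ᶠ w in 𝓝[≠] (0 : ℂ), g w ≠ 0 := by
    rcases hga.eventually_eq_zero_or_eventually_ne_zero with h | h
    · exfalso
      have := (hg.differentiableOn.analyticOnNhd isOpen_univ
        ).eqOn_zero_of_preconnected_of_eventuallyEq_zero isPreconnected_univ (Set.mem_univ 0) h
      have h1 := this (Set.mem_univ 1)
      apply hq
      simpa [g] using h1
    · exact h
  have hfr : ∃ᶠ w in 𝓝 (0 : ℂ), g w ≠ 0 := by
    have := hne.frequently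
    exact this.filter_mono nhdsWithin_le_nhds
  have ht : Filter.Tendsto (fun w : ℂ => p + w • (q - p)) (𝓝 0) (𝓝 p) := by
    have : Continuous (fun w : ℂ => p + w • (q - p)) := by fun_prop
    simpa using this.tendsto 0
  exact ht.frequently hfr

theorem eq_of_dense {f g h : V2 → ℂ} (hf : Differentiable ℂ f) (hg : Differentiable ℂ g)
    (hd : Dense {p | h p ≠ 0}) (he : ∀ p, h p ≠ 0 → f p = g p) (p : V2) : f p = g p := by
  have := Continuous.ext_on hd hf.continuous hg.continuous (fun p hp => he p hp)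
  exact congrFun this p

/-- `δ` is not identically zero in any chart -/
theorem exists_dl_ne {M : Mats} (hM : Cfg M) (α : Chart) : ∃ q, res (dl M) α q ≠ 0 := by
  by_contra hcon
  push Not at hcon
  -- fix x = 0, five values of y
  set v := cv α.1 0 with hv
  have hvne : v ≠ 0 := cv_ne _ _
  have key : ∀ i : Fin 4, ∀ y y' : ℂ, y ≠ y' → br (M i *ᵥ v) (cv α.2 y) = 0 →
      br (M i *ᵥ v) (cv α.2 y') ≠ 0 := by
    intro i y y' hyy h1 h2
    have hne := hM.mulVec_ne i hvne
    set w := M i *ᵥ v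
    apply hne
    have hsub : y - y' ≠ 0 := sub_ne_zero.2 hyy
    rcases α with ⟨a, b⟩
    have e1 : w 0 * cv b y 1 - w 1 * cv b y 0 = 0 := h1
    have e2 : w 0 * cv b y' 1 - w 1 * cv b y' 0 = 0 := h2
    funext l
    fin_cases b
    · simp at e1 e2
      have h3 : w 1 = 0 := by
        have : w 1 * (y - y') = 0 := by linear_combination e2 - e1
        exact (mul_eq_zero.1 this).resolve_right hsub
      have h4 : w 0 = 0 := by rw [h3] at e1; simpa using e1
      fin_cases l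
      · simpa using h4
      · simpa using h3
    · simp at e1 e2
      have h3 : w 0 = 0 := by
        have : w 0 * (y - y') = 0 := by linear_combination e1 - e2
        exact (mul_eq_zero.1 this).resolve_right hsub
      have h4 : w 1 = 0 := by rw [h3] at e1; simpa using e1
      fin_cases l
      · simpa using h3
      · simpa using h4
  have hall : ∀ y : ℂ, ∃ i : Fin 4, br (M i *ᵥ v) (cv α.2 y) = 0 := by
    intro y
    have := hcon ![0, y]
    exact (dl_zero_iff _ _).1 this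
  choose F hF using hall
  -- pigeonhole on five points
  have hinj : Function.Injective (fun k : Fin 5 => F (k.val : ℂ)) := by
    intro k l hkl
    by_contra hne
    have h1 := hF (k.val : ℂ)
    have h2 := hF (l.val : ℂ)
    simp only at hkl
    rw [hkl] at h1
    refine key _ _ _ ?_ h1 h2
    intro e
    apply hne
    have : k.val = l.val := by exact_mod_cast e
    exact Fin.ext this
  have := Fintype.card_le_of_injective _ hinj
  simp at this

theorem dense_dl {M : Mats} (hM : Cfg M) (α : Chart) : Dense {p | res (dl M) α p ≠ 0} := by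
  obtain ⟨q, hq⟩ := exists_dl_ne hM α
  exact dense_ne (res_diff (dl_mem M) α) hq

/-! ### the local value of `L` on the graphs -/

/-- on the graph, in the chart `(a,b)`: `X_{1-a}^{?}`; `L` does not vanish where `δ` does -/
theorem LK.ne_of_dl {M : Mats} {B : ℕ} {L : Fin 2 → V2 → V2 → ℂ} {K : V2 → V2 → ℂ}
    (hM : Cfg M) (h : LK M B L K) (α : Chart) (p : V2) (hd : res (dl M) α p = 0) :
    res (L α.1) α p ≠ 0 := by
  obtain ⟨i, μ, hμ⟩ := hM.graph_of_dl (cv_ne α.1 (p 0)) hd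
  have hμ0 : μ ≠ 0 := by
    rintro rfl
    exact cv_ne α.2 (p 1) (by simpa using hμ)
  show L α.1 (cv α.1 (p 0)) (cv α.2 (p 1)) ≠ 0
  rw [hμ, H_homY (h.hL _), h.hLM, cv_other]
  simp [hμ0]

/-- if `Y = M_i X` then in the chart `(a,b)`: `L_α · Y_{1-b}^{B+8} = X_{1-a}^{B+8}` -/
theorem LK.res_graph {M : Mats} {B : ℕ} {L : Fin 2 → V2 → V2 → ℂ} {K : V2 → V2 → ℂ}
    (h : LK M B L K) (a b : Fin 2) (i : Fin 4) (X : V2) (hX : X (1 - a) ≠ 0)
    (hY : (M i *ᵥ X) (1 - b) ≠ 0) :
    res (L a) (a, b) ![X a / X (1 - a), (M i *ᵥ X) b / (M i *ᵥ X) (1 - b)]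
      * (M i *ᵥ X) (1 - b) ^ (B + 8) = X (1 - a) ^ (B + 8) := by
  have h1 := eq_res (h.hL a) a b X (M i *ᵥ X) hX hY
  rw [h.hLM] at h1
  have h2 : X (1 - a) ^ 3 ≠ 0 := pow_ne_zero _ hX
  apply mul_left_cancel₀ h2
  rw [← mul_assoc, mul_right_comm, ← h1, ← pow_add]
  congr 1
  omega

/-! ### linear structure of `MemM` -/

theorem Loc.add {M : Mats} {L : Fin 2 → V2 → V2 → ℂ} {j : ℕ} {a b : ℕ → V2 → V2 → ℂ}
    {α : Chart} {c d : ℕ → V2 → ℂ} (h : Loc M L j a α c) (h' : Loc M L j b α d) :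
    Loc M L j (a + b) α (c + d) := by
  refine ⟨fun i => (h.1 i).add (h'.1 i), fun p U V => ?_⟩
  have h1 := h.2 p U V
  have h2 := h'.2 p U V
  simp only [Pi.add_apply, res_add, add_mul, Finset.sum_add_distrib, h1, h2]

theorem Loc.smul {M : Mats} {L : Fin 2 → V2 → V2 → ℂ} {j : ℕ} {a : ℕ → V2 → V2 → ℂ}
    {α : Chart} {c : ℕ → V2 → ℂ} (k : ℂ) (h : Loc M L j a α c) :
    Loc M L j (k • a) α (k • c) := by
  refine ⟨fun i => (h.1 i).const_smul k, fun p U V => ?_⟩
  have h1 := h.2 p U V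
  simp only [Pi.smul_apply, res_smul, smul_eq_mul, mul_assoc] at h1 ⊢
  rw [← Finset.mul_sum, ← Finset.mul_sum, h1]

theorem MemM.add {M : Mats} {B : ℕ} {L : Fin 2 → V2 → V2 → ℂ} {j s t : ℕ}
    {a b : ℕ → V2 → V2 → ℂ} (h : MemM M B L j s t a) (h' : MemM M B L j s t b) :
    MemM M B L j s t (a + b) where
  mem i hi := Submodule.add_mem _ (h.mem i hi) (h'.mem i hi)
  zero i hi := by simp [h.zero i hi, h'.zero i hi]
  loc α := by
    obtain ⟨c, hc⟩ := h.loc α
    obtain ⟨d, hd⟩ := h'.loc α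
    exact ⟨_, hc.add hd⟩

theorem MemM.smul {M : Mats} {B : ℕ} {L : Fin 2 → V2 → V2 → ℂ} {j s t : ℕ}
    {a : ℕ → V2 → V2 → ℂ} (k : ℂ) (h : MemM M B L j s t a) :
    MemM M B L j s t (k • a) where
  mem i hi := Submodule.smul_mem _ _ (h.mem i hi)
  zero i hi := by simp [h.zero i hi]
  loc α := by
    obtain ⟨c, hc⟩ := h.loc α
    exact ⟨_, hc.smul k⟩

theorem MemM.neg {M : Mats} {B : ℕ} {L : Fin 2 → V2 → V2 → ℂ} {j s t : ℕ}
    {a : ℕ → V2 → V2 → ℂ} (h : MemM M B L j s t a) : MemM M B L j s t (-a) := by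
  simpa using h.smul (-1)

theorem MemM.sub {M : Mats} {B : ℕ} {L : Fin 2 → V2 → V2 → ℂ} {j s t : ℕ}
    {a b : ℕ → V2 → V2 → ℂ} (h : MemM M B L j s t a) (h' : MemM M B L j s t b) :
    MemM M B L j s t (a - b) := by
  rw [sub_eq_add_neg]
  exact h.add h'.neg

theorem MemM.zero' (M : Mats) (B : ℕ) (L : Fin 2 → V2 → V2 → ℂ) (j s t : ℕ) :
    MemM M B L j s t 0 where
  mem i hi := Submodule.zero_mem _
  zero i hi := rfl
  loc α := ⟨0, fun i => differentiable_const (0 : ℂ), fun p U V => by simp⟩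

theorem MemM.cast {M : Mats} {B : ℕ} {L : Fin 2 → V2 → V2 → ℂ} {j s t s' t' : ℕ}
    {a : ℕ → V2 → V2 → ℂ} (h : MemM M B L j s t a) (e : s = s') (e' : t = t') :
    MemM M B L j s' t' a := by subst e; subst e'; exact h

/-- `j = 0`: everything in `H s t` -/
theorem memM_zero {M : Mats} {B : ℕ} {L : Fin 2 → V2 → V2 → ℂ} {s t : ℕ} {f : V2 → V2 → ℂ}
    (hf : f ∈ H s t) : MemM M B L 0 s t (fun i => if i = 0 then f else 0) where
  mem i hi := by
    have : i = 0 := by omega
    subst this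
    simpa using hf
  zero i hi := by
    have : i ≠ 0 := by omega
    simp [this]
  loc α := by
    refine ⟨fun i => if i = 0 then res f α else 0, fun i => ?_, fun p U V => by simp⟩
    by_cases hi : i = 0
    · subst hi; simpa using res_diff hf α
    · simp only [hi, if_false]; exact differentiable_const (0 : ℂ)

end Crest.Agent.R258
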