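import Crest.Agent.R258.DN

/-! NONPOS: assembly of the non-positivity -/

set_option autoImplicit false

open Filter Topology Matrix
open scoped ComplexConjugate ComplexOrder
open Crest.AlgGeometry.QuadricBundle

noncomputable section

namespace Crest.Agent.R258.NONPOS

/-- `√(1+|x|⁴)` -/
def w4 (x : ℂ) : ℝ := √(1 + ‖x‖ ^ 4)

theorem w4_pos (x : ℂ) : 0 < w4 x := Real.sqrt_pos.2 (by positivity)

theorem w4_sq (x : ℂ) : w4 x ^ 2 = 1 + ‖x‖ ^ 4 := Real.sq_sqrt (by positivity)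

theorem w4_inv {x : ℂ} (hx : x ≠ 0) : w4 x = ‖x‖ ^ 2 * w4 x⁻¹ := by
  have hx' : 0 < ‖x‖ := norm_pos_iff.2 hx
  have h : 0 ≤ ‖x‖ ^ 2 * w4 x⁻¹ := mul_nonneg (by positivity) (w4_pos _).le
  rw [← Real.sqrt_sq h, mul_pow, w4_sq, w4]
  congr 1
  rw [norm_inv]
  field_simp
  ring

theorem w4_cont : Continuous w4 := by
  unfold w4
  fun_prop

/-- scale factor -/
def sfac (b : Prop) [Decidable b] (x : ℂ) : ℝ := if b then 1 else ‖x‖ ^ 2

theorem sfac_pos (b : Prop) [Decidable b] {x : ℂ} (hx : ¬ b → x ≠ 0) : 0 < sfac b x := by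
  unfold sfac
  split_ifs with h
  · exact one_pos
  · have := norm_pos_iff.2 (hx h)
    positivity

theorem w4_sfac (b : Prop) [Decidable b] {x : ℂ} (hx : ¬ b → x ≠ 0) :
    w4 x = sfac b x * w4 (if b then x else x⁻¹) := by
  unfold sfac
  split_ifs with h
  · rw [one_mul]
  · exact w4_inv (hx h)

theorem line_norm (s t : ℕ) (α β : Chart) (p : V2) :
    ‖lineTrans s t α β p‖ ^ 2 = sfac (α.1 = β.1) (p 0) ^ s * sfac (α.2 = β.2) (p 1) ^ t := by
  unfold lineTrans sfac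
  rw [norm_mul, mul_pow]
  congr 1
  · split_ifs
    · simp
    · rw [zpow_natCast, norm_pow, ← pow_mul, ← pow_mul, mul_comm]
  · split_ifs
    · simp
    · rw [zpow_natCast, norm_pow, ← pow_mul, ← pow_mul, mul_comm]

section
variable {M : Mats} {B : ℕ} {L : Fin 2 → V2 → V2 → ℂ} {K : V2 → V2 → ℂ} {Hm : MetricData 2}

def nn (B : ℕ) : ℕ := 2 * B + 17

/-- the frame relations, as used here -/
structure Fr (M : Mats) (B : ℕ) (L : Fin 2 → V2 → V2 → ℂ) (K : V2 → V2 → ℂ) : Prop where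
  f1 : ∀ α β, ∀ p ∈ overlap α β, (g1 B K α β p)ᵀ *ᵥ ph M L α p =
    lineTrans (1 : ℕ) (nn B : ℕ) α β p • ph M L β (tau α β p)
  f2 : ∀ α β, ∀ p ∈ overlap α β, (g1 B K α β p)ᵀ *ᵥ pv =
    lineTrans (nn B : ℕ) (1 : ℕ) α β p • pv
  f3 : ∀ α β, ∀ p ∈ overlap α β, (g1 B K α β p).det ≠ 0
  f4 : ∀ α p, ph M L α p ≠ 0
  f5 : ∀ (X Y : V2) i, M i *ᵥ sq X = sq Y → ∀ α : Chart, X (1 - α.1) ≠ 0 → Y (1 - α.2) ≠ 0 →
    (X (1 - α.1) * Y (1 - α.2) ^ nn B) •
      ph M L α ![X α.1 / X (1 - α.1), Y α.2 / Y (1 - α.2)] =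
    (X (1 - α.1) ^ nn B * Y (1 - α.2)) • pv
  f6 : ∀ α, Differentiable ℂ (ph M L α)

theorem fr_of (hF : StFrame) (hc : Ctx M B L K) : Fr M B L K := by
  obtain ⟨h1, h2, h3, h4, h5, h6⟩ := hF M B L K hc
  refine ⟨?_, ?_, h3, h4, h5, h6⟩
  · intro α β p hp
    have := h1 α β p hp
    rw [this]
    simp [nn]
  · intro α β p hp
    have := h2 α β p hp
    rw [this]
    simp [nn]

theorem rel_ph (hF : Fr M B L K) (hH : IsHermitianMetric (g1 B K) Hm) (α β : Chart) (p : V2)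
    (hp : p ∈ overlap α β) : dn (Hm α p) (ph M L α p) =
      (sfac (α.1 = β.1) (p 0) * sfac (α.2 = β.2) (p 1) ^ nn B) *
        dn (Hm β (tau α β p)) (ph M L β (tau α β p)) := by
  have h1 := dn_cong (hH.posDef α p) (hF.f3 α β p hp) (ph M L α p)
  rw [← hH.compat α β p hp, hF.f1 α β p hp, dn_smul, line_norm, pow_one] at h1
  exact h1.symm

theorem rel_pv (hF : Fr M B L K) (hH : IsHermitianMetric (g1 B K) Hm) (α β : Chart) (p : V2)
    (hp : p ∈ overlap α β) : dn (Hm α p) pv =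
      (sfac (α.1 = β.1) (p 0) ^ nn B * sfac (α.2 = β.2) (p 1)) *
        dn (Hm β (tau α β p)) pv := by
  have h1 := dn_cong (hH.posDef α p) (hF.f3 α β p hp) pv
  rw [← hH.compat α β p hp, hF.f2 α β p hp, dn_smul, line_norm, pow_one] at h1
  exact h1.symm

def Cf (M : Mats) (B : ℕ) (L : Fin 2 → V2 → V2 → ℂ) (Hm : MetricData 2) (α : Chart) (p : V2) : ℝ :=
  dn (Hm α p) (ph M L α p) / (w4 (p 0) * w4 (p 1) ^ nn B)

def Df (B : ℕ) (Hm : MetricData 2) (α : Chart) (p : V2) : ℝ :=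
  dn (Hm α p) pv / (w4 (p 0) ^ nn B * w4 (p 1))

theorem dn_ph_eq (α : Chart) (p : V2) :
    dn (Hm α p) (ph M L α p) = Cf M B L Hm α p * (w4 (p 0) * w4 (p 1) ^ nn B) := by
  unfold Cf
  rw [div_mul_cancel₀]
  have h1 := w4_pos (p 0)
  have h2 := w4_pos (p 1)
  positivity

theorem dn_pv_eq (B : ℕ) (α : Chart) (p : V2) :
    dn (Hm α p) pv = Df B Hm α p * (w4 (p 0) ^ nn B * w4 (p 1)) := by
  unfold Df
  rw [div_mul_cancel₀]
  have h1 := w4_pos (p 0)
  have h2 := w4_pos (p 1)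
  positivity

theorem Cf_tau (hF : Fr M B L K) (hH : IsHermitianMetric (g1 B K) Hm) (α β : Chart) (p : V2)
    (hp : p ∈ overlap α β) : Cf M B L Hm α p = Cf M B L Hm β (tau α β p) := by
  have hx := w4_sfac (α.1 = β.1) (x := p 0) hp.1
  have hy := w4_sfac (α.2 = β.2) (x := p 1) hp.2
  have hx0 := sfac_pos (α.1 = β.1) (x := p 0) hp.1
  have hy0 := sfac_pos (α.2 = β.2) (x := p 1) hp.2
  unfold Cf
  rw [rel_ph hF hH α β p hp, hx, hy]
  have e0 : tau α β p 0 = if α.1 = β.1 then p 0 else (p 0)⁻¹ := rfl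
  have e1 : tau α β p 1 = if α.2 = β.2 then p 1 else (p 1)⁻¹ := rfl
  rw [e0, e1]
  have h1 := w4_pos (if α.1 = β.1 then p 0 else (p 0)⁻¹)
  have h2 := w4_pos (if α.2 = β.2 then p 1 else (p 1)⁻¹)
  rw [mul_pow]
  field_simp

theorem Df_tau (hF : Fr M B L K) (hH : IsHermitianMetric (g1 B K) Hm) (α β : Chart) (p : V2)
    (hp : p ∈ overlap α β) : Df B Hm α p = Df B Hm β (tau α β p) := by
  have hx := w4_sfac (α.1 = β.1) (x := p 0) hp.1
  have hy := w4_sfac (α.2 = β.2) (x := p 1) hp.2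
  have hx0 := sfac_pos (α.1 = β.1) (x := p 0) hp.1
  have hy0 := sfac_pos (α.2 = β.2) (x := p 1) hp.2
  unfold Df
  rw [rel_pv hF hH α β p hp, hx, hy]
  have e0 : tau α β p 0 = if α.1 = β.1 then p 0 else (p 0)⁻¹ := rfl
  have e1 : tau α β p 1 = if α.2 = β.2 then p 1 else (p 1)⁻¹ := rfl
  rw [e0, e1]
  have h1 := w4_pos (if α.1 = β.1 then p 0 else (p 0)⁻¹)
  have h2 := w4_pos (if α.2 = β.2 then p 1 else (p 1)⁻¹)
  rw [mul_pow]
  field_simp

theorem reduce (α : Chart) (p : V2) : ∃ β : Chart, p ∈ overlap α β ∧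
    tau α β p ∈ Metric.closedBall (0 : V2) 1 := by
  refine ⟨(if ‖p 0‖ ≤ 1 then α.1 else 1 - α.1, if ‖p 1‖ ≤ 1 then α.2 else 1 - α.2), ?_, ?_⟩
  · constructor
    · intro h h0
      apply h
      simp [h0]
    · intro h h0
      apply h
      simp [h0]
  · have hne : ∀ a : Fin 2, a ≠ 1 - a := by decide
    rw [mem_closedBall_zero_iff, pi_norm_le_iff_of_nonneg zero_le_one]
    intro i
    fin_cases i
    · show ‖(if α.1 = (if ‖p 0‖ ≤ 1 then α.1 else 1 - α.1) then p 0 else (p 0)⁻¹)‖ ≤ 1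
      by_cases h : ‖p 0‖ ≤ 1
      · simp [h]
      · rw [if_neg h, if_neg (hne _), norm_inv]
        exact inv_le_one_of_one_le₀ (not_le.1 h).le
    · show ‖(if α.2 = (if ‖p 1‖ ≤ 1 then α.2 else 1 - α.2) then p 1 else (p 1)⁻¹)‖ ≤ 1
      by_cases h : ‖p 1‖ ≤ 1
      · simp [h]
      · rw [if_neg h, if_neg (hne _), norm_inv]
        exact inv_le_one_of_one_le₀ (not_le.1 h).le

theorem Cf_cont (hF : Fr M B L K) (hH : IsHermitianMetric (g1 B K) Hm) (α : Chart) :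
    Continuous (Cf M B L Hm α) := by
  have h := dn_cont V2 (fun p => Hm α p) (fun p => ph M L α p)
    (fun i j => (hH.smooth α i j).continuous) (hH.posDef α) (hF.f6 α).continuous
  refine h.div ?_ ?_
  · exact (w4_cont.comp (continuous_apply 0)).mul ((w4_cont.comp (continuous_apply 1)).pow _)
  · intro p
    have h1 := w4_pos (p 0)
    have h2 := w4_pos (p 1)
    positivity

theorem Df_cont (hH : IsHermitianMetric (g1 B K) Hm) (α : Chart) :
    Continuous (Df B Hm α) := by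
  have h := dn_cont V2 (fun p => Hm α p) (fun _ => pv)
    (fun i j => (hH.smooth α i j).continuous) (hH.posDef α) continuous_const
  refine h.div ?_ ?_
  · exact ((w4_cont.comp (continuous_apply 0)).pow _).mul (w4_cont.comp (continuous_apply 1))
  · intro p
    have h1 := w4_pos (p 0)
    have h2 := w4_pos (p 1)
    positivity

theorem exists_max (hF : Fr M B L K) (hH : IsHermitianMetric (g1 B K) Hm) :
    ∃ m : ℝ, 0 < m ∧ (∀ α p, Cf M B L Hm α p ≤ m) ∧ (∀ α p, Df B Hm α p ≤ m) ∧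
      ∃ (α : Chart) (p : V2), Cf M B L Hm α p = m ∨ Df B Hm α p = m := by
  set G : Chart → V2 → ℝ := fun α p => max (Cf M B L Hm α p) (Df B Hm α p) with hG
  have hGc : ∀ α, Continuous (G α) := fun α => (Cf_cont hF hH α).max (Df_cont hH α)
  have h1 : ∀ α, ∃ p ∈ Metric.closedBall (0 : V2) 1, ∀ q ∈ Metric.closedBall (0 : V2) 1,
      G α q ≤ G α p := by
    intro α
    obtain ⟨p, hp, hmax⟩ := (isCompact_closedBall (0 : V2) 1).exists_isMaxOn
      ⟨0, by simp⟩ (hGc α).continuousOn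
    exact ⟨p, hp, fun q hq => hmax hq⟩
  choose P hP hPmax using h1
  obtain ⟨α0, hα0⟩ := Finite.exists_max (fun α => G α (P α))
  have hall : ∀ α p, G α p ≤ G α0 (P α0) := by
    intro α p
    obtain ⟨β, hβ, hq⟩ := reduce α p
    have e : G α p = G β (tau α β p) := by
      simp only [hG]
      rw [Cf_tau hF hH α β p hβ, Df_tau hF hH α β p hβ]
    rw [e]
    exact (hPmax β _ hq).trans (hα0 β)
  refine ⟨G α0 (P α0), ?_, fun α p => (le_max_left _ _).trans (hall α p),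
    fun α p => (le_max_right _ _).trans (hall α p), α0, P α0, ?_⟩
  · refine lt_of_lt_of_le ?_ (le_max_left _ _)
    unfold Cf
    have h1 := w4_pos (P α0 0)
    have h2 := w4_pos (P α0 1)
    have h3 := (dn_ex (hH.posDef α0 (P α0)) _ (hF.f4 α0 (P α0))).1
    positivity
  · rcases max_choice (Cf M B L Hm α0 (P α0)) (Df B Hm α0 (P α0)) with h | h
    · left; exact h.symm
    · right; exact h.symm

/-! ### normalised points -/

theorem exists_sq (X : V2) : ∃ Z : V2, sq Z = X := by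
  obtain ⟨z0, h0⟩ := IsAlgClosed.exists_pow_nat_eq (X 0) (n := 2) (by norm_num)
  obtain ⟨z1, h1⟩ := IsAlgClosed.exists_pow_nat_eq (X 1) (n := 2) (by norm_num)
  refine ⟨![z0, z1], ?_⟩
  ext i
  fin_cases i
  · simpa [sq] using h0
  · simpa [sq] using h1

theorem nrm2_sq (Z : V2) : nrm2 (sq Z) = ‖Z 0‖ ^ 4 + ‖Z 1‖ ^ 4 := by
  unfold nrm2 sq
  rw [norm_pow, norm_pow]
  ring

/-- the normalised vector above the point `y` of the chart `b` -/
def nv (b : Fin 2) (y : ℂ) : V2 := fun i =>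
  ((√(w4 y))⁻¹ : ℝ) * (if i = b then y else 1)

theorem nv_ne (b : Fin 2) (y : ℂ) : nv b y (1 - b) ≠ 0 := by
  have h := Real.sqrt_pos.2 (w4_pos y)
  unfold nv
  have hb : (1 - b) ≠ b := by revert b; decide
  rw [if_neg hb, mul_one]
  exact_mod_cast (inv_pos.2 h).ne'

theorem nv_norm (b : Fin 2) (y : ℂ) : ‖nv b y (1 - b)‖ ^ 2 * w4 y = 1 := by
  have h := Real.sqrt_pos.2 (w4_pos y)
  have hb : (1 - b) ≠ b := by revert b; decide
  unfold nv
  rw [if_neg hb, mul_one, Complex.norm_real, Real.norm_eq_abs, sq_abs, inv_pow,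
    Real.sq_sqrt (w4_pos y).le, inv_mul_cancel₀ (w4_pos y).ne']

theorem nv_div (b : Fin 2) (y : ℂ) : nv b y b / nv b y (1 - b) = y := by
  have h := Real.sqrt_pos.2 (w4_pos y)
  have hb : (1 - b) ≠ b := by revert b; decide
  have h2 : ((√(w4 y))⁻¹ : ℝ) ≠ 0 := (inv_pos.2 h).ne'
  unfold nv
  rw [if_neg hb, if_pos rfl, mul_one, mul_div_cancel_left₀]
  exact_mod_cast h2

theorem nv_nrm2 (b : Fin 2) (y : ℂ) : nrm2 (sq (nv b y)) = 1 := by
  rw [nrm2_sq]
  have h := Real.sqrt_pos.2 (w4_pos y)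
  have h4 : (√(w4 y)) ^ 4 = 1 + ‖y‖ ^ 4 := by
    rw [show (4 : ℕ) = 2 * 2 by norm_num, pow_mul, Real.sq_sqrt (w4_pos y).le, w4_sq]
  unfold nv
  simp only [norm_mul, Complex.norm_real, Real.norm_eq_abs, mul_pow, abs_inv, inv_pow]
  rw [abs_of_pos h, h4]
  have hp : 0 < 1 + ‖y‖ ^ 4 := by positivity
  fin_cases b
  · simp
    field_simp
    ring
  · simp
    field_simp

/-! ### two-sided bounds for the matrices -/

theorem nrm2_mul_le (A : Matrix (Fin 2) (Fin 2) ℂ) (X : V2) :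
    nrm2 (A *ᵥ X) ≤ (∑ i, ∑ j, ‖A i j‖ ^ 2) * nrm2 X := by
  unfold nrm2
  simp only [Matrix.mulVec, dotProduct, Fin.sum_univ_two]
  have key : ∀ a b x y : ℂ, ‖a * x + b * y‖ ^ 2 ≤ (‖a‖ ^ 2 + ‖b‖ ^ 2) * (‖x‖ ^ 2 + ‖y‖ ^ 2) := by
    intro a b x y
    have h1 : ‖a * x + b * y‖ ≤ ‖a‖ * ‖x‖ + ‖b‖ * ‖y‖ := by
      refine (norm_add_le _ _).trans ?_
      rw [norm_mul, norm_mul]
    have h2 : ‖a * x + b * y‖ ^ 2 ≤ (‖a‖ * ‖x‖ + ‖b‖ * ‖y‖) ^ 2 :=
      pow_le_pow_left₀ (norm_nonneg _) h1 2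
    nlinarith [sq_nonneg (‖a‖ * ‖y‖ - ‖b‖ * ‖x‖)]
  have h0 := key (A 0 0) (A 0 1) (X 0) (X 1)
  have h1 := key (A 1 0) (A 1 1) (X 0) (X 1)
  nlinarith

theorem exists_lam (hM : ∀ i, (M i).det = 1) : ∃ lam : ℝ, 0 < lam ∧
    ∀ i (X : V2), lam * nrm2 (M i *ᵥ X) ≤ nrm2 X ∧ lam * nrm2 X ≤ nrm2 (M i *ᵥ X) := by
  set F : ℝ := 1 + ∑ i, ∑ a, ∑ b, ‖M i a b‖ ^ 2 + ∑ i, ∑ a, ∑ b, ‖(M i)⁻¹ a b‖ ^ 2 with hF
  have hs1 : ∀ i, 0 ≤ ∑ a, ∑ b, ‖M i a b‖ ^ 2 := fun i =>
    Finset.sum_nonneg fun a _ => Finset.sum_nonneg fun b _ => by positivity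
  have hs2 : ∀ i, 0 ≤ ∑ a, ∑ b, ‖(M i)⁻¹ a b‖ ^ 2 := fun i =>
    Finset.sum_nonneg fun a _ => Finset.sum_nonneg fun b _ => by positivity
  have hle1 : ∀ i, ∑ a, ∑ b, ‖M i a b‖ ^ 2 ≤ F := by
    intro i
    have h1 : ∑ a, ∑ b, ‖M i a b‖ ^ 2 ≤ ∑ i, ∑ a, ∑ b, ‖M i a b‖ ^ 2 :=
      Finset.single_le_sum (f := fun i => ∑ a, ∑ b, ‖M i a b‖ ^ 2) (fun i _ => hs1 i)
        (Finset.mem_univ i)
    have h2 := Finset.sum_nonneg fun i (_ : i ∈ Finset.univ) => hs2 i
    linarith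
  have hle2 : ∀ i, ∑ a, ∑ b, ‖(M i)⁻¹ a b‖ ^ 2 ≤ F := by
    intro i
    have h1 : ∑ a, ∑ b, ‖(M i)⁻¹ a b‖ ^ 2 ≤ ∑ i, ∑ a, ∑ b, ‖(M i)⁻¹ a b‖ ^ 2 :=
      Finset.single_le_sum (f := fun i => ∑ a, ∑ b, ‖(M i)⁻¹ a b‖ ^ 2) (fun i _ => hs2 i)
        (Finset.mem_univ i)
    have h2 := Finset.sum_nonneg fun i (_ : i ∈ Finset.univ) => hs1 i
    linarith
  have hF0 : 0 < F := by
    have h1 := Finset.sum_nonneg fun i (_ : i ∈ Finset.univ) => hs1 i
    have h2 := Finset.sum_nonneg fun i (_ : i ∈ Finset.univ) => hs2 i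
    linarith
  have hn : ∀ X : V2, 0 ≤ nrm2 X := fun X => by unfold nrm2; positivity
  refine ⟨F⁻¹, inv_pos.2 hF0, fun i X => ⟨?_, ?_⟩⟩
  · rw [inv_mul_le_iff₀ hF0]
    exact (nrm2_mul_le _ _).trans (mul_le_mul_of_nonneg_right (hle1 i) (hn X))
  · rw [inv_mul_le_iff₀ hF0]
    have h1 : X = (M i)⁻¹ *ᵥ (M i *ᵥ X) := by
      rw [Matrix.mulVec_mulVec, Matrix.nonsing_inv_mul _ (by rw [hM i]; exact isUnit_one),
        Matrix.one_mulVec]
    conv_lhs => rw [h1]
    exact (nrm2_mul_le _ _).trans (mul_le_mul_of_nonneg_right (hle2 i) (hn _))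

/-! ### the two families of norms -/

theorem lineX (hN : StNLM) (hH : IsHermitianMetric (g1 B K) Hm) (hG : IsGriffithsPositive Hm)
    (b : Fin 2) (y : ℂ) : LineNorm (fun a x φ => dn (Hm (a, b) ![x, y]) φ) where
  nonneg a x φ := dn_nonneg (hH.posDef _ _) φ
  smul a x c φ := dn_smul _ c φ
  tri a x φ ψ := dn_tri (hH.posDef _ _) φ ψ
  cont a φ hφ := by
    refine dn_cont ℂ (fun x => Hm (a, b) ![x, y]) φ ?_ (fun x => hH.posDef _ _) hφ
    intro i j
    refine (hH.smooth (a, b) i j).continuous.comp ?_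
    refine continuous_pi fun k => ?_
    fin_cases k
    · exact continuous_id
    · exact continuous_const
  nlm a x0 φ G hφ hGd hφ0 hG0 := by
    intro hmax
    have hξ : (![1, 0] : V2) ≠ 0 := by
      intro h
      have := congrFun h 0
      simp at this
    have ht : Tendsto (fun z : ℂ => x0 + z) (𝓝 0) (𝓝 x0) := by
      have : Continuous (fun z : ℂ => x0 + z) := by fun_prop
      simpa using this.tendsto 0
    refine hN (g1 B K) Hm hH hG (a, b) ![x0, y] ![1, 0] hξ (fun w => φ (x0 + w))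
      (fun w => G (x0 + w)) ?_ ?_ (by simpa using hφ0) (by simpa using hG0) ?_
    · filter_upwards [ht.eventually hφ] with z hz
      exact hz.comp z (by fun_prop)
    · filter_upwards [ht.eventually hGd] with z hz
      exact hz.comp z (by fun_prop)
    · have e : ∀ w : ℂ, (![x0, y] + w • ![1, 0] : V2) = ![x0 + w, y] := by
        intro w
        ext i
        fin_cases i <;> simp
      simp only [e]
      have h := ht.eventually hmax
      filter_upwards [h] with z hz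
      simp only [add_zero]
      exact hz

theorem lineY (hN : StNLM) (hH : IsHermitianMetric (g1 B K) Hm) (hG : IsGriffithsPositive Hm)
    (a : Fin 2) (x : ℂ) : LineNorm (fun b y φ => dn (Hm (a, b) ![x, y]) φ) where
  nonneg b y φ := dn_nonneg (hH.posDef _ _) φ
  smul b y c φ := dn_smul _ c φ
  tri b y φ ψ := dn_tri (hH.posDef _ _) φ ψ
  cont b φ hφ := by
    refine dn_cont ℂ (fun y => Hm (a, b) ![x, y]) φ ?_ (fun x => hH.posDef _ _) hφ
    intro i j
    refine (hH.smooth (a, b) i j).continuous.comp ?_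
    refine continuous_pi fun k => ?_
    fin_cases k
    · exact continuous_const
    · exact continuous_id
  nlm b x0 φ G hφ hGd hφ0 hG0 := by
    intro hmax
    have hξ : (![0, 1] : V2) ≠ 0 := by
      intro h
      have := congrFun h 1
      simp at this
    have ht : Tendsto (fun z : ℂ => x0 + z) (𝓝 0) (𝓝 x0) := by
      have : Continuous (fun z : ℂ => x0 + z) := by fun_prop
      simpa using this.tendsto 0
    refine hN (g1 B K) Hm hH hG (a, b) ![x, x0] ![0, 1] hξ (fun w => φ (x0 + w))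
      (fun w => G (x0 + w)) ?_ ?_ (by simpa using hφ0) (by simpa using hG0) ?_
    · filter_upwards [ht.eventually hφ] with z hz
      exact hz.comp z (by fun_prop)
    · filter_upwards [ht.eventually hGd] with z hz
      exact hz.comp z (by fun_prop)
    · have e : ∀ w : ℂ, (![x, x0] + w • ![0, 1] : V2) = ![x, x0 + w] := by
        intro w
        ext i
        fin_cases i <;> simp
      simp only [e]
      have h := ht.eventually hmax
      filter_upwards [h] with z hz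
      simp only [add_zero]
      exact hz

theorem sq_neg0 (x y : ℂ) : sq ![-x, y] = sq ![x, y] := by
  ext i
  fin_cases i <;> simp [sq]

theorem sq_neg1 (x y : ℂ) : sq ![x, -y] = sq ![x, y] := by
  ext i
  fin_cases i <;> simp [sq]

theorem ph_sq {α : Chart} {p q : V2} (h : sq p = sq q) : ph M L α p = ph M L α q := by
  unfold ph
  rw [h]

/-- the line data in the `x` direction -/
theorem dataX (hN : StNLM) (hF : Fr M B L K) (hH : IsHermitianMetric (g1 B K) Hm)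
    (hG : IsGriffithsPositive Hm) {m : ℝ} (hC : ∀ α p, Cf M B L Hm α p ≤ m)
    (hD : ∀ α p, Df B Hm α p ≤ m) (b : Fin 2) (y : ℂ) (Z : V2) (i : Fin 4)
    (hZ : M i *ᵥ sq Z = sq (nv b y)) :
    LineData (fun a x φ => dn (Hm (a, b) ![x, y]) φ) (nn B)
      (fun a x => nv b y (1 - b) ^ nn B • ph M L (a, b) ![x, y])
      (fun _ _ => nv b y (1 - b) • pv) Z m where
  line := lineX hN hH hG b y
  hdiff a := by
    have h : Differentiable ℂ (fun x : ℂ => ph M L (a, b) ![x, y]) := by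
      refine (hF.f6 (a, b)).comp ?_
      refine differentiable_pi.2 fun k => ?_
      fin_cases k
      · exact differentiable_id
      · exact differentiable_const _
    exact h.const_smul (nv b y (1 - b) ^ nn B)
  vdiff a := differentiable_const _
  heven a x := by
    rw [ph_sq (sq_neg0 x y)]
  veven a x := rfl
  hne a x := smul_ne_zero (pow_ne_zero _ (nv_ne b y)) (hF.f4 _ _)
  th x hx := by
    simp only [dn_smul]
    have h1 := rel_ph hF hH (0, b) (1, b) ![x, y] ⟨fun _ => hx, fun h => absurd rfl h⟩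
    have e : tau (0, b) (1, b) ![x, y] = ![x⁻¹, y] := by
      ext i
      fin_cases i <;> simp [tau]
    rw [e] at h1
    rw [h1]
    simp [sfac]
    ring
  tv x hx := by
    simp only [dn_smul]
    have h1 := rel_pv hF hH (0, b) (1, b) ![x, y] ⟨fun _ => hx, fun h => absurd rfl h⟩
    have e : tau (0, b) (1, b) ![x, y] = ![x⁻¹, y] := by
      ext i
      fin_cases i <;> simp [tau]
    rw [e] at h1
    rw [h1]
    simp [sfac]
    ring
  van a X h0 h1 hX := by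
    have hsq : sq X = sq Z := by
      ext i
      fin_cases i
      · exact h0
      · exact h1
    have h := hF.f5 X (nv b y) i (by rw [hsq, hZ]) (a, b) hX (nv_ne b y)
    simp only [nv_div] at h
    rw [smul_smul, smul_smul]
    exact h
  bh a x := by
    rw [dn_smul, norm_pow, dn_ph_eq (M := M) (B := B) (L := L)]
    have h1 := nv_norm b y
    have h2 : (‖nv b y (1 - b)‖ ^ nn B) ^ 2 * w4 y ^ nn B = 1 := by
      rw [← pow_mul, mul_comm (nn B) 2, pow_mul, ← mul_pow, h1, one_pow]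
    have h3 : (‖nv b y (1 - b)‖ ^ nn B) ^ 2 * (Cf M B L Hm (a, b) ![x, y] *
        (w4 (![x, y] 0) * w4 (![x, y] 1) ^ nn B)) = Cf M B L Hm (a, b) ![x, y] * w4 x := by
      simp only [Matrix.cons_val_zero, Matrix.cons_val_one]
      calc _ = ((‖nv b y (1 - b)‖ ^ nn B) ^ 2 * w4 y ^ nn B) *
            (Cf M B L Hm (a, b) ![x, y] * w4 x) := by ring
        _ = _ := by rw [h2, one_mul]
    rw [h3]
    exact mul_le_mul_of_nonneg_right (hC _ _) (w4_pos x).le
  bv a x := by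
    rw [dn_smul, dn_pv_eq B]
    have h1 := nv_norm b y
    have h3 : ‖nv b y (1 - b)‖ ^ 2 * (Df B Hm (a, b) ![x, y] *
        (w4 (![x, y] 0) ^ nn B * w4 (![x, y] 1))) = Df B Hm (a, b) ![x, y] * w4 x ^ nn B := by
      simp only [Matrix.cons_val_zero, Matrix.cons_val_one]
      calc _ = (‖nv b y (1 - b)‖ ^ 2 * w4 y) *
            (Df B Hm (a, b) ![x, y] * w4 x ^ nn B) := by ring
        _ = _ := by rw [h1, one_mul]
    rw [h3]
    exact mul_le_mul_of_nonneg_right (hD _ _) (pow_nonneg (w4_pos x).le _)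

/-- the line data in the `y` direction -/
theorem dataY (hN : StNLM) (hF : Fr M B L K) (hH : IsHermitianMetric (g1 B K) Hm)
    (hG : IsGriffithsPositive Hm) {m : ℝ} (hC : ∀ α p, Cf M B L Hm α p ≤ m)
    (hD : ∀ α p, Df B Hm α p ≤ m) (a : Fin 2) (x : ℂ) (Z : V2) (i : Fin 4)
    (hZ : M i *ᵥ sq (nv a x) = sq Z) :
    LineData (fun b y φ => dn (Hm (a, b) ![x, y]) φ) (nn B)
      (fun _ _ => nv a x (1 - a) ^ nn B • pv)
      (fun b y => nv a x (1 - a) • ph M L (a, b) ![x, y]) Z m where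
  line := lineY hN hH hG a x
  hdiff a := differentiable_const _
  vdiff b := by
    have h : Differentiable ℂ (fun y : ℂ => ph M L (a, b) ![x, y]) := by
      refine (hF.f6 (a, b)).comp ?_
      refine differentiable_pi.2 fun k => ?_
      fin_cases k
      · exact differentiable_const _
      · exact differentiable_id
    exact h.const_smul (nv a x (1 - a))
  heven a x := rfl
  veven b y := by
    rw [ph_sq (sq_neg1 x y)]
  hne b y := by
    refine smul_ne_zero (pow_ne_zero _ (nv_ne a x)) ?_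
    intro h
    have := congrFun h 1
    simp [pv] at this
  th y hy := by
    simp only [dn_smul]
    have h1 := rel_pv hF hH (a, 0) (a, 1) ![x, y] ⟨fun h => absurd rfl h, fun _ => hy⟩
    have e : tau (a, 0) (a, 1) ![x, y] = ![x, y⁻¹] := by
      ext i
      fin_cases i <;> simp [tau]
    rw [e] at h1
    rw [h1]
    simp [sfac]
    ring
  tv y hy := by
    simp only [dn_smul]
    have h1 := rel_ph hF hH (a, 0) (a, 1) ![x, y] ⟨fun h => absurd rfl h, fun _ => hy⟩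
    have e : tau (a, 0) (a, 1) ![x, y] = ![x, y⁻¹] := by
      ext i
      fin_cases i <;> simp [tau]
    rw [e] at h1
    rw [h1]
    simp [sfac]
    ring
  van b Y h0 h1 hY := by
    have hsq : sq Y = sq Z := by
      ext i
      fin_cases i
      · exact h0
      · exact h1
    have h := hF.f5 (nv a x) Y i (by rw [hsq, hZ]) (a, b) (nv_ne a x) hY
    simp only [nv_div] at h
    rw [smul_smul, smul_smul, mul_comm, mul_comm (Y (1 - b) ^ nn B)]
    exact h.symm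
  bh b y := by
    rw [dn_smul, norm_pow, dn_pv_eq B]
    have h1 := nv_norm a x
    have h2 : (‖nv a x (1 - a)‖ ^ nn B) ^ 2 * w4 x ^ nn B = 1 := by
      rw [← pow_mul, mul_comm (nn B) 2, pow_mul, ← mul_pow, h1, one_pow]
    have h3 : (‖nv a x (1 - a)‖ ^ nn B) ^ 2 * (Df B Hm (a, b) ![x, y] *
        (w4 (![x, y] 0) ^ nn B * w4 (![x, y] 1))) = Df B Hm (a, b) ![x, y] * w4 y := by
      simp only [Matrix.cons_val_zero, Matrix.cons_val_one]
      calc _ = ((‖nv a x (1 - a)‖ ^ nn B) ^ 2 * w4 x ^ nn B) *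
            (Df B Hm (a, b) ![x, y] * w4 y) := by ring
        _ = _ := by rw [h2, one_mul]
    rw [h3]
    exact mul_le_mul_of_nonneg_right (hD _ _) (w4_pos y).le
  bv b y := by
    rw [dn_smul, dn_ph_eq (M := M) (B := B) (L := L)]
    have h1 := nv_norm a x
    have h3 : ‖nv a x (1 - a)‖ ^ 2 * (Cf M B L Hm (a, b) ![x, y] *
        (w4 (![x, y] 0) * w4 (![x, y] 1) ^ nn B)) =
          Cf M B L Hm (a, b) ![x, y] * w4 y ^ nn B := by
      simp only [Matrix.cons_val_zero, Matrix.cons_val_one]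
      calc _ = (‖nv a x (1 - a)‖ ^ 2 * w4 x) *
            (Cf M B L Hm (a, b) ![x, y] * w4 y ^ nn B) := by ring
        _ = _ := by rw [h1, one_mul]
    rw [h3]
    exact mul_le_mul_of_nonneg_right (hC _ _) (pow_nonneg (w4_pos y).le _)

end

theorem nonpos : StNonpos := by
  intro _ hN hF hC M hM hcov
  obtain ⟨κ, hκ, hcovX, hcovY⟩ := hcov
  obtain ⟨lam, hlam, hlb⟩ := exists_lam hM.det
  obtain ⟨n0, hn0⟩ := hC κ lam hκ hlam
  refine ⟨n0, fun B L K hB hctx Hm hH hG => ?_⟩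
  have hfr := fr_of hF hctx
  obtain ⟨m, hm, hCm, hDm, α, p, hmax⟩ := exists_max hfr hH
  have hn : n0 ≤ nn B := by unfold nn; omega
  have hp : p = ![p 0, p 1] := by
    ext i
    fin_cases i <;> rfl
  rcases hmax with hmax | hmax
  · -- maximum attained by the horizontal quantity
    obtain ⟨i, X, hX1, hX2⟩ := hcovY (sq (nv α.2 (p 1)))
    obtain ⟨Z, hZ⟩ := exists_sq X
    have hdata := dataX hN hfr hH hG hCm hDm α.2 (p 1) Z i (by rw [hZ, hX1])
    have h1 : lam ≤ ‖Z 0‖ ^ 4 + ‖Z 1‖ ^ 4 := by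
      rw [← nrm2_sq, hZ]
      have := (hlb i X).1
      rw [hX1, nv_nrm2, mul_one] at this
      exact this
    have h2 : ‖Z 0‖ ^ 4 + ‖Z 1‖ ^ 4 ≤ κ := by
      rw [← nrm2_sq, hZ]
      rw [nv_nrm2, mul_one] at hX2
      exact hX2
    have h3 := hn0 (nn B) hn _ _ _ Z m hm hdata h1 h2 α.1 (p 0)
    have h4 : dn (Hm α p) (nv α.2 (p 1) (1 - α.2) ^ nn B • ph M L α p) ≤
        m / 2 * w4 (p 0) := by
      have e : ((α.1, α.2) : Chart) = α := rfl
      rw [e, ← hp] at h3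
      exact h3
    rw [dn_smul, norm_pow, dn_ph_eq (M := M) (B := B) (L := L), hmax] at h4
    have h5 : (‖nv α.2 (p 1) (1 - α.2)‖ ^ nn B) ^ 2 * w4 (p 1) ^ nn B = 1 := by
      rw [← pow_mul, mul_comm (nn B) 2, pow_mul, ← mul_pow, nv_norm, one_pow]
    have h6 : (‖nv α.2 (p 1) (1 - α.2)‖ ^ nn B) ^ 2 * (m * (w4 (p 0) * w4 (p 1) ^ nn B)) =
        m * w4 (p 0) := by
      calc _ = ((‖nv α.2 (p 1) (1 - α.2)‖ ^ nn B) ^ 2 * w4 (p 1) ^ nn B) * (m * w4 (p 0)) := by
            ring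
        _ = _ := by rw [h5, one_mul]
    rw [h6] at h4
    have := w4_pos (p 0)
    nlinarith [mul_pos hm this]
  · obtain ⟨i, hi⟩ := hcovX (sq (nv α.1 (p 0)))
    obtain ⟨Z, hZ⟩ := exists_sq (M i *ᵥ sq (nv α.1 (p 0)))
    have hdata := dataY hN hfr hH hG hCm hDm α.1 (p 0) Z i hZ.symm
    have h1 : lam ≤ ‖Z 0‖ ^ 4 + ‖Z 1‖ ^ 4 := by
      rw [← nrm2_sq, hZ]
      have := (hlb i (sq (nv α.1 (p 0)))).2
      rw [nv_nrm2, mul_one] at this
      exact this
    have h2 : ‖Z 0‖ ^ 4 + ‖Z 1‖ ^ 4 ≤ κ := by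
      rw [← nrm2_sq, hZ]
      rw [nv_nrm2, mul_one] at hi
      exact hi
    have h3 := hn0 (nn B) hn _ _ _ Z m hm hdata h1 h2 α.2 (p 1)
    have h4 : dn (Hm α p) (nv α.1 (p 0) (1 - α.1) ^ nn B • pv) ≤
        m / 2 * w4 (p 1) := by
      have e : ((α.1, α.2) : Chart) = α := rfl
      rw [e, ← hp] at h3
      exact h3
    rw [dn_smul, norm_pow, dn_pv_eq B, hmax] at h4
    have h5 : (‖nv α.1 (p 0) (1 - α.1)‖ ^ nn B) ^ 2 * w4 (p 0) ^ nn B = 1 := by
      rw [← pow_mul, mul_comm (nn B) 2, pow_mul, ← mul_pow, nv_norm, one_pow]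
    have h6 : (‖nv α.1 (p 0) (1 - α.1)‖ ^ nn B) ^ 2 * (m * (w4 (p 0) ^ nn B * w4 (p 1))) =
        m * w4 (p 1) := by
      calc _ = ((‖nv α.1 (p 0) (1 - α.1)‖ ^ nn B) ^ 2 * w4 (p 0) ^ nn B) * (m * w4 (p 1)) := by
            ring
        _ = _ := by rw [h5, one_mul]
    rw [h6] at h4
    have := w4_pos (p 1)
    nlinarith [mul_pos hm this]

end Crest.Agent.R258.NONPOS

theorem Crest.Agent.R258.nonpos : Crest.Agent.R258.StNonpos := Crest.Agent.R258.NONPOS.nonpos
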